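import Vale.Agent.P072T.Main

/-!
Global existence and uniqueness of solutions for constant rates, `dim S ≤ 2`.
-/

namespace Vale.Agent.P072.Tilt

open Vale.Agent.P072
open Set Filter Topology
open scoped NNReal

noncomputable section

variable {d : ℕ} {ι : Type}

lemma mon_contDiff (src : ι → Fin d → ℕ) (r : ι) :
    ContDiff ℝ 1 (fun x : Fin d → ℝ => mon src x r) := by
  unfold mon
  apply contDiff_prod
  intro i _
  exact (contDiff_apply ℝ ℝ i).pow _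

lemma flux_contDiff [Fintype ι] (src tgt : ι → Fin d → ℕ) (k : ι → ℝ) :
    ContDiff ℝ 1 (flux src tgt k) := by
  unfold flux
  apply ContDiff.sum
  intro r _
  exact (contDiff_const.mul (mon_contDiff src r)).smul contDiff_const

/-- Coordinatewise clamping to a box. -/
def clampB (a b : ℝ) (x : Fin d → ℝ) : Fin d → ℝ := fun i => max a (min b (x i))

lemma clampB_lip (a b : ℝ) : LipschitzWith 1 (clampB (d := d) a b) := by
  apply LipschitzWith.of_dist_le_mul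
  intro x y
  simp only [NNReal.coe_one, one_mul]
  refine (dist_pi_le_iff dist_nonneg).2 fun i => ?_
  refine le_trans ?_ (dist_le_pi_dist x y i)
  simp only [clampB, Real.dist_eq]
  rw [max_comm a, max_comm a, min_comm b, min_comm b]
  refine le_trans (abs_max_sub_max_le_abs _ _ _) ?_
  refine le_trans (abs_min_sub_min_le_max _ _ _ _) ?_
  simp

/-- The closed box. -/
def boxB (a b : ℝ) : Set (Fin d → ℝ) := {x | ∀ i, a ≤ x i ∧ x i ≤ b}

lemma boxB_compact (a b : ℝ) : IsCompact (boxB (d := d) a b) := by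
  have : boxB (d := d) a b = Set.pi univ (fun _ => Icc a b) := by
    ext x
    simp only [boxB, Set.mem_pi, mem_setOf_eq, mem_univ, mem_Icc, true_imp_iff]
  rw [this]
  exact isCompact_univ_pi fun _ => isCompact_Icc

lemma clampB_mem {a b : ℝ} (hab : a ≤ b) (x : Fin d → ℝ) : clampB a b x ∈ boxB a b := by
  intro i
  simp only [clampB]
  exact ⟨le_max_left _ _, max_le hab (min_le_left _ _)⟩

lemma clampB_eq {a b : ℝ} {x : Fin d → ℝ} (hx : x ∈ boxB a b) : clampB a b x = x := by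
  ext i
  simp only [clampB]
  rw [min_eq_right (hx i).2, max_eq_right (hx i).1]

/-- The truncated field is globally Lipschitz and bounded. -/
lemma trunc_props [Fintype ι] (src tgt : ι → Fin d → ℕ) (k : ι → ℝ) {a b : ℝ} (hab : a ≤ b) :
    ∃ K L : ℝ≥0, LipschitzWith K (fun x => flux src tgt k (clampB a b x)) ∧
      ∀ x, ‖flux src tgt k (clampB a b x)‖ ≤ L := by
  have hc := flux_contDiff src tgt k
  obtain ⟨K, hK⟩ := LocallyLipschitzOn.exists_lipschitzOnWith_of_compact (boxB_compact (d := d) a b)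
    ((hc.locallyLipschitz).locallyLipschitzOn (s := boxB a b))
  obtain ⟨C, hC⟩ := (boxB_compact (d := d) a b).exists_bound_of_continuousOn hc.continuous.continuousOn
  refine ⟨K, ⟨max C 0, le_max_right _ _⟩, ?_, ?_⟩
  · apply LipschitzWith.of_dist_le_mul
    intro x y
    have h1 := hK.dist_le_mul _ (clampB_mem hab x) _ (clampB_mem hab y)
    have h2 : dist (clampB a b x) (clampB a b y) ≤ dist x y := by
      simpa using (clampB_lip (d := d) a b).dist_le_mul x y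
    calc _ ≤ (K : ℝ) * dist (clampB a b x) (clampB a b y) := h1
      _ ≤ _ := mul_le_mul_of_nonneg_left h2 K.2
  · intro x
    exact le_trans (hC _ (clampB_mem hab x)) (le_max_left _ _)

/-- Picard-Lindelof on `[0, T]` for a globally Lipschitz bounded autonomous field. -/
lemma exists_sol_Icc {G : (Fin d → ℝ) → Fin d → ℝ} {K L : ℝ≥0} (hG : LipschitzWith K G)
    (hb : ∀ x, ‖G x‖ ≤ L) (x₀ : Fin d → ℝ) {T : ℝ} (hT : 0 ≤ T) :
    ∃ α : ℝ → Fin d → ℝ, α 0 = x₀ ∧ ∀ t ∈ Icc (0 : ℝ) T, HasDerivWithinAt α (G (α t)) (Icc 0 T) t := by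
  have h0 : (0 : ℝ) ∈ Icc (0 : ℝ) T := ⟨le_rfl, hT⟩
  have hPL : IsPicardLindelof (fun _ : ℝ => G) (tmin := 0) (tmax := T) ⟨0, h0⟩ x₀
      (L * T.toNNReal) 0 L K := by
    refine ⟨fun _ _ => hG.lipschitzOnWith, fun _ _ => continuousOn_const, fun _ _ x _ => hb x, ?_⟩
    simp only [NNReal.coe_zero, sub_zero, sub_self]
    rw [max_eq_left hT]
    rw [NNReal.coe_mul, Real.coe_toNNReal T hT]
  obtain ⟨α, h1, h2⟩ := hPL.exists_eq_forall_mem_Icc_hasDerivWithinAt₀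
  exact ⟨α, h1, h2⟩

/-- Uniqueness for a globally Lipschitz autonomous field. -/
lemma sol_unique {G : (Fin d → ℝ) → Fin d → ℝ} {K : ℝ≥0} (hG : LipschitzWith K G) {T : ℝ}
    {α β : ℝ → Fin d → ℝ} (h0 : α 0 = β 0)
    (hα : ∀ t ∈ Icc (0 : ℝ) T, HasDerivWithinAt α (G (α t)) (Icc 0 T) t)
    (hβ : ∀ t ∈ Icc (0 : ℝ) T, HasDerivWithinAt β (G (β t)) (Icc 0 T) t) :
    EqOn α β (Icc 0 T) := by
  have hmem : ∀ t ∈ Ico (0 : ℝ) T, Icc 0 T ∈ 𝓝[Ici t] t := fun t ht =>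
    mem_of_superset (Icc_mem_nhdsGE ht.2) (Icc_subset_Icc_left ht.1)
  refine ODE_solution_unique_of_mem_Icc_right (v := fun _ => G) (s := fun _ => univ) (K := K)
    (fun _ _ => hG.lipschitzOnWith) (fun t ht => (hα t ht).continuousWithinAt) (fun t ht => ?_)
    (fun _ _ => mem_univ _) (fun t ht => (hβ t ht).continuousWithinAt) (fun t ht => ?_)
    (fun _ _ => mem_univ _) h0
  · exact (hα t ⟨ht.1, ht.2.le⟩).mono_of_mem_nhdsWithin (hmem t ht)
  · exact (hβ t ⟨ht.1, ht.2.le⟩).mono_of_mem_nhdsWithin (hmem t ht)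

/-- The open box. -/
def ubox (a b : ℝ) : Set (Fin d → ℝ) := {x | ∀ i, a < x i ∧ x i < b}

lemma ubox_open (a b : ℝ) : IsOpen (ubox (d := d) a b) := by
  have : ubox (d := d) a b = ⋂ i, ((fun x : Fin d → ℝ => x i) ⁻¹' Ioo a b) := by
    ext x; simp [ubox]
  rw [this]
  exact isOpen_iInter_of_finite fun i => (isOpen_Ioo).preimage (continuous_apply i)

/-- Trapping: the solution of the truncated equation stays in the inner box. -/
lemma trapped [Fintype ι] {src tgt : ι → Fin d → ℕ} {k : ι → ℝ} {a b δ M : ℝ} (ha : 0 < a)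
    (hδ : a < δ) (hM : M < b) {x₀ : Fin d → ℝ}
    (hap : ∀ (T' : ℝ) (x : ℝ → Fin d → ℝ), x 0 = x₀ → Sol src tgt (fun r _ => k r) x (Ico 0 T') →
      ∀ t ∈ Ico (0 : ℝ) T', x t ∈ boxB δ M)
    (hx₀ : x₀ ∈ boxB δ M) {T : ℝ} (hT : 0 ≤ T) {α : ℝ → Fin d → ℝ} (h0 : α 0 = x₀)
    (hα : ∀ t ∈ Icc (0 : ℝ) T, HasDerivWithinAt α (flux src tgt k (clampB a b (α t))) (Icc 0 T) t) :
    ∀ t ∈ Icc (0 : ℝ) T, α t ∈ boxB δ M := by
  have hsub : boxB (d := d) δ M ⊆ ubox a b := fun x hx i =>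
    ⟨lt_of_lt_of_le hδ (hx i).1, lt_of_le_of_lt (hx i).2 hM⟩
  have hcont : ContinuousOn α (Icc 0 T) := fun t ht => (hα t ht).continuousWithinAt
  have hcl : ∀ x ∈ ubox (d := d) a b, clampB a b x = x := fun x hx =>
    clampB_eq fun i => ⟨(hx i).1.le, (hx i).2.le⟩
  -- a piece inside the open box solves the true equation
  have hsol : ∀ t ∈ Icc (0 : ℝ) T, (∀ u ∈ Ico (0 : ℝ) t, α u ∈ ubox a b) →
      ∀ u ∈ Ico (0 : ℝ) t, α u ∈ boxB δ M := by
    intro t ht hu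
    refine hap t α h0 fun u hu' => ⟨fun i => lt_trans ha (hu u hu' i).1, ?_⟩
    have hu2 : u ∈ Icc (0 : ℝ) T := ⟨hu'.1, le_trans hu'.2.le ht.2⟩
    have := (hα u hu2).mono (fun v (hv : v ∈ Ico 0 t) => (⟨hv.1, le_trans hv.2.le ht.2⟩ : v ∈ Icc 0 T))
    rwa [hcl _ (hu u hu')] at this
  -- closure step
  have hclos : ∀ t ∈ Icc (0 : ℝ) T, (∀ u ∈ Ico (0 : ℝ) t, α u ∈ boxB δ M) → α t ∈ boxB δ M := by
    intro t ht hu
    rcases eq_or_lt_of_le ht.1 with h | h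
    · rw [← h, h0]; exact hx₀
    · have h1 : t ∈ closure (Ico (0 : ℝ) t) := by
        rw [closure_Ico (ne_of_lt h)]; exact ⟨h.le, le_rfl⟩
      have h2 : ContinuousWithinAt α (Ico 0 t) t := (hcont t ht).mono
        (fun v hv => ⟨hv.1, le_trans hv.2.le ht.2⟩)
      have h3 := h2.mem_closure h1 (fun v hv => hu v hv)
      rwa [(boxB_compact (d := d) δ M).isClosed.closure_eq] at h3
  -- the closed set of good times
  set s : Set ℝ := {t | t ∈ Icc (0 : ℝ) T ∧ ∀ u ∈ Ico (0 : ℝ) t, α u ∈ ubox a b} with hs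
  have hsclosed : IsClosed s := by
    have : s = Icc (0 : ℝ) T ∩ ⋂ u : ℝ, {t | u ∈ Ico (0 : ℝ) t → α u ∈ ubox a b} := by
      ext t
      simp only [hs, mem_setOf_eq, mem_inter_iff, mem_iInter]
    rw [this]
    refine isClosed_Icc.inter (isClosed_iInter fun u => ?_)
    by_cases hu : 0 ≤ u ∧ α u ∉ ubox a b
    · have : {t : ℝ | u ∈ Ico (0 : ℝ) t → α u ∈ ubox a b} = Iic u := by
        ext t
        simp only [mem_setOf_eq, mem_Ico, mem_Iic]
        constructor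
        · intro h
          by_contra hn
          exact hu.2 (h ⟨hu.1, not_le.1 hn⟩)
        · intro h h2
          exact absurd h2.2 (not_lt.2 h)
      rw [this]
      exact isClosed_Iic
    · have : {t : ℝ | u ∈ Ico (0 : ℝ) t → α u ∈ ubox a b} = univ := by
        ext t
        simp only [mem_setOf_eq, mem_univ, iff_true]
        intro h
        by_contra hn
        exact hu ⟨h.1, hn⟩
      rw [this]
      exact isClosed_univ
  have h0s : (0 : ℝ) ∈ s := ⟨⟨le_rfl, hT⟩, fun u hu => absurd hu.2 (not_lt.2 hu.1)⟩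
  have hstep : ∀ t ∈ s ∩ Ico 0 T, s ∈ 𝓝[>] t := by
    rintro t ⟨⟨ht, hu⟩, htT⟩
    have hbt := hclos t ht (hsol t ht hu)
    have hUn : ∀ᶠ v in 𝓝[Icc 0 T] t, α v ∈ ubox a b :=
      (hcont t ht).preimage_mem_nhdsWithin ((ubox_open a b).mem_nhds (hsub hbt))
    rw [eventually_nhdsWithin_iff, Metric.eventually_nhds_iff] at hUn
    obtain ⟨η, hη, hUn⟩ := hUn
    have hpos : 0 < min η (T - t) := lt_min hη (by linarith [htT.2])
    have : Ioo t (t + min η (T - t)) ⊆ s := by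
      intro w hw
      have hw1 : w ≤ T := by
        have := hw.2
        have h2 := min_le_right η (T - t)
        linarith
      refine ⟨⟨le_trans ht.1 hw.1.le, hw1⟩, fun u hu' => ?_⟩
      rcases lt_or_ge u t with hlt | hge
      · exact hu u ⟨hu'.1, hlt⟩
      · refine hUn ?_ ⟨hu'.1, le_trans hu'.2.le hw1⟩
        rw [Real.dist_eq, abs_lt]
        have := hw.2
        have h2 := min_le_left η (T - t)
        constructor <;> linarith [hu'.2]
    exact mem_of_superset (Ioo_mem_nhdsGT (by linarith)) this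
  have hall : Icc 0 T ⊆ s := IsClosed.Icc_subset_of_forall_mem_nhdsWithin
    (hsclosed.inter isClosed_Icc) h0s hstep
  have hT' := (hall ⟨hT, le_rfl⟩).2
  have hb1 : ∀ u ∈ Ico (0 : ℝ) T, α u ∈ boxB δ M := hsol T ⟨hT, le_rfl⟩ hT'
  intro t ht
  rcases eq_or_lt_of_le ht.2 with h | h
  · rw [h]; exact hclos T ⟨hT, le_rfl⟩ hb1
  · exact hb1 t ⟨ht.1, h⟩

/-- Existence and uniqueness of the global solution under an a priori bound. -/
theorem global_of_apriori [Fintype ι] {src tgt : ι → Fin d → ℕ} {k : ι → ℝ} {δ M : ℝ} (hδ : 0 < δ)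
    {x₀ : Fin d → ℝ}
    (hap : ∀ (T' : ℝ) (x : ℝ → Fin d → ℝ), x 0 = x₀ → Sol src tgt (fun r _ => k r) x (Ico 0 T') →
      ∀ t ∈ Ico (0 : ℝ) T', x t ∈ boxB δ M)
    (hx₀ : x₀ ∈ boxB δ M) :
    ∃ x : ℝ → Fin d → ℝ, x 0 = x₀ ∧
      (∀ t, 0 ≤ t → (∀ i, 0 < x t i) ∧ HasDerivWithinAt x (flux src tgt k (x t)) (Ici 0) t) ∧
      ∀ y : ℝ → Fin d → ℝ, y 0 = x₀ →
        (∀ t, 0 ≤ t → (∀ i, 0 < y t i) ∧ HasDerivWithinAt y (flux src tgt k (y t)) (Ici 0) t) →
        ∀ t, 0 ≤ t → y t = x t := by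
  set a := δ / 2 with ha
  set b := max M δ + 1 with hb
  have ha0 : 0 < a := by positivity
  have haδ : a < δ := by rw [ha]; linarith
  have hMb : M < b := by rw [hb]; linarith [le_max_left M δ]
  have hδb : δ < b := by rw [hb]; linarith [le_max_right M δ]
  have hab : a ≤ b := by linarith
  obtain ⟨K, L, hLip, hBd⟩ := trunc_props src tgt k hab
  set G := fun x => flux src tgt k (clampB a b x) with hG
  have hcl : ∀ x ∈ boxB (d := d) δ M, G x = flux src tgt k x := fun x hx => by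
    simp only [hG]
    rw [clampB_eq]
    exact fun i => ⟨by linarith [(hx i).1], by linarith [(hx i).2]⟩
  have hex : ∀ n : ℕ, ∃ α : ℝ → Fin d → ℝ, α 0 = x₀ ∧
      ∀ t ∈ Icc (0 : ℝ) ((n : ℝ) + 1), HasDerivWithinAt α (G (α t)) (Icc 0 ((n : ℝ) + 1)) t :=
    fun n => exists_sol_Icc hLip hBd x₀ (by positivity)
  choose α hα0 hα using hex
  have htrap : ∀ n : ℕ, ∀ t ∈ Icc (0 : ℝ) ((n : ℝ) + 1), α n t ∈ boxB δ M := fun n =>
    trapped ha0 haδ hMb hap hx₀ (by positivity) (hα0 n) (hα n)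
  have hagree : ∀ m n : ℕ, m ≤ n → EqOn (α m) (α n) (Icc 0 ((m : ℝ) + 1)) := by
    intro m n hmn
    have hmn' : (m : ℝ) + 1 ≤ (n : ℝ) + 1 := by
      have : (m : ℝ) ≤ n := by exact_mod_cast hmn
      linarith
    exact sol_unique hLip ((hα0 m).trans (hα0 n).symm) (hα m) (fun t ht =>
      (hα n t ⟨ht.1, le_trans ht.2 hmn'⟩).mono (Icc_subset_Icc_right hmn'))
  have hx₀pos : ∀ i, 0 < x₀ i := fun i => lt_of_lt_of_le hδ (hx₀ i).1
  set x : ℝ → Fin d → ℝ := fun t => α ⌈t⌉₊ t with hx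
  have hceil : ∀ t : ℝ, 0 ≤ t → t ∈ Icc (0 : ℝ) ((⌈t⌉₊ : ℝ) + 1) := fun t ht =>
    ⟨ht, by linarith [Nat.le_ceil t]⟩
  -- `x` agrees with `α n` on `[0, n + 1]`
  have hxα : ∀ (n : ℕ) (t : ℝ), t ∈ Icc (0 : ℝ) ((n : ℝ) + 1) → x t = α n t := by
    intro n t ht
    simp only [hx]
    rcases le_total ⌈t⌉₊ n with h | h
    · exact hagree _ _ h (hceil t ht.1)
    · exact (hagree _ _ h ht).symm
  have hxbox : ∀ t, 0 ≤ t → x t ∈ boxB δ M := fun t ht => htrap _ t (hceil t ht)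
  have hder : ∀ t, 0 ≤ t → HasDerivWithinAt x (flux src tgt k (x t)) (Ici 0) t := by
    intro t ht
    set n := ⌈t⌉₊ with hn
    have h1 := hα n t (hceil t ht)
    have hlt : t < (n : ℝ) + 1 := by linarith [Nat.le_ceil t]
    have hmem : Icc (0 : ℝ) ((n : ℝ) + 1) ∈ 𝓝[Ici 0] t := by
      have : Ici (0 : ℝ) ∩ Iio ((n : ℝ) + 1) ⊆ Icc 0 ((n : ℝ) + 1) := fun u hu => ⟨hu.1, le_of_lt hu.2⟩
      exact mem_of_superset (inter_mem_nhdsWithin _ (Iio_mem_nhds hlt)) this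
    have h2 := h1.mono_of_mem_nhdsWithin hmem
    have heq : G (α n t) = flux src tgt k (x t) := by
      rw [hcl _ (htrap n t (hceil t ht))]
    rw [heq] at h2
    refine h2.congr_of_eventuallyEq ?_ (hxα n t (hceil t ht))
    filter_upwards [hmem] with u hu using hxα n u hu
  refine ⟨x, ?_, fun t ht => ⟨fun i => lt_of_lt_of_le hδ ((hxbox t ht) i).1, hder t ht⟩, ?_⟩
  · rw [hxα 0 0 ⟨le_rfl, by norm_num⟩]
    exact hα0 0
  · intro y hy0 hy t ht
    -- `y` is in the box and solves the truncated equation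
    have hybox : ∀ T' : ℝ, ∀ u ∈ Ico (0 : ℝ) T', y u ∈ boxB δ M := fun T' =>
      hap T' y hy0 fun u hu => ⟨(hy u hu.1).1, (hy u hu.1).2.mono
        (fun v (hv : v ∈ Ico 0 T') => hv.1)⟩
    have hyb : ∀ u, 0 ≤ u → y u ∈ boxB δ M := fun u hu => hybox (u + 1) u ⟨hu, by linarith⟩ 
    have hTt : (0 : ℝ) ≤ t := ht
    have hyT : ∀ u ∈ Icc (0 : ℝ) t, HasDerivWithinAt y (G (y u)) (Icc 0 t) u := by
      intro u hu
      rw [hcl _ (hyb u hu.1)]
      exact (hy u hu.1).2.mono (fun v hv => hv.1)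
    have hxT : ∀ u ∈ Icc (0 : ℝ) t, HasDerivWithinAt x (G (x u)) (Icc 0 t) u := by
      intro u hu
      rw [hcl _ (hxbox u hu.1)]
      exact (hder u hu.1).mono (fun v hv => hv.1)
    have hx0 : x 0 = x₀ := by
      rw [hxα 0 0 ⟨le_rfl, by norm_num⟩]
      exact hα0 0
    exact sol_unique hLip (hy0.trans hx0.symm) hyT hxT ⟨ht, le_rfl⟩

/-- Global well-posedness for constant rates and `dim S ≤ 2`. -/
theorem global_rank_two [Fintype ι] (src tgt : ι → Fin d → ℕ) (hne : ∀ r, src r ≠ tgt r)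
    (WR : WeaklyRev src tgt) (hrank : Module.finrank ℝ (Sp src tgt) ≤ 2) (k : ι → ℝ)
    (hk : ∀ r, 0 < k r) (x₀ : Fin d → ℝ) (hx₀ : ∀ i, 0 < x₀ i) :
    ∃ x : ℝ → Fin d → ℝ, x 0 = x₀ ∧
      (∀ t, 0 ≤ t → (∀ i, 0 < x t i) ∧ HasDerivWithinAt x (flux src tgt k (x t)) (Ici 0) t) ∧
      ∀ y : ℝ → Fin d → ℝ, y 0 = x₀ →
        (∀ t, 0 ≤ t → (∀ i, 0 < y t i) ∧ HasDerivWithinAt y (flux src tgt k (y t)) (Ici 0) t) →
        ∀ t, 0 ≤ t → y t = x t := by
  obtain ⟨ε, hε, hεk⟩ := exists_pos_le (fun r => min (k r) (1 / k r))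
    (fun r => lt_min (hk r) (div_pos one_pos (hk r)))
  obtain ⟨δ₀, hδ₀, hδ₀le⟩ := exists_pos_le x₀ hx₀
  obtain ⟨Λ₀, -, hΛ₀⟩ := exists_ge_all x₀
  obtain ⟨δ₁, M₁, hδ₁, hb⟩ := stage_one src tgt hne WR hrank hx₀ ε hε hδ₀ Λ₀
  have hrate : ∀ r, ε ≤ k r ∧ k r ≤ 1 / ε := fun r => by
    have h1 := le_trans (hεk r) (min_le_left _ _)
    have h2 := le_trans (hεk r) (min_le_right _ _)
    refine ⟨h1, ?_⟩
    rw [le_div_iff₀ hε]
    rw [le_div_iff₀ (hk r)] at h2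
    linarith
  have hap : ∀ (T' : ℝ) (x : ℝ → Fin d → ℝ), x 0 = x₀ → Sol src tgt (fun r _ => k r) x (Ico 0 T') →
      ∀ t ∈ Ico (0 : ℝ) T', x t ∈ boxB (min δ₁ δ₀) (max M₁ Λ₀) := by
    intro T' x h0 hs t ht i
    have := hb (fun r _ => k r) T' x (fun r _ _ => hrate r) (by
      rw [h0, sub_self]; exact Submodule.zero_mem _) (fun i => by
      rw [h0]; exact ⟨hδ₀le i, hΛ₀ i⟩) hs t ht i
    exact ⟨le_trans (min_le_left _ _) this.1, le_trans this.2 (le_max_left _ _)⟩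
  have hx₀box : x₀ ∈ boxB (min δ₁ δ₀) (max M₁ Λ₀) := fun i =>
    ⟨le_trans (min_le_right _ _) (hδ₀le i), le_trans (hΛ₀ i) (le_max_right _ _)⟩
  exact global_of_apriori (lt_min hδ₁ hδ₀) hap hx₀box

end

end Vale.Agent.P072.Tilt
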