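import Vale.Agent.P072T.Package

/-!
Bounded pairings with all reaction vectors confine a point of the stoichiometric class to a compact
subset of the positive orthant.
-/

namespace Vale.Agent.P072.Tilt

open Vale.Agent.P072
open Finset

noncomputable section

variable {d : ℕ}

/-- Finite families of positive numbers have a positive lower bound. -/
lemma exists_pos_le {κ : Type*} [Fintype κ] (f : κ → ℝ) (hf : ∀ i, 0 < f i) :
    ∃ δ : ℝ, 0 < δ ∧ ∀ i, δ ≤ f i := by
  have hs : 0 < ∑ i, 1 / f i + 1 := by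
    have : 0 ≤ ∑ i, 1 / f i := Finset.sum_nonneg fun i _ => (div_pos one_pos (hf i)).le
    linarith
  refine ⟨(∑ i, 1 / f i + 1)⁻¹, inv_pos.mpr hs, fun i => ?_⟩
  have h1 : 1 / f i ≤ ∑ i, 1 / f i :=
    Finset.single_le_sum (f := fun i => 1 / f i) (fun i _ => (div_pos one_pos (hf i)).le)
      (Finset.mem_univ i)
  rw [inv_le_comm₀ hs (hf i), ← one_div]
  linarith

/-- Finite families of numbers have an upper bound. -/
lemma exists_ge_all {κ : Type*} [Fintype κ] (f : κ → ℝ) : ∃ R : ℝ, 0 ≤ R ∧ ∀ i, f i ≤ R := by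
  refine ⟨∑ i, |f i|, Finset.sum_nonneg fun i _ => abs_nonneg _, fun i => ?_⟩
  exact le_trans (le_abs_self _) (Finset.single_le_sum (f := fun i => |f i|)
    (fun i _ => abs_nonneg _) (Finset.mem_univ i))

/-- Bounded coefficients on a span. -/
lemma coef_bound {ι : Type} [Fintype ι] (w : ι → Fin d → ℝ) :
    ∃ K : ℝ, 0 ≤ K ∧ ∀ u ∈ Submodule.span ℝ (Set.range w), ∃ α : ι → ℝ,
      (∀ i, u i = ∑ r, α r * w r i) ∧ ∀ r, |α r| ≤ K * ‖u‖ := by
  classical
  set Φ : (ι → ℝ) →ₗ[ℝ] (Fin d → ℝ) := Fintype.linearCombination ℝ w with hΦ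
  set S := Submodule.span ℝ (Set.range w) with hS
  have hrange : LinearMap.range Φ = S := Fintype.range_linearCombination ℝ w
  have hcod : ∀ α, Φ α ∈ S := fun α => by
    rw [← hrange]
    exact LinearMap.mem_range_self _ _
  let Φ' : (ι → ℝ) →ₗ[ℝ] S := Φ.codRestrict S hcod
  have hsurj : LinearMap.range Φ' = ⊤ := by
    rw [LinearMap.range_eq_top]
    rintro ⟨u, hu⟩
    rw [← hrange] at hu
    obtain ⟨α, hα⟩ := hu
    exact ⟨α, Subtype.ext hα⟩
  obtain ⟨Ψ, hΨ⟩ := LinearMap.exists_rightInverse_of_surjective Φ' hsurj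
  let Ψc : S →L[ℝ] (ι → ℝ) := LinearMap.toContinuousLinearMap Ψ
  refine ⟨‖Ψc‖, ContinuousLinearMap.opNorm_nonneg _, fun u hu => ?_⟩
  refine ⟨Ψ ⟨u, hu⟩, ?_, ?_⟩
  · intro i
    have h1 : Φ' (Ψ ⟨u, hu⟩) = ⟨u, hu⟩ := by
      have := LinearMap.congr_fun hΨ ⟨u, hu⟩
      simpa using this
    have h2 : Φ (Ψ ⟨u, hu⟩) = u := congrArg Subtype.val h1
    have h3 := congrFun h2 i
    rw [hΦ, Fintype.linearCombination_apply] at h3
    rw [← h3]
    simp
  · intro r
    have h1 : ‖Ψc ⟨u, hu⟩‖ ≤ ‖Ψc‖ * ‖(⟨u, hu⟩ : S)‖ := Ψc.le_opNorm _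
    have h2 : |Ψ ⟨u, hu⟩ r| ≤ ‖Ψc ⟨u, hu⟩‖ := by
      have := norm_le_pi_norm (Ψc ⟨u, hu⟩) r
      rw [Real.norm_eq_abs] at this
      exact this
    have h3 : ‖(⟨u, hu⟩ : S)‖ = ‖u‖ := rfl
    rw [h3] at h1
    exact le_trans h2 h1

/-- Bounded pairings with all reactions give a compact box. -/
theorem compact_of_pairings {ι : Type} [Fintype ι] (w : ι → Fin d → ℝ) {c : Fin d → ℝ}
    (hc : ∀ i, 0 < c i) (a : Fin d → ℝ) (D : ℝ) (hD : 0 ≤ D) :
    ∃ δ R : ℝ, 0 < δ ∧ ∀ x : Fin d → ℝ, (∀ i, 0 < x i) →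
      x - c ∈ Submodule.span ℝ (Set.range w) → (∀ r, |ip (lg a x) (w r)| ≤ D) →
      ∀ i, δ ≤ x i ∧ x i ≤ R := by
  classical
  obtain ⟨K, hK0, hK⟩ := coef_bound w
  set Q := K * (Fintype.card ι : ℝ) * D + ∑ i, |a i - Real.log (c i)| with hQ
  have hQ0 : 0 ≤ Q := by
    have : 0 ≤ ∑ i, |a i - Real.log (c i)| := Finset.sum_nonneg fun i _ => abs_nonneg _
    have h2 : 0 ≤ K * (Fintype.card ι : ℝ) * D := by positivity
    linarith
  set C := ∑ i, c i with hCdef
  have hCi : ∀ i, c i ≤ C := fun i =>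
    Finset.single_le_sum (f := c) (fun j _ => (hc j).le) (Finset.mem_univ i)
  have hC0 : 0 ≤ C := Finset.sum_nonneg fun i _ => (hc i).le
  set X₀ := C * Real.exp Q with hX₀
  have hX₀0 : 0 ≤ X₀ := by positivity
  have hexp1 : 1 ≤ Real.exp Q := Real.one_le_exp hQ0
  -- the lower bound for a single coordinate
  obtain ⟨δ, hδ0, hδ⟩ := exists_pos_le
    (fun i => min (c i / 2) (c i * Real.exp (-(2 * (Q * X₀) / c i))))
    (fun i => lt_min (by linarith [hc i]) (mul_pos (hc i) (Real.exp_pos _)))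
  refine ⟨δ, C + X₀, hδ0, ?_⟩
  intro x hx hS hpair i0
  set u : Fin d → ℝ := x - c with hu
  obtain ⟨α, hα1, hα2⟩ := hK u hS
  set X := ‖u‖ with hX
  have hX0 : 0 ≤ X := norm_nonneg _
  have hui : ∀ i, |x i - c i| ≤ X := fun i => by
    have := norm_le_pi_norm u i
    simpa [hu] using this
  -- the pairing with `u`
  have e1 : ip (lg a x) u = ∑ r, α r * ip (lg a x) (w r) := by
    unfold ip
    simp_rw [hα1, Finset.mul_sum]
    rw [Finset.sum_comm]
    apply Finset.sum_congr rfl
    intro r _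
    apply Finset.sum_congr rfl
    intro i _
    ring
  have e2 : ip (lg a x) u ≤ K * (Fintype.card ι : ℝ) * D * X := by
    rw [e1]
    calc ∑ r, α r * ip (lg a x) (w r) ≤ ∑ _r : ι, K * X * D := by
          apply Finset.sum_le_sum
          intro r _
          calc α r * ip (lg a x) (w r) ≤ |α r * ip (lg a x) (w r)| := le_abs_self _
            _ = |α r| * |ip (lg a x) (w r)| := abs_mul _ _
            _ ≤ K * X * D := mul_le_mul (hα2 r) (hpair r) (abs_nonneg _) (by positivity)
      _ = (Fintype.card ι : ℝ) * (K * X * D) := by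
          simp
      _ = _ := by ring
  have hterm : ∀ i, 0 ≤ (x i - c i) * (Real.log (x i) - Real.log (c i)) := fun i => by
    rcases le_total (c i) (x i) with h | h
    · exact mul_nonneg (by linarith) (by linarith [Real.log_le_log (hc i) h])
    · exact mul_nonneg_of_nonpos_of_nonpos (by linarith) (by linarith [Real.log_le_log (hx i) h])
  have e3 : ∑ i, (x i - c i) * (Real.log (x i) - Real.log (c i))
      = ip (lg a x) u + ∑ i, (a i - Real.log (c i)) * (x i - c i) := by
    unfold ip lg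
    rw [← Finset.sum_add_distrib]
    apply Finset.sum_congr rfl
    intro i _
    simp only [hu, Pi.sub_apply]
    ring
  have e4 : ∑ i, (a i - Real.log (c i)) * (x i - c i) ≤ (∑ i, |a i - Real.log (c i)|) * X := by
    rw [Finset.sum_mul]
    apply Finset.sum_le_sum
    intro i _
    calc (a i - Real.log (c i)) * (x i - c i) ≤ |(a i - Real.log (c i)) * (x i - c i)| :=
          le_abs_self _
      _ = |a i - Real.log (c i)| * |x i - c i| := abs_mul _ _
      _ ≤ |a i - Real.log (c i)| * X := mul_le_mul_of_nonneg_left (hui i) (abs_nonneg _)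
  have hT : ∑ i, (x i - c i) * (Real.log (x i) - Real.log (c i)) ≤ Q * X := by
    rw [e3, hQ, add_mul]
    linarith
  have hsingle : ∀ i, (x i - c i) * (Real.log (x i) - Real.log (c i)) ≤ Q * X := fun i =>
    le_trans (Finset.single_le_sum (f := fun i => (x i - c i) * (Real.log (x i) - Real.log (c i)))
      (fun i _ => hterm i) (Finset.mem_univ i)) hT
  -- bound on `X`
  have hXb : X ≤ X₀ := by
    by_cases hXpos : X = 0
    · rw [hXpos]; exact hX₀0
    have hXpos' : 0 < X := lt_of_le_of_ne hX0 (Ne.symm hXpos)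
    -- a coordinate where the norm is attained
    obtain ⟨m, hm⟩ : ∃ m, |x m - c m| = X := by
      have hne : (Finset.univ : Finset (Fin d)).Nonempty := ⟨i0, Finset.mem_univ _⟩
      obtain ⟨m, _, hm⟩ := Finset.univ.exists_max_image (fun i => |x i - c i|) hne
      refine ⟨m, le_antisymm (hui m) ?_⟩
      rw [hX, pi_norm_le_iff_of_nonneg (abs_nonneg _)]
      intro i
      have := hm i (Finset.mem_univ i)
      simpa [hu] using this
    have h1 := hsingle m
    have h2 : (x m - c m) * (Real.log (x m) - Real.log (c m)) = X * |Real.log (x m) - Real.log (c m)| := by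
      rw [← hm, ← abs_mul, abs_of_nonneg (hterm m)]
    rw [h2, mul_comm Q X] at h1
    have h3 : |Real.log (x m) - Real.log (c m)| ≤ Q := le_of_mul_le_mul_left h1 hXpos'
    have h4 : Real.log (x m) ≤ Real.log (c m) + Q := by
      have := (abs_le.mp h3).2
      linarith
    have h5 : x m ≤ c m * Real.exp Q := by
      calc x m = Real.exp (Real.log (x m)) := (Real.exp_log (hx m)).symm
        _ ≤ Real.exp (Real.log (c m) + Q) := Real.exp_le_exp.mpr h4
        _ = c m * Real.exp Q := by rw [Real.exp_add, Real.exp_log (hc m)]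
    have h6 : c m * Real.exp Q ≤ X₀ := mul_le_mul_of_nonneg_right (hCi m) (Real.exp_pos _).le
    rw [← hm]
    have h7 : c m ≤ c m * Real.exp Q := by nlinarith [hc m]
    rw [abs_le]
    constructor
    · linarith [hx m, hc m]
    · linarith [hc m, hx m]
  constructor
  · have hδi : δ ≤ min (c i0 / 2) (c i0 * Real.exp (-(2 * (Q * X₀) / c i0))) := hδ i0
    by_cases hhalf : c i0 / 2 ≤ x i0
    · exact le_trans hδi (le_trans (min_le_left _ _) hhalf)
    push_neg at hhalf
    refine le_trans hδi (le_trans (min_le_right _ _) ?_)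
    have h1 := hsingle i0
    have hci := hc i0
    have hxi := hx i0
    have hlogx : Real.log (x i0) ≤ Real.log (c i0) := Real.log_le_log hxi (by linarith)
    have h2 : c i0 / 2 * (Real.log (c i0) - Real.log (x i0))
        ≤ (x i0 - c i0) * (Real.log (x i0) - Real.log (c i0)) := by
      have e : (x i0 - c i0) * (Real.log (x i0) - Real.log (c i0))
          = (c i0 - x i0) * (Real.log (c i0) - Real.log (x i0)) := by ring
      rw [e]
      apply mul_le_mul_of_nonneg_right (by linarith) (by linarith)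
    have h3 : Q * X ≤ Q * X₀ := mul_le_mul_of_nonneg_left hXb hQ0
    have h4 : Real.log (c i0) - Real.log (x i0) ≤ 2 * (Q * X₀) / c i0 := by
      rw [le_div_iff₀ hci]
      nlinarith
    have h5 : Real.log (c i0) - 2 * (Q * X₀) / c i0 ≤ Real.log (x i0) := by linarith
    calc c i0 * Real.exp (-(2 * (Q * X₀) / c i0))
        = Real.exp (Real.log (c i0) - 2 * (Q * X₀) / c i0) := by
          rw [sub_eq_add_neg, Real.exp_add, Real.exp_log hci]
      _ ≤ Real.exp (Real.log (x i0)) := Real.exp_le_exp.mpr h5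
      _ = x i0 := Real.exp_log hxi
  · have h1 := hui i0
    have h2 := (abs_le.mp h1).2
    have h3 := hCi i0
    linarith

end

end Vale.Agent.P072.Tilt
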