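import Vale.Agent.P072T.Traj

/-!
Corners of the polygon: a tilted entropy has a strict maximum at a corner of the class on a box.
-/

namespace Vale.Agent.P072.Tilt

open Vale.Agent.P072
open Finset Set

noncomputable section

variable {d : ℕ} {ι : Type}

/-- Independence of two species on the stoichiometric subspace. -/
def Indep (src tgt : ι → Fin d → ℕ) (i j : Fin d) : Prop :=
  ∀ p q : ℝ, (∀ r, p * vec src tgt r i + q * vec src tgt r j = 0) → p = 0 ∧ q = 0

lemma exists_minor_gen {κ : Type} {v v' : κ → ℝ}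
    (hind : ∀ a b : ℝ, (∀ i, a * v i + b * v' i = 0) → a = 0 ∧ b = 0) :
    ∃ i j, v i * v' j - v j * v' i ≠ 0 := by
  by_contra hcon
  push_neg at hcon
  by_cases hv' : ∃ j, v' j ≠ 0
  · obtain ⟨j, hj⟩ := hv'
    have h := hind 1 (-(v j / v' j)) (fun i => by
      have h1 := hcon i j
      field_simp
      linarith)
    exact one_ne_zero h.1
  · push_neg at hv'
    have h := hind 0 1 (fun i => by rw [hv' i]; ring)
    exact one_ne_zero h.2

/-- On a space of dimension two, independent coordinates determine all the others. -/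
lemma exists_ab {src tgt : ι → Fin d → ℕ} (hrank : Module.finrank ℝ (Sp src tgt) ≤ 2) {i j : Fin d}
    (hind : Indep src tgt i j) :
    ∃ α β : Fin d → ℝ, (∀ u ∈ Sp src tgt, ∀ k, u k = α k * u i + β k * u j) ∧
      α i = 1 ∧ β i = 0 ∧ α j = 0 ∧ β j = 1 := by
  obtain ⟨r₁, r₂, hΔ⟩ := exists_minor_gen (κ := ι) (v := fun r => vec src tgt r i)
    (v' := fun r => vec src tgt r j) hind
  set Δ := vec src tgt r₁ i * vec src tgt r₂ j - vec src tgt r₂ i * vec src tgt r₁ j with hΔdef
  have hpair : ∀ a b : ℝ, (∀ k, a * vec src tgt r₁ k + b * vec src tgt r₂ k = 0) → a = 0 ∧ b = 0 := by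
    intro a b h
    have h1 := h i
    have h2 := h j
    have ea : a * Δ = 0 := by
      rw [hΔdef]
      linear_combination vec src tgt r₂ j * h1 - vec src tgt r₂ i * h2
    have eb : b * Δ = 0 := by
      rw [hΔdef]
      linear_combination vec src tgt r₁ i * h2 - vec src tgt r₁ j * h1
    exact ⟨(mul_eq_zero.mp ea).resolve_right hΔ, (mul_eq_zero.mp eb).resolve_right hΔ⟩
  refine ⟨fun k => (vec src tgt r₁ k * vec src tgt r₂ j - vec src tgt r₂ k * vec src tgt r₁ j) / Δ,
    fun k => (vec src tgt r₁ i * vec src tgt r₂ k - vec src tgt r₂ i * vec src tgt r₁ k) / Δ,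
    ?_, ?_, ?_, ?_, ?_⟩
  · intro u hu k
    obtain ⟨a, b, hab⟩ := mem_pair_of_rank_le hrank hpair hu
    simp only
    rw [hab i, hab j, hab k]
    field_simp
    rw [hΔdef]
    ring
  · simp only
    rw [div_eq_one_iff_eq hΔ]
  · simp only
    rw [div_eq_zero_iff]
    left
    ring
  · simp only
    rw [div_eq_zero_iff]
    left
    ring
  · simp only
    rw [div_eq_one_iff_eq hΔ]

lemma continuous_ent (α : ℝ) : Continuous (ent α) := by
  unfold ent
  exact (Real.continuous_mul_log.sub continuous_id).sub (continuous_const.mul continuous_id)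

lemma continuous_V (a : Fin d → ℝ) : Continuous (V a) := by
  unfold V
  exact continuous_finset_sum _ fun i _ => (continuous_ent (a i)).comp (continuous_apply i)

/-- One-sided Lipschitz bound for the entropy. -/
lemma ent_sub_le {t A M : ℝ} (ht : 0 < t) (htM : t ≤ M) (hA : 0 ≤ A) (hM : 1 ≤ M) :
    ent 0 t - ent 0 A ≤ max (Real.log M) (1 + |Real.log A|) * |t - A| := by
  have hlogM : 0 ≤ Real.log M := Real.log_nonneg hM
  have hlogt : Real.log t ≤ Real.log M := Real.log_le_log ht htM
  rcases eq_or_lt_of_le hA with h0 | hApos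
  · -- `A = 0`
    rw [← h0]
    have e : ent 0 (0 : ℝ) = 0 := by simp [ent]
    rw [e, ent_zero, sub_zero, sub_zero, abs_of_pos ht]
    have h1 : t * Real.log t ≤ t * Real.log M := mul_le_mul_of_nonneg_left hlogt ht.le
    have h2 : Real.log M ≤ max (Real.log M) (1 + |Real.log 0|) := le_max_left _ _
    have h3 : Real.log M * t ≤ max (Real.log M) (1 + |Real.log 0|) * t :=
      mul_le_mul_of_nonneg_right h2 ht.le
    nlinarith
  rcases le_total t A with h | h
  · -- below `A`
    have hlog : Real.log t ≤ Real.log A := Real.log_le_log ht h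
    have e : ent 0 t - ent 0 A = (1 - Real.log A) * (A - t) + t * (Real.log t - Real.log A) := by
      rw [ent_zero, ent_zero]
      ring
    rw [e, abs_of_nonpos (by linarith : t - A ≤ 0)]
    have h1 : t * (Real.log t - Real.log A) ≤ 0 :=
      mul_nonpos_of_nonneg_of_nonpos ht.le (by linarith)
    have h2 : 1 - Real.log A ≤ max (Real.log M) (1 + |Real.log A|) :=
      le_trans (by linarith [neg_abs_le (Real.log A)]) (le_max_right _ _)
    have h3 : (1 - Real.log A) * (A - t) ≤ max (Real.log M) (1 + |Real.log A|) * (A - t) :=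
      mul_le_mul_of_nonneg_right h2 (by linarith)
    have e2 : -(t - A) = A - t := by ring
    rw [e2]
    linarith
  · -- above `A`
    have h1 := ent_gibbs 0 hApos ht
    rw [abs_of_nonneg (by linarith : 0 ≤ t - A)]
    have h2 : Real.log t * (t - A) ≤ Real.log M * (t - A) :=
      mul_le_mul_of_nonneg_right hlogt (by linarith)
    have h3 : Real.log M * (t - A) ≤ max (Real.log M) (1 + |Real.log A|) * (t - A) :=
      mul_le_mul_of_nonneg_right (le_max_left _ _) (by linarith)
    nlinarith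

/-- The pointwise data at a corner. -/
theorem corner_point [Fintype ι] (src tgt : ι → Fin d → ℕ) (hne : ∀ r, src r ≠ tgt r)
    (WR : WeaklyRev src tgt) (hrank : Module.finrank ℝ (Sp src tgt) ≤ 2) {c : Fin d → ℝ}
    (hc : ∀ i, 0 < c i) (ε : ℝ) (hε : 0 < ε) {i j : Fin d} (hind : Indep src tgt i j) {M : ℝ}
    (hM : 1 ≤ M) :
    (∃ η : ℝ, 0 < η ∧ ∀ x : Fin d → ℝ, (∀ k, 0 < x k) → x - c ∈ Sp src tgt → η ≤ x i + x j) ∨
    ∃ (Wf : (Fin d → ℝ) → ℝ) (G : (Fin d → ℝ) → Fin d → ℝ) (U Ls : ℝ), Ls < U ∧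
      (∀ (x : ℝ → Fin d → ℝ) (u : Fin d → ℝ) (Dm : Set ℝ) (t : ℝ),
        (∀ t' ∈ Dm, ∀ i, 0 < x t' i) → t ∈ Dm → HasDerivWithinAt x u Dm t →
        HasDerivWithinAt (fun t' => Wf (x t')) (ip (G (x t)) u) Dm t) ∧
      (∀ x : Fin d → ℝ, (∀ k, 0 < x k) → x - c ∈ Sp src tgt → (∀ k, x k ≤ M) →
        Wf x ≤ U - (x i + x j)) ∧
      (∀ x : Fin d → ℝ, (∀ k, 0 < x k) → x - c ∈ Sp src tgt → (∀ k, x k ≤ M) → Ls < Wf x →
        ∃ r1 : ι, ∀ k : ι → ℝ, (∀ r, ε ≤ k r ∧ k r ≤ 1 / ε) →
          ip (G x) (flux src tgt k x) ≤ -(k r1 * mon src x r1)) ∧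
      (∀ L, L < U → ∃ η : ℝ, 0 < η ∧ ∀ x : Fin d → ℝ, (∀ k, 0 < x k) → x - c ∈ Sp src tgt →
        Wf x ≤ L → η ≤ x i + x j) := by
  classical
  obtain ⟨α, β, hab, hαi, hβi, hαj, hβj⟩ := exists_ab hrank hind
  set A : Fin d → ℝ := fun k => c k - α k * c i - β k * c j with hA
  have hform : ∀ x : Fin d → ℝ, x - c ∈ Sp src tgt → ∀ k, x k = A k + α k * x i + β k * x j := by
    intro x hx k
    have h := hab _ hx k
    simp only [Pi.sub_apply] at h
    simp only [hA]
    linarith
  have hAi : A i = 0 := by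
    simp only [hA]
    rw [hαi, hβi]
    ring
  have hAj : A j = 0 := by
    simp only [hA]
    rw [hαj, hβj]
    ring
  have habs : ∀ (p q s t : ℝ), 0 < s → 0 < t → |p * s + q * t| ≤ (|p| + |q|) * (s + t) := by
    intro p q s t hs ht
    calc |p * s + q * t| ≤ |p * s| + |q * t| := abs_add_le _ _
      _ = |p| * s + |q| * t := by rw [abs_mul, abs_mul, abs_of_pos hs, abs_of_pos ht]
      _ ≤ (|p| + |q|) * (s + t) := by
          have h1 := abs_nonneg p
          have h2 := abs_nonneg q
          nlinarith [mul_nonneg h1 ht.le, mul_nonneg h2 hs.le]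
  by_cases hneg : ∃ k, A k < 0
  · left
    obtain ⟨k, hk⟩ := hneg
    have hden : 0 < |α k| + |β k| + 1 := by positivity
    refine ⟨-A k / (|α k| + |β k| + 1), div_pos (by linarith) hden, fun x hx hS => ?_⟩
    rw [div_le_iff₀ hden]
    have h1 := hform x hS k
    have h2 := hx k
    have h3 := habs (α k) (β k) (x i) (x j) (hx i) (hx j)
    have h4 := (abs_le.mp h3).2
    have hs : 0 < x i + x j := add_pos (hx i) (hx j)
    nlinarith
  · right
    push_neg at hneg
    set C' : Fin d → ℝ := fun k => max (Real.log M) (1 + |Real.log (A k)|) * (|α k| + |β k|) with hC'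
    have hlogM : 0 ≤ Real.log M := Real.log_nonneg hM
    have hC'0 : ∀ k, 0 ≤ C' k := fun k =>
      mul_nonneg (le_trans hlogM (le_max_left _ _)) (by positivity)
    set C₂ := ∑ k, C' k with hC₂
    have hC₂0 : 0 ≤ C₂ := Finset.sum_nonneg fun k _ => hC'0 k
    set lam := C₂ + 1 with hlam
    set a : Fin d → ℝ := fun k => lam * ((if k = i then 1 else 0) + (if k = j then 1 else 0)) with ha
    have hVa : ∀ x : Fin d → ℝ, V a x = V 0 x - lam * (x i + x j) := by
      intro x
      have h1 : ∀ k, ent (a k) (x k) = ent ((0 : Fin d → ℝ) k) (x k) - a k * x k := by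
        intro k
        simp only [ent, Pi.zero_apply]
        ring
      have h2 : ∑ k, a k * x k = lam * (x i + x j) := by
        simp only [ha]
        rw [mul_add]
        have : ∀ k, lam * ((if k = i then 1 else 0) + (if k = j then 1 else 0)) * x k
            = (if k = i then lam * x k else 0) + (if k = j then lam * x k else 0) := by
          intro k
          split_ifs <;> ring
        simp_rw [this]
        rw [Finset.sum_add_distrib]
        simp
      unfold V
      simp_rw [h1]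
      rw [Finset.sum_sub_distrib, h2]
    set U := V 0 A with hU
    have hVA : V a A = U := by
      rw [hVa, hAi, hAj]
      simp [hU]
    have hVbox : ∀ x : Fin d → ℝ, (∀ k, 0 < x k) → x - c ∈ Sp src tgt → (∀ k, x k ≤ M) →
        V 0 x ≤ U + C₂ * (x i + x j) := by
      intro x hx hS hb
      have hterm : ∀ k, ent ((0 : Fin d → ℝ) k) (x k) - ent ((0 : Fin d → ℝ) k) (A k)
          ≤ C' k * (x i + x j) := by
        intro k
        have h1 := ent_sub_le (hx k) (hb k) (hneg k) hM
        have h2 : |x k - A k| ≤ (|α k| + |β k|) * (x i + x j) := by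
          have e : x k - A k = α k * x i + β k * x j := by
            have := hform x hS k
            linarith
          rw [e]
          exact habs _ _ _ _ (hx i) (hx j)
        have h3 : 0 ≤ max (Real.log M) (1 + |Real.log (A k)|) := le_trans hlogM (le_max_left _ _)
        have h4 := mul_le_mul_of_nonneg_left h2 h3
        simp only [hC', Pi.zero_apply]
        calc _ ≤ _ := h1
          _ ≤ _ := h4
          _ = _ := by ring
      have hsum := Finset.sum_le_sum (fun k (_ : k ∈ Finset.univ) => hterm k)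
      rw [Finset.sum_sub_distrib, ← Finset.sum_mul] at hsum
      have e1 : ∑ k, ent ((0 : Fin d → ℝ) k) (x k) = V 0 x := rfl
      have e2 : ∑ k, ent ((0 : Fin d → ℝ) k) (A k) = V 0 A := rfl
      rw [e1, e2] at hsum
      rw [hU, hC₂]
      linarith
    obtain ⟨Wf, G, B, δ, R, hB, hδ, h1, h2, h3⟩ := far_package src tgt hne WR hrank hc a ε hε
    have hup : ∀ x : Fin d → ℝ, (∀ k, 0 < x k) → x - c ∈ Sp src tgt → (∀ k, x k ≤ M) →
        Wf x ≤ U - (x i + x j) := by
      intro x hx hS hb
      have h4 := h1 x hx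
      rw [hVa] at h4
      have h5 := hVbox x hx hS hb
      have hs : 0 < x i + x j := add_pos (hx i) (hx j)
      rw [hlam] at h4
      nlinarith
    refine ⟨Wf, G, U, U - δ, by linarith, h2, hup, ?_, ?_⟩
    · intro x hx hS hb hL
      have h4 := hup x hx hS hb
      have hi : x i < δ := by linarith [hx j]
      obtain ⟨r1, h5, _⟩ := h3 x hx hS ⟨i, Or.inl hi⟩
      exact ⟨r1, h5⟩
    · intro L hL
      -- continuity at the corner
      have hev : ∀ᶠ w in nhds A, L < V a w :=
        (continuous_V a).continuousAt.eventually (lt_mem_nhds (by rw [hVA]; exact hL))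
      obtain ⟨ρ, hρ, hball⟩ := Metric.eventually_nhds_iff.mp hev
      set C₄ := ∑ k, (|α k| + |β k|) + 1 with hC₄
      have hC₄0 : 0 < C₄ := by
        have : 0 ≤ ∑ k, (|α k| + |β k|) := Finset.sum_nonneg fun k _ => by positivity
        rw [hC₄]; linarith
      have hcoef : ∀ k, |α k| + |β k| ≤ C₄ := by
        intro k
        have : |α k| + |β k| ≤ ∑ k, (|α k| + |β k|) :=
          Finset.single_le_sum (f := fun k => |α k| + |β k|) (fun k _ => by positivity)
            (Finset.mem_univ k)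
        rw [hC₄]; linarith
      have hnear : ∀ w : Fin d → ℝ, (∀ k, 0 < w k) → w - c ∈ Sp src tgt →
          w i + w j < ρ / C₄ → L < V a w := by
        intro w hw hS hσ
        apply hball
        have hσ' : C₄ * (w i + w j) < ρ := by
          rw [lt_div_iff₀ hC₄0] at hσ
          linarith
        rw [dist_pi_lt_iff hρ]
        intro k
        rw [Real.dist_eq]
        have e : w k - A k = α k * w i + β k * w j := by
          have := hform w hS k
          linarith
        rw [e]
        have h4 := habs (α k) (β k) (w i) (w j) (hw i) (hw j)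
        have hs : 0 < w i + w j := add_pos (hw i) (hw j)
        have h5 := mul_le_mul_of_nonneg_right (hcoef k) hs.le
        linarith
      have hη : 0 < min δ (ρ / C₄ * Real.exp (-B)) :=
        lt_min hδ (mul_pos (div_pos hρ hC₄0) (Real.exp_pos _))
      refine ⟨min δ (ρ / C₄ * Real.exp (-B)), hη, ?_⟩
      intro x hx hS hWL
      by_contra hcon
      push_neg at hcon
      have hx1 : x i + x j < δ := lt_of_lt_of_le hcon (min_le_left _ _)
      have hx2 : x i + x j < ρ / C₄ * Real.exp (-B) := lt_of_lt_of_le hcon (min_le_right _ _)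
      have hi : x i < δ := by linarith [hx j]
      obtain ⟨_, _, z, hz, hzS, hzx, hVz⟩ := h3 x hx hS ⟨i, Or.inl hi⟩
      have hzc : z - c ∈ Sp src tgt := by
        have := Submodule.add_mem _ hzS hS
        have e : z - x + (x - c) = z - c := by abel
        rwa [e] at this
      have hzle : ∀ l, z l ≤ x l * Real.exp B := by
        intro l
        have h4 := (abs_le.mp (hzx l)).2
        calc z l = Real.exp (Real.log (z l)) := (Real.exp_log (hz l)).symm
          _ ≤ Real.exp (Real.log (x l) + B) := Real.exp_le_exp.mpr (by linarith)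
          _ = x l * Real.exp B := by rw [Real.exp_add, Real.exp_log (hx l)]
      have hzσ : z i + z j < ρ / C₄ := by
        have h4 := hzle i
        have h5 := hzle j
        have h6 : Real.exp (-B) * Real.exp B = 1 := by
          rw [← Real.exp_add]; simp
        have h7 : (x i + x j) * Real.exp B < ρ / C₄ * Real.exp (-B) * Real.exp B :=
          mul_lt_mul_of_pos_right hx2 (Real.exp_pos _)
        rw [mul_assoc, h6, mul_one] at h7
        nlinarith
      have := hnear z hz hzc hzσ
      linarith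

lemma Sol.mem_class_Ici [Fintype ι] {src tgt : ι → Fin d → ℕ} {k : ι → ℝ → ℝ} {x : ℝ → Fin d → ℝ}
    {s : ℝ} {c : Fin d → ℝ} (h : Sol src tgt k x (Ici s)) (h0 : x s - c ∈ Sp src tgt) {t : ℝ}
    (ht : s ≤ t) : x t - c ∈ Sp src tgt :=
  Sol.mem_class (h.mono (fun y (hy : y ∈ Ico s (t + 1)) => show y ∈ Ici s from hy.1)) h0
    ⟨ht, by linarith⟩

/-- A corner cannot be approached if the trajectory starts away from it. -/
theorem corner_stage1 [Fintype ι] (src tgt : ι → Fin d → ℕ) (hne : ∀ r, src r ≠ tgt r)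
    (WR : WeaklyRev src tgt) (hrank : Module.finrank ℝ (Sp src tgt) ≤ 2) {c : Fin d → ℝ}
    (hc : ∀ i, 0 < c i) (ε : ℝ) (hε : 0 < ε) {i j : Fin d} (hind : Indep src tgt i j) {M : ℝ}
    (hM : 1 ≤ M) {s₀ : ℝ} (hs₀ : 0 < s₀) :
    ∃ η : ℝ, 0 < η ∧ ∀ (k : ι → ℝ → ℝ) (x : ℝ → Fin d → ℝ) (s T : ℝ),
      (∀ r, ∀ t ∈ Ico s T, ε ≤ k r t ∧ k r t ≤ 1 / ε) → Sol src tgt k x (Ico s T) →
      x s - c ∈ Sp src tgt → (∀ t ∈ Ico s T, ∀ l, x t l ≤ M) → s < T → s₀ ≤ x s i + x s j →
      ∀ t ∈ Ico s T, η ≤ x t i + x t j := by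
  rcases corner_point src tgt hne WR hrank hc ε hε hind hM with ⟨η, hη, h⟩ | ⟨Wf, G, U, Ls, hLs, hd, hup, hdec, hlow⟩
  · refine ⟨η, hη, fun k x s T _ hsol h0 _ _ _ t ht => ?_⟩
    exact h (x t) (hsol t ht).1 (Sol.mem_class hsol h0 ht)
  · have hL : max Ls (U - s₀) < U := max_lt hLs (by linarith)
    obtain ⟨η, hη, h⟩ := hlow _ hL
    refine ⟨η, hη, fun k x s T hk hsol h0 hb hsT hs t ht => ?_⟩
    have hSt : ∀ t ∈ Ico s T, x t - c ∈ Sp src tgt := fun t ht => Sol.mem_class hsol h0 ht
    have hs0 : s ∈ Ico s T := ⟨le_rfl, hsT⟩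
    have hf : ∀ t ∈ Ico s T, HasDerivWithinAt (fun t' => Wf (x t'))
        (ip (G (x t)) (flux src tgt (fun r => k r t) (x t))) (Ico s T) t := fun t ht =>
      hd x _ _ t (fun t' ht' => (hsol t' ht').1) ht (hsol t ht).2
    have hbd := stage_bound (L := max Ls (U - s₀)) hf (fun t ht hgt => by
      obtain ⟨r1, hr1⟩ := hdec (x t) (hsol t ht).1 (hSt t ht) (hb t ht)
        (lt_of_le_of_lt (le_max_left _ _) hgt)
      have h1 := hr1 (fun r => k r t) (fun r => hk r t ht)
      have h2 : 0 < k r1 t := lt_of_lt_of_le hε (hk r1 t ht).1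
      have h3 := mon_pos src (hsol t ht).1 r1
      have h4 : 0 < k r1 t * mon src (x t) r1 := mul_pos h2 h3
      linarith) t ht
    have hstart : Wf (x s) ≤ max Ls (U - s₀) := by
      have h1 := hup (x s) (hsol s hs0).1 (hSt s hs0) (hb s hs0)
      exact le_trans (by linarith) (le_max_right _ _)
    rw [max_eq_left hstart] at hbd
    exact h (x t) (hsol t ht).1 (hSt t ht) hbd

/-- Eventually the trajectory stays a fixed distance away from a corner. -/
theorem corner_stage2 [Fintype ι] (src tgt : ι → Fin d → ℕ) (hne : ∀ r, src r ≠ tgt r)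
    (WR : WeaklyRev src tgt) (hrank : Module.finrank ℝ (Sp src tgt) ≤ 2) {c : Fin d → ℝ}
    (hc : ∀ i, 0 < c i) (ε : ℝ) (hε : 0 < ε) {i j : Fin d} (hind : Indep src tgt i j) {M : ℝ}
    (hM : 1 ≤ M) :
    ∃ η : ℝ, 0 < η ∧ ∀ (ρ : ℝ), 0 < ρ → ∀ (k : ι → ℝ → ℝ) (x : ℝ → Fin d → ℝ) (s : ℝ),
      (∀ r, ∀ t ∈ Ici s, ε ≤ k r t ∧ k r t ≤ 1 / ε) → Sol src tgt k x (Ici s) →
      x s - c ∈ Sp src tgt → (∀ t ∈ Ici s, ∀ l, x t l ≤ M) →
      (∀ t ∈ Ici s, ∀ r, ρ ≤ k r t * mon src (x t) r) →
      ∃ T, s ≤ T ∧ ∀ t, T ≤ t → η ≤ x t i + x t j := by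
  rcases corner_point src tgt hne WR hrank hc ε hε hind hM with ⟨η, hη, h⟩ | ⟨Wf, G, U, Ls, hLs, hd, hup, hdec, hlow⟩
  · refine ⟨η, hη, fun ρ _ k x s _ hsol h0 _ _ => ⟨s, le_rfl, fun t ht => ?_⟩⟩
    exact h (x t) (hsol t ht).1 (Sol.mem_class_Ici hsol h0 ht)
  · obtain ⟨η, hη, h⟩ := hlow _ hLs
    refine ⟨η, hη, fun ρ hρ k x s hk hsol h0 hb hrate => ?_⟩
    have hSt : ∀ t, s ≤ t → x t - c ∈ Sp src tgt := fun t ht => Sol.mem_class_Ici hsol h0 ht
    have hf : ∀ t ∈ Ici s, HasDerivWithinAt (fun t' => Wf (x t'))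
        (ip (G (x t)) (flux src tgt (fun r => k r t) (x t))) (Ici s) t := fun t ht =>
      hd x _ _ t (fun t' ht' => (hsol t' ht').1) ht (hsol t ht).2
    obtain ⟨T, hT, hev⟩ := stage_eventually (L := Ls) hρ hf (fun t ht hgt => by
      obtain ⟨r1, hr1⟩ := hdec (x t) (hsol t ht).1 (hSt t ht) (hb t ht) hgt
      have h1 := hr1 (fun r => k r t) (fun r => hk r t ht)
      have h2 := hrate t ht r1
      linarith)
    refine ⟨T, hT, fun t ht => ?_⟩
    have hst : t ∈ Ici s := le_trans hT ht
    exact h (x t) (hsol t hst).1 (hSt t hst) (hev t ht)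

end

end Vale.Agent.P072.Tilt
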