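import Vale.Agent.P072T.Corner

/-!
Edges of the polygon: near a point of an edge away from the corners, the species vanishing on the
edge increases.
-/

namespace Vale.Agent.P072.Tilt

open Vale.Agent.P072
open Finset Set

noncomputable section

variable {d : ℕ} {ι : Type}

lemma par_span {src tgt : ι → Fin d → ℕ} {i j : Fin d} {γ : ℝ}
    (h : ∀ r, vec src tgt r j = γ * vec src tgt r i) {u : Fin d → ℝ} (hu : u ∈ Sp src tgt) :
    u j = γ * u i := by
  induction hu using Submodule.span_induction with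
  | mem x hx =>
    obtain ⟨r, rfl⟩ := hx
    exact h r
  | zero => simp
  | add x y _ _ hx hy =>
    simp only [Pi.add_apply]
    rw [hx, hy]
    ring
  | smul a x _ hx =>
    simp only [Pi.smul_apply, smul_eq_mul]
    rw [hx]
    ring

lemma exp_ipN_log {x : Fin d → ℝ} (hx : ∀ i, 0 < x i) (y : Fin d → ℕ) :
    Real.exp (ipN (fun i => Real.log (x i)) y) = ∏ i, x i ^ y i := by
  unfold ipN
  rw [Real.exp_sum]
  apply Finset.prod_congr rfl
  intro i _
  rw [mul_comm, Real.exp_nat_mul, Real.exp_log (hx i)]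

/-- The proportionality factor of species `j` to species `i`. -/
def gam (src tgt : ι → Fin d → ℕ) (r₀ : ι) (i j : Fin d) : ℝ :=
  vec src tgt r₀ j / vec src tgt r₀ i

/-- Species `j` is a multiple of species `i` on the stoichiometric subspace. -/
def PP (src tgt : ι → Fin d → ℕ) (r₀ : ι) (i j : Fin d) : Prop :=
  ∀ r, vec src tgt r j = gam src tgt r₀ i j * vec src tgt r i

/-- The offset of species `j` relative to species `i` on the class. -/
def kap (src tgt : ι → Fin d → ℕ) (c : Fin d → ℝ) (r₀ : ι) (i j : Fin d) : ℝ :=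
  c j - gam src tgt r₀ i j * c i

lemma pp_form {src tgt : ι → Fin d → ℕ} {c : Fin d → ℝ} {r₀ : ι} {i j : Fin d}
    (hj : PP src tgt r₀ i j) {x : Fin d → ℝ} (hS : x - c ∈ Sp src tgt) :
    x j = kap src tgt c r₀ i j + gam src tgt r₀ i j * x i := by
  have h := par_span hj hS
  simp only [Pi.sub_apply] at h
  unfold kap
  linarith

lemma indep_of_not_pp {src tgt : ι → Fin d → ℕ} {r₀ : ι} {i j : Fin d}
    (hr₀ : vec src tgt r₀ i ≠ 0) (hj : ¬ PP src tgt r₀ i j) : Indep src tgt i j := by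
  intro p q h
  by_cases hq : q = 0
  · refine ⟨?_, hq⟩
    have h1 := h r₀
    rw [hq, zero_mul, add_zero] at h1
    exact (mul_eq_zero.mp h1).resolve_right hr₀
  · exfalso
    apply hj
    intro r
    have h1 := h r
    have h2 := h r₀
    unfold gam
    have h3 : vec src tgt r₀ j = (-p / q) * vec src tgt r₀ i := by
      field_simp
      linarith
    have h4 : vec src tgt r j = (-p / q) * vec src tgt r i := by
      field_simp
      linarith
    rw [h3, h4]
    field_simp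

/-- Lower bounds off the vanishing group. -/
lemma cut_low {src tgt : ι → Fin d → ℕ} (c : Fin d → ℝ) {r₀ : ι} {i : Fin d}
    (hr₀ : vec src tgt r₀ i ≠ 0) {η : ℝ} (hη : 0 < η) (j : Fin d) :
    ∃ d' m : ℝ, 0 < d' ∧ 0 < m ∧ (¬ (PP src tgt r₀ i j ∧ kap src tgt c r₀ i j = 0) →
      ∀ x : Fin d → ℝ, (∀ j, 0 < x j) → x - c ∈ Sp src tgt →
      (∀ j, Indep src tgt i j → η ≤ x i + x j) → x i ≤ d' → m ≤ x j) := by
  by_cases hp : PP src tgt r₀ i j
  · set κ := kap src tgt c r₀ i j with hκ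
    set γ := gam src tgt r₀ i j with hγ
    rcases lt_trichotomy κ 0 with hneg | hzero | hpos
    · have hden : 0 < 2 * (|γ| + 1) := by positivity
      refine ⟨-κ / (2 * (|γ| + 1)), 1, div_pos (by linarith) hden, one_pos, ?_⟩
      intro _ x hx hS _ hxi
      exfalso
      have h1 := pp_form hp hS
      rw [← hκ, ← hγ] at h1
      have h2 := hx j
      have h3 : γ * x i ≤ |γ| * x i :=
        mul_le_mul_of_nonneg_right (le_abs_self _) (hx i).le
      rw [le_div_iff₀ hden] at hxi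
      have h4 := abs_nonneg γ
      have h5 := hx i
      nlinarith
    · refine ⟨1, 1, one_pos, one_pos, fun h => absurd ⟨hp, hzero⟩ h⟩
    · have hden : 0 < 2 * (|γ| + 1) := by positivity
      refine ⟨κ / (2 * (|γ| + 1)), κ / 2, div_pos hpos hden, by linarith, ?_⟩
      intro _ x hx hS _ hxi
      have h1 := pp_form hp hS
      rw [← hκ, ← hγ] at h1
      have h3 : -(|γ| * x i) ≤ γ * x i := by
        have := mul_le_mul_of_nonneg_right (neg_abs_le γ) (hx i).le
        linarith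
      rw [le_div_iff₀ hden] at hxi
      have h4 := abs_nonneg γ
      have h5 := hx i
      nlinarith
  · refine ⟨η / 2, η / 2, by linarith, by linarith, ?_⟩
    intro _ x _ _ hH hxi
    have h1 := hH j (indep_of_not_pp hr₀ hp)
    linarith

/-- The flux of a species from a decomposition of the pairings. -/
lemma flux_of_weights [Fintype ι] {src tgt : ι → Fin d → ℕ} (hne : ∀ r, src r ≠ tgt r)
    (WR : WeaklyRev src tgt) {kl ku Y B₁ B₂ Ξ : ℝ} (hkl0 : 0 < kl) (hklku : kl ≤ ku) (hY1 : 1 ≤ Y)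
    (hB₁0 : 0 ≤ B₁)
    (hgap : (Fintype.card ι : ℝ) * (B₁ + 1) + Real.log (2 * (Fintype.card ι) * ku * Y / kl) ≤ B₂)
    (hB₂0 : 0 ≤ B₂) (hΞb : B₁ + B₂ + 1 ≤ Ξ) {i : Fin d} {r₀ : ι} (hr₀ : vec src tgt r₀ i ≠ 0)
    (hYb : ∀ r, |vec src tgt r i| ≤ Y) {x : Fin d → ℝ} (hx : ∀ j, 0 < x j) (e : ι → ℝ)
    (hpair : ∀ r, ip (fun j => Real.log (x j)) (vec src tgt r) = -vec src tgt r i * Ξ + e r)
    (hebound : ∀ r, |e r| ≤ B₁) {k : ι → ℝ} (hkk : ∀ r, kl ≤ k r ∧ k r ≤ ku) :
    kl / 2 * Real.exp (-((Fintype.card ι : ℝ) * (B₁ + 1))) * mon src x r₀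
      ≤ flux src tgt k x i := by
  classical
  set p : Fin d → ℝ := fun j => Real.log (x j) with hp
  set v := vec src tgt with hv
  have hΞ0 : 0 ≤ Ξ := by linarith
  set w : ι → ℝ := fun r => -v r i with hw
  have hh0 : ∀ r, w r = 0 → |ip p (v r)| ≤ B₁ := by
    intro r hr
    have h1 : v r i = 0 := by
      simp only [hw] at hr
      linarith
    rw [hpair r, h1]
    simpa using hebound r
  have hh1 : ∀ r, w r ≠ 0 → 1 ≤ |w r| ∧ |w r| ≤ Y ∧ B₂ ≤ |ip p (v r)| ∧ 0 < w r * ip p (v r) := by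
    intro r hr
    have hvne : v r i ≠ 0 := by
      intro h
      apply hr
      simp only [hw]
      rw [h]
      ring
    have habsw : |w r| = |v r i| := by
      simp only [hw]
      exact abs_neg _
    have hW1 : 1 ≤ |w r| := by
      rw [habsw]
      exact (vec_int src tgt r i).resolve_left hvne
    have hWY : |w r| ≤ Y := by
      rw [habsw]
      exact hYb r
    have hpe : ip p (v r) = w r * Ξ + e r := by
      rw [hpair r]
    have hWΞ : Ξ ≤ |w r| * Ξ := by nlinarith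
    have he1 := hebound r
    refine ⟨hW1, hWY, ?_, ?_⟩
    · have h1 : |w r * Ξ| ≤ |ip p (v r)| + |e r| := by
        have : w r * Ξ = ip p (v r) - e r := by rw [hpe]; ring
        rw [this]
        exact abs_sub _ _
      rw [abs_mul, abs_of_nonneg hΞ0] at h1
      linarith
    · rw [hpe]
      have h1 : w r * (w r * Ξ) = |w r| * (|w r| * Ξ) := by
        have : w r * w r = |w r| * |w r| := (abs_mul_abs_self _).symm
        calc w r * (w r * Ξ) = (w r * w r) * Ξ := by ring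
          _ = (|w r| * |w r|) * Ξ := by rw [this]
          _ = _ := by ring
      have h2 : -(|w r| * B₁) ≤ w r * e r := by
        have h3 : |w r * e r| ≤ |w r| * B₁ := by
          rw [abs_mul]
          exact mul_le_mul_of_nonneg_left he1 (abs_nonneg _)
        linarith [neg_abs_le (w r * e r)]
      have h3 : |w r| * (Ξ - B₁) ≤ |w r| * (|w r| * Ξ - B₁) :=
        mul_le_mul_of_nonneg_left (by linarith) (abs_nonneg _)
      have h4 : 0 < |w r| * (Ξ - B₁) := mul_pos (by linarith) (by linarith)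
      nlinarith
  have htl : ∀ r0 r1, r1 ∈ classOf src tgt r0 → w r1 ≠ 0 →
      ∑ r ∈ classOf src tgt r0, k r * Real.exp (ipN p (src r)) * w r
        ≤ -(kl / 2 * Real.exp (-((Fintype.card ι : ℝ) * (B₁ + 1))) * Real.exp (ipN p (src r1))) := by
    intro r0 r1 h1 h2
    exact net_two_level hne WR kl ku Y B₁ B₂ hkl0 hklku hY1 hB₁0 hgap r0 p k w
      (fun r _ => hkk r) (fun r _ h => hh0 r h) (fun r _ h => hh1 r h) h1 h2
  have hclass : ∀ r0, ∑ r ∈ classOf src tgt r0, k r * Real.exp (ipN p (src r)) * w r ≤ 0 := by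
    intro r0
    by_cases hall : ∃ r1 ∈ classOf src tgt r0, w r1 ≠ 0
    · obtain ⟨r1, h1, h2⟩ := hall
      refine le_trans (htl r0 r1 h1 h2) ?_
      have : 0 ≤ kl / 2 * Real.exp (-((Fintype.card ι : ℝ) * (B₁ + 1))) * Real.exp (ipN p (src r1)) := by
        positivity
      linarith
    · push_neg at hall
      apply le_of_eq
      apply Finset.sum_eq_zero
      intro r hr
      rw [hall r hr]
      ring
  have hr₀class : r₀ ∈ classOf src tgt r₀ := mem_classOf.mpr Relation.ReflTransGen.refl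
  have hw₀ : w r₀ ≠ 0 := by
    simp only [hw]
    exact neg_ne_zero.mpr hr₀
  have hmain := le_trans (sum_le_class WR _ hclass r₀) (htl r₀ r₀ hr₀class hw₀)
  have hmon : ∀ r, mon src x r = Real.exp (ipN p (src r)) := fun r => (exp_ipN_log hx (src r)).symm
  have hfl : flux src tgt k x i = -∑ r, k r * Real.exp (ipN p (src r)) * w r := by
    unfold flux
    rw [Finset.sum_apply, ← Finset.sum_neg_distrib]
    apply Finset.sum_congr rfl
    intro r _
    simp only [Pi.smul_apply, smul_eq_mul, hw, ← hmon]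
    ring
  rw [hfl, hmon r₀]
  linarith

/-- The decomposition of a pairing along the vanishing group. -/
lemma cut_pair {src tgt : ι → Fin d → ℕ} {c : Fin d → ℝ} {r₀ : ι} {i : Fin d} [Fintype ι]
    (G₀ : Finset (Fin d))
    (hG : ∀ j ∈ G₀, PP src tgt r₀ i j ∧ kap src tgt c r₀ i j = 0 ∧ 0 < gam src tgt r₀ i j)
    {x : Fin d → ℝ} (hx : ∀ j, 0 < x j) (hS : x - c ∈ Sp src tgt) (r : ι) :
    ip (fun j => Real.log (x j)) (vec src tgt r)
      = -vec src tgt r i * (-(∑ j ∈ G₀, gam src tgt r₀ i j * Real.log (gam src tgt r₀ i j)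
          + (∑ j ∈ G₀, gam src tgt r₀ i j) * Real.log (x i)))
        + ∑ j ∈ Finset.univ \ G₀, Real.log (x j) * vec src tgt r j := by
  classical
  unfold ip
  rw [← Finset.sum_sdiff (Finset.subset_univ G₀), add_comm]
  congr 1
  have hterm : ∀ j ∈ G₀, Real.log (x j) * vec src tgt r j = vec src tgt r i *
      (gam src tgt r₀ i j * Real.log (gam src tgt r₀ i j)
        + gam src tgt r₀ i j * Real.log (x i)) := by
    intro j hj
    obtain ⟨h1, h2, h3⟩ := hG j hj
    have h4 := pp_form h1 hS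
    rw [h2, zero_add] at h4
    rw [h4, Real.log_mul h3.ne' (hx i).ne', h1 r]
    ring
  rw [Finset.sum_congr rfl hterm, ← Finset.mul_sum, Finset.sum_add_distrib, ← Finset.sum_mul]
  ring

/-- The pointwise cut inequality. -/
theorem cut_point [Fintype ι] (src tgt : ι → Fin d → ℕ) (hne : ∀ r, src r ≠ tgt r)
    (WR : WeaklyRev src tgt) {c : Fin d → ℝ} (hc : ∀ i, 0 < c i) (ε : ℝ) (hε : 0 < ε) {i : Fin d}
    {r₀ : ι} (hr₀ : vec src tgt r₀ i ≠ 0) {M η : ℝ} (hM : 0 < M) (hη : 0 < η) :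
    ∃ δ c₀ : ℝ, 0 < δ ∧ 0 < c₀ ∧ ∀ x : Fin d → ℝ, (∀ j, 0 < x j) → x - c ∈ Sp src tgt →
      (∀ j, x j ≤ M) → (∀ j, Indep src tgt i j → η ≤ x i + x j) → x i ≤ δ →
      ∀ k : ι → ℝ, (∀ r, ε ≤ k r ∧ k r ≤ 1 / ε) →
        c₀ * mon src x r₀ ≤ flux src tgt k x i := by
  classical
  set v := vec src tgt with hv
  set γ : Fin d → ℝ := gam src tgt r₀ i with hγ
  set κ : Fin d → ℝ := kap src tgt c r₀ i with hκ
  choose d' m hd' hm hlow using cut_low (src := src) (tgt := tgt) c hr₀ hη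
  obtain ⟨δ₁, hδ₁, hδ₁le⟩ := exists_pos_le d' hd'
  set M₁ := ∑ j, (|Real.log (m j)| + |Real.log M|) with hM₁
  have hM₁0 : 0 ≤ M₁ := Finset.sum_nonneg fun j _ => by positivity
  have hlogb : ∀ j y, m j ≤ y → y ≤ M → |Real.log y| ≤ M₁ := by
    intro j y h1 h2
    have hy : 0 < y := lt_of_lt_of_le (hm j) h1
    have h3 : |Real.log y| ≤ |Real.log (m j)| + |Real.log M| := by
      rw [abs_le]
      have h4 := Real.log_le_log (hm j) h1
      have h5 := Real.log_le_log hy h2
      constructor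
      · linarith [neg_abs_le (Real.log (m j)), abs_nonneg (Real.log M)]
      · linarith [le_abs_self (Real.log M), abs_nonneg (Real.log (m j))]
    have h6 : |Real.log (m j)| + |Real.log M| ≤ M₁ :=
      Finset.single_le_sum (f := fun j => |Real.log (m j)| + |Real.log M|)
        (fun j _ => by positivity) (Finset.mem_univ j)
    linarith
  set Y₂ := ∑ r, ∑ j, |v r j| with hY₂
  have hY₂0 : 0 ≤ Y₂ := Finset.sum_nonneg fun r _ => Finset.sum_nonneg fun j _ => abs_nonneg _
  have hY₂r : ∀ r, ∑ j, |v r j| ≤ Y₂ := fun r =>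
    Finset.single_le_sum (f := fun r => ∑ j, |v r j|)
      (fun r _ => Finset.sum_nonneg fun j _ => abs_nonneg _) (Finset.mem_univ r)
  have hY₂j : ∀ r j, |v r j| ≤ Y₂ := fun r j =>
    le_trans (Finset.single_le_sum (f := fun j => |v r j|) (fun j _ => abs_nonneg _)
      (Finset.mem_univ j)) (hY₂r r)
  set B₁ := Y₂ * M₁ with hB₁
  have hB₁0 : 0 ≤ B₁ := mul_nonneg hY₂0 hM₁0
  set kl := min ε 1 with hkl
  have hkl0 : 0 < kl := lt_min hε one_pos
  have hkl1 : kl ≤ 1 := min_le_right _ _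
  set ku := 1 / kl with hku
  have hklku : kl ≤ ku := by
    rw [hku, le_div_iff₀ hkl0]
    nlinarith
  set N := Fintype.card ι with hN
  have hN1 : (1 : ℝ) ≤ N := by
    have : 0 < N := Fintype.card_pos_iff.mpr ⟨r₀⟩
    exact_mod_cast this
  set Y := Y₂ + 1 with hY
  have hY1 : 1 ≤ Y := by rw [hY]; linarith
  set B₂ := (N : ℝ) * (B₁ + 1) + Real.log (2 * N * ku * Y / kl) with hB₂
  have hku0 : 0 < ku := lt_of_lt_of_le hkl0 hklku
  have hB₂0 : 0 ≤ B₂ := by
    have harg : 1 ≤ 2 * N * ku * Y / kl := by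
      rw [le_div_iff₀ hkl0]
      have h1 : kl ≤ ku * Y := by nlinarith
      have h2 : ku * Y ≤ N * (ku * Y) := by
        have : 0 < ku * Y := by positivity
        nlinarith
      nlinarith [show 0 ≤ N * (ku * Y) by positivity]
    have h1 := Real.log_nonneg harg
    have h2 : 0 ≤ (N : ℝ) * (B₁ + 1) := by positivity
    rw [hB₂]; linarith
  -- the vanishing group
  let G₀ : Finset (Fin d) := Finset.univ.filter
    (fun j => PP src tgt r₀ i j ∧ kap src tgt c r₀ i j = 0)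
  have hγi : γ i = 1 := div_self hr₀
  have hiG : i ∈ G₀ := by
    simp only [G₀, Finset.mem_filter, Finset.mem_univ, true_and]
    refine ⟨fun r => ?_, ?_⟩
    · have : gam src tgt r₀ i i = 1 := hγi
      rw [this, one_mul]
    · unfold kap
      have : gam src tgt r₀ i i = 1 := hγi
      rw [this]
      ring
  have hγpos : ∀ j ∈ G₀, 0 < γ j := by
    intro j hj
    simp only [G₀, Finset.mem_filter, Finset.mem_univ, true_and] at hj
    have h1 : c j = γ j * c i := by
      have := hj.2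
      unfold kap at this
      simp only [hγ]
      linarith
    have h2 := hc j
    have h3 := hc i
    rw [h1] at h2
    by_contra hn
    push_neg at hn
    nlinarith [mul_nonpos_of_nonpos_of_nonneg hn h3.le]
  have hG : ∀ j ∈ G₀, PP src tgt r₀ i j ∧ kap src tgt c r₀ i j = 0 ∧ 0 < gam src tgt r₀ i j := by
    intro j hj
    have h1 := hγpos j hj
    simp only [G₀, Finset.mem_filter, Finset.mem_univ, true_and] at hj
    exact ⟨hj.1, hj.2, h1⟩
  set Γ := ∑ j ∈ G₀, γ j with hΓ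
  have hΓ1 : 1 ≤ Γ := by
    have := Finset.single_le_sum (f := γ) (s := G₀) (fun j hj => (hγpos j hj).le) hiG
    rw [hγi] at this
    exact this
  set C₁ := ∑ j ∈ G₀, γ j * Real.log (γ j) with hC₁
  set δ₂ := Real.exp (-(|C₁| + B₁ + B₂ + 1)) with hδ₂
  have hδ₂0 : 0 < δ₂ := Real.exp_pos _
  refine ⟨min δ₁ δ₂, kl / 2 * Real.exp (-((N : ℝ) * (B₁ + 1))), lt_min hδ₁ hδ₂0, by positivity, ?_⟩
  intro x hx hS hb hH hxi k hk
  have hxi1 : x i ≤ δ₁ := le_trans hxi (min_le_left _ _)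
  have hxi2 : x i ≤ δ₂ := le_trans hxi (min_le_right _ _)
  -- logarithm of the small species
  have hlogxi : Real.log (x i) ≤ -(|C₁| + B₁ + B₂ + 1) := by
    calc Real.log (x i) ≤ Real.log δ₂ := Real.log_le_log (hx i) hxi2
      _ = _ := Real.log_exp _
  have hΞb : B₁ + B₂ + 1 ≤ -(C₁ + Γ * Real.log (x i)) := by
    have hneg : Real.log (x i) ≤ 0 := by
      have : 0 ≤ |C₁| := abs_nonneg _
      linarith
    have h1 : Γ * Real.log (x i) ≤ 1 * Real.log (x i) :=
      mul_le_mul_of_nonpos_right hΓ1 hneg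
    have h2 := le_abs_self C₁
    linarith
  have hkk : ∀ r, kl ≤ k r ∧ k r ≤ ku := by
    intro r
    obtain ⟨h1, h2⟩ := hk r
    exact ⟨le_trans (min_le_left _ _) h1,
      le_trans h2 (one_div_le_one_div_of_le hkl0 (min_le_left _ _))⟩
  refine flux_of_weights hne WR (Y := Y) (B₁ := B₁) (B₂ := B₂) hkl0 hklku hY1 hB₁0 le_rfl hB₂0 hΞb hr₀
    (fun r => by rw [hY]; linarith [hY₂j r i]) hx
    (fun r => ∑ j ∈ Finset.univ \ G₀, Real.log (x j) * vec src tgt r j)
    (fun r => cut_pair G₀ hG hx hS r) ?_ hkk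
  intro r
  calc |∑ j ∈ Finset.univ \ G₀, Real.log (x j) * vec src tgt r j|
      ≤ ∑ j ∈ Finset.univ \ G₀, |Real.log (x j) * vec src tgt r j| :=
        Finset.abs_sum_le_sum_abs _ _
    _ ≤ ∑ j ∈ Finset.univ \ G₀, M₁ * |v r j| := by
        apply Finset.sum_le_sum
        intro j hj
        have hj' : ¬ (PP src tgt r₀ i j ∧ kap src tgt c r₀ i j = 0) := by
          intro h
          apply (Finset.mem_sdiff.mp hj).2
          simp only [G₀, Finset.mem_filter, Finset.mem_univ, true_and]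
          exact h
        have h1 := hlow j hj' x hx hS hH (le_trans hxi1 (hδ₁le j))
        rw [abs_mul]
        exact mul_le_mul_of_nonneg_right (hlogb j (x j) h1 (hb j)) (abs_nonneg _)
    _ ≤ ∑ j, M₁ * |v r j| :=
        Finset.sum_le_sum_of_subset_of_nonneg (Finset.subset_univ _)
          (fun j _ _ => by positivity)
    _ = M₁ * ∑ j, |v r j| := by rw [Finset.mul_sum]
    _ ≤ M₁ * Y₂ := mul_le_mul_of_nonneg_left (hY₂r r) hM₁0
    _ = B₁ := by rw [hB₁]; ring

/-- The species cannot decrease below a threshold. -/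
theorem cut_stage1 [Fintype ι] (src tgt : ι → Fin d → ℕ) (hne : ∀ r, src r ≠ tgt r)
    (WR : WeaklyRev src tgt) {c : Fin d → ℝ} (hc : ∀ i, 0 < c i) (ε : ℝ) (hε : 0 < ε) {i : Fin d}
    {r₀ : ι} (hr₀ : vec src tgt r₀ i ≠ 0) {M η : ℝ} (hM : 0 < M) (hη : 0 < η) :
    ∃ δ : ℝ, 0 < δ ∧ ∀ (k : ι → ℝ → ℝ) (x : ℝ → Fin d → ℝ) (s T : ℝ),
      (∀ r, ∀ t ∈ Ico s T, ε ≤ k r t ∧ k r t ≤ 1 / ε) → Sol src tgt k x (Ico s T) →
      x s - c ∈ Sp src tgt → (∀ t ∈ Ico s T, ∀ l, x t l ≤ M) →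
      (∀ t ∈ Ico s T, ∀ j, Indep src tgt i j → η ≤ x t i + x t j) →
      ∀ t ∈ Ico s T, min δ (x s i) ≤ x t i := by
  obtain ⟨δ, c₀, hδ, hc₀, h⟩ := cut_point src tgt hne WR hc ε hε hr₀ hM hη
  refine ⟨δ, hδ, fun k x s T hk hsol h0 hb hH t ht => ?_⟩
  have hSt : ∀ t ∈ Ico s T, x t - c ∈ Sp src tgt := fun t ht => Sol.mem_class hsol h0 ht
  have hf : ∀ t ∈ Ico s T, HasDerivWithinAt (fun t' => -x t' i)
      (-flux src tgt (fun r => k r t) (x t) i) (Ico s T) t := fun t ht =>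
    (hasDerivWithinAt_pi.mp (hsol t ht).2 i).neg
  have hs : s ∈ Ico s T := ⟨le_rfl, lt_of_le_of_lt ht.1 ht.2⟩
  have hcmp := comparison (L := -min δ (x s i)) hf
    (by simp) (fun t ht hgt => by
      have hlt : x t i < min δ (x s i) := by linarith
      have h1 := h (x t) (hsol t ht).1 (hSt t ht) (hb t ht) (hH t ht)
        (le_trans hlt.le (min_le_left _ _)) (fun r => k r t) (fun r => hk r t ht)
      have h2 := mon_pos src (hsol t ht).1 r₀
      have h3 : 0 < c₀ * mon src (x t) r₀ := mul_pos hc₀ h2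
      linarith) t ht
  linarith

/-- Eventually the species stays above the threshold. -/
theorem cut_stage2 [Fintype ι] (src tgt : ι → Fin d → ℕ) (hne : ∀ r, src r ≠ tgt r)
    (WR : WeaklyRev src tgt) {c : Fin d → ℝ} (hc : ∀ i, 0 < c i) (ε : ℝ) (hε : 0 < ε) {i : Fin d}
    {r₀ : ι} (hr₀ : vec src tgt r₀ i ≠ 0) {M η : ℝ} (hM : 0 < M) (hη : 0 < η) :
    ∃ δ : ℝ, 0 < δ ∧ ∀ (ρ : ℝ), 0 < ρ → ∀ (k : ι → ℝ → ℝ) (x : ℝ → Fin d → ℝ) (s : ℝ),
      (∀ r, ∀ t ∈ Ici s, ε ≤ k r t ∧ k r t ≤ 1 / ε) → Sol src tgt k x (Ici s) →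
      x s - c ∈ Sp src tgt → (∀ t ∈ Ici s, ∀ l, x t l ≤ M) →
      (∀ t ∈ Ici s, ∀ j, Indep src tgt i j → η ≤ x t i + x t j) →
      (∀ t ∈ Ici s, ρ ≤ mon src (x t) r₀) →
      ∃ T, s ≤ T ∧ ∀ t, T ≤ t → δ ≤ x t i := by
  obtain ⟨δ, c₀, hδ, hc₀, h⟩ := cut_point src tgt hne WR hc ε hε hr₀ hM hη
  refine ⟨δ, hδ, fun ρ hρ k x s hk hsol h0 hb hH hrate => ?_⟩
  have hSt : ∀ t, s ≤ t → x t - c ∈ Sp src tgt := fun t ht => Sol.mem_class_Ici hsol h0 ht
  have hf : ∀ t ∈ Ici s, HasDerivWithinAt (fun t' => -x t' i)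
      (-flux src tgt (fun r => k r t) (x t) i) (Ici s) t := fun t ht =>
    (hasDerivWithinAt_pi.mp (hsol t ht).2 i).neg
  obtain ⟨T, hT, hev⟩ := stage_eventually (L := -δ) (mul_pos hc₀ hρ) hf (fun t ht hgt => by
    have hlt : x t i < δ := by linarith
    have h1 := h (x t) (hsol t ht).1 (hSt t ht) (hb t ht) (hH t ht) hlt.le
      (fun r => k r t) (fun r => hk r t ht)
    have h2 := mul_le_mul_of_nonneg_left (hrate t ht) hc₀.le
    linarith)
  refine ⟨T, hT, fun t ht => ?_⟩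
  have := hev t ht
  linarith

end

end Vale.Agent.P072.Tilt
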