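import Vale.Agent.P072T.Fibre
import Vale.Agent.P072.Cut

/-!
The Lyapunov function and its derivative; estimates on single classes.
-/

namespace Vale.Agent.P072.Tilt

open Vale.Agent.P072
open Finset Set

noncomputable section

variable {d : ℕ} {ι : Type}

/-- The mass-action rate written with an exponential. -/
def rt (a : Fin d → ℝ) (src : ι → Fin d → ℕ) (k : ι → ℝ) (x : Fin d → ℝ) (r : ι) : ℝ :=
  k r * Real.exp (ipN (lg a x) (src r))

lemma exp_ipN (a : Fin d → ℝ) {x : Fin d → ℝ} (hx : ∀ i, 0 < x i) (y : Fin d → ℕ) :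
    Real.exp (ipN a y) * Real.exp (ipN (lg a x) y) = ∏ i, x i ^ y i := by
  unfold ipN lg
  rw [← Real.exp_add, ← Finset.sum_add_distrib, Real.exp_sum]
  apply Finset.prod_congr rfl
  intro i _
  have : a i * (y i : ℝ) + (Real.log (x i) - a i) * (y i : ℝ) = (y i : ℝ) * Real.log (x i) := by ring
  rw [this, Real.exp_nat_mul, Real.exp_log (hx i)]

lemma ipN_add (p q : Fin d → ℝ) (y : Fin d → ℕ) :
    ipN (fun i => p i + q i) y = ipN p y + ipN q y := by
  unfold ipN
  rw [← Finset.sum_add_distrib]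
  exact Finset.sum_congr rfl fun i _ => by ring

lemma ip_smul_right (p s : Fin d → ℝ) (ρ : ℝ) {v : Fin d → ℝ} (hv : ∀ i, v i = ρ * s i) :
    ip p v = ρ * ip p s := by
  unfold ip
  rw [Finset.mul_sum]
  exact Finset.sum_congr rfl fun i _ => by rw [hv i]; ring

lemma ip_sum_smul {κ : Type} [Fintype κ] (p : Fin d → ℝ) (a : κ → ℝ) (w : κ → Fin d → ℝ) :
    ip p (∑ r, a r • w r) = ∑ r, a r * ip p (w r) := by
  unfold ip
  simp only [Finset.sum_apply, Pi.smul_apply, smul_eq_mul, Finset.mul_sum]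
  rw [Finset.sum_comm]
  exact Finset.sum_congr rfl fun r _ => Finset.sum_congr rfl fun i _ => by ring

/-- The integrand of the Lyapunov derivative for a single line. -/
def Aline (a : Fin d → ℝ) (B : ℝ) (s x v : Fin d → ℝ) : ℝ :=
  ip (lg a x) v - (beta' B (ip s (lg a x)) * (∑ i, s i * (v i / x i)) * (V a x - Vt a s x)
    + beta B (ip s (lg a x)) * (ip (lg a x) v - ip (lg a (zF a s x)) v))

section classes

variable {src tgt : ι → Fin d → ℕ} [Fintype ι] {a : Fin d → ℝ}

lemma eps_le_inv {ε : ℝ} (hε0 : 0 < ε) (hε1 : ε ≤ 1) : ε ≤ 1 / ε := by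
  rw [le_div_iff₀ hε0]
  nlinarith

lemma le_abs_of_sq {B g : ℝ} (hB : 0 < B) (h : B ^ 2 ≤ g ^ 2) : B ≤ |g| := by
  by_contra hcon
  push_neg at hcon
  have h1 := abs_nonneg g
  have h2 := sq_abs g
  nlinarith

/-- A class of reactions all parallel to the line. -/
theorem parallel_class (hne : ∀ r, src r ≠ tgt r) (WR : WeaklyRev src tgt) {ε : ℝ} (hε0 : 0 < ε)
    (hε1 : ε ≤ 1) (r0 : ι) {s x : Fin d → ℝ} (hs : s ≠ 0) (hx : ∀ i, 0 < x i) {k : ι → ℝ}
    (hk : ∀ r, ε ≤ k r ∧ k r ≤ 1 / ε) {B : ℝ} (hB0 : 0 < B) (ρ : ι → ℝ) (ρmin : ℝ)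
    (hρmin : ∀ r, ρmin ≤ |ρ r|)
    (hB : lev (Fintype.card ι) ε (1 / ε) 0 (Fintype.card ι) + 1 ≤ ρmin * B)
    (hpar : ∀ r ∈ classOf src tgt r0, ∀ i, vec src tgt r i = ρ r * s i) :
    ∑ r ∈ classOf src tgt r0, rt a src k x r * Aline a B s x (vec src tgt r) ≤ 0 := by
  classical
  set C := classOf src tgt r0 with hC
  set g := ip s (lg a x) with hg
  set E := V a x - Vt a s x with hE
  set β := beta B g with hβ
  set β' := beta' B g with hβ'
  set κ := kappa s x with hκ
  have hE0 : 0 ≤ E := sub_nonneg.mpr (E_nonneg a hs hx)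
  have hκ0 : 0 ≤ κ := kappa_nonneg hx
  have hzs := (zF_spec a hs hx).2
  have hline : ∀ r ∈ C, Aline a B s x (vec src tgt r) = ρ r * ((1 - β) * g - β' * κ * E) := by
    intro r hr
    have hv := hpar r hr
    unfold Aline
    rw [ip_smul_right _ _ _ hv, ip_smul_right _ _ _ hv, hzs, ip_comm (lg a x) s]
    have h1 : ∑ i, s i * (vec src tgt r i / x i) = ρ r * κ := by
      rw [hκ]
      unfold kappa
      rw [Finset.mul_sum]
      apply Finset.sum_congr rfl
      intro i _
      rw [hv i]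
      ring
    rw [h1]
    ring
  rw [Finset.sum_congr rfl (fun r hr => by rw [hline r hr])]
  by_cases hgB : g ^ 2 ≤ B ^ 2
  · have h1 : β = 1 := beta_eq_one hB0 hgB
    have h2 : β' = 0 := beta'_eq_zero hB0 hgB
    rw [h1, h2]
    apply le_of_eq
    apply Finset.sum_eq_zero
    intro r _
    ring
  push_neg at hgB
  have hg0 : 0 < g ^ 2 := by
    have : 0 < B ^ 2 := by positivity
    linarith
  have hgabs : B ≤ |g| := le_abs_of_sq hB0 hgB.le
  have hr0 : r0 ∈ C := mem_classOf.mpr Relation.ReflTransGen.refl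
  have hcl := net_class hne WR ε (1 / ε) 0 hε0 (eps_le_inv hε0 hε1) le_rfl r0 (lg a x) k
    (fun r _ => hk r) ⟨r0, hr0, by
      rw [ip_smul_right _ _ _ (hpar r0 hr0), abs_mul, ip_comm (lg a x) s]
      have h1 := hρmin r0
      have hρ0 : 0 ≤ |ρ r0| := abs_nonneg _
      have h2 : ρmin * B ≤ |ρ r0| * |g| := by
        apply mul_le_mul h1 hgabs hB0.le hρ0
      linarith⟩
  set F := ∑ r ∈ C, rt a src k x r * ρ r with hF
  have hFg : F * g ≤ 0 := by
    have h1 : F * g = ∑ r ∈ C, k r * Real.exp (ipN (lg a x) (src r)) * ip (lg a x) (vec src tgt r) := by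
      rw [hF, Finset.sum_mul]
      apply Finset.sum_congr rfl
      intro r hr
      rw [ip_smul_right _ _ _ (hpar r hr), ip_comm (lg a x) s]
      unfold rt
      ring
    rw [h1]
    simpa using hcl
  set Q := (1 - β) * g - β' * κ * E with hQ
  have hQg : 0 ≤ Q * g := by
    have h1 : 0 ≤ 1 - β := sub_nonneg.mpr beta_le_one
    have h2 : β' * g ≤ 0 := beta'_mul_nonpos hB0
    have h3 : 0 ≤ κ * E := mul_nonneg hκ0 hE0
    have h4 : Q * g = (1 - β) * g ^ 2 + (-(β' * g)) * (κ * E) := by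
      rw [hQ]; ring
    rw [h4]
    have h5 : 0 ≤ (1 - β) * g ^ 2 := by positivity
    have h6 : 0 ≤ (-(β' * g)) * (κ * E) := mul_nonneg (by linarith) h3
    linarith
  have hsum : ∑ r ∈ C, rt a src k x r * (ρ r * Q) = F * Q := by
    rw [hF, Finset.sum_mul]
    apply Finset.sum_congr rfl
    intro r _
    ring
  rw [hsum]
  by_contra hcon
  push_neg at hcon
  have h7 : 0 < F * Q * g ^ 2 := by positivity
  have h8 : F * Q * g ^ 2 = (F * g) * (Q * g) := by ring
  have h9 : (F * g) * (Q * g) ≤ 0 := mul_nonpos_of_nonpos_of_nonneg hFg hQg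
  linarith

/-- A class with no reaction near the line direction. -/
theorem nonparallel_class (hne : ∀ r, src r ≠ tgt r) (WR : WeaklyRev src tgt) {ε : ℝ} (hε0 : 0 < ε)
    (hε1 : ε ≤ 1) (r0 : ι) {s x : Fin d → ℝ} (hs : s ≠ 0) (hs1 : ∀ i, s i = 0 ∨ 1 ≤ |s i|)
    (hx : ∀ i, 0 < x i) {k : ι → ℝ}
    (hk : ∀ r, ε ≤ k r ∧ k r ≤ 1 / ε) {B : ℝ} (hB0 : 0 < B)
    {Y1 Y2 : ℝ} (hY1 : ∀ r, ∑ i, (src r i : ℝ) ≤ Y1) (hY2 : ∀ r, ∑ i, |vec src tgt r i| ≤ Y2)
    {D : ℝ}
    (hD : lev (Fintype.card ι) (ε / Real.exp (2 * B * Y1)) (Real.exp (2 * B * Y1) / ε)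
        (24 * B * Real.exp (2 * B) * Y2 + 1) (Fintype.card ι) + 1 + 2 * B * Y2 ≤ D)
    (hg : |ip s (lg a x)| ≤ 2 * B) {r1 : ι} (hr1 : r1 ∈ classOf src tgt r0)
    (hr1D : D ≤ |ip (lg a x) (vec src tgt r1)|) :
    ∑ r ∈ classOf src tgt r0, rt a src k x r * Aline a B s x (vec src tgt r)
      ≤ -∑ r ∈ classOf src tgt r0, rt a src k x r := by
  classical
  set C := classOf src tgt r0 with hC
  set g := ip s (lg a x) with hgdef
  set E := V a x - Vt a s x with hE
  set β := beta B g with hβ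
  set β' := beta' B g with hβ'
  set κ := kappa s x with hκ
  set Λ := Real.exp (2 * B * Y1) with hΛ
  have hΛ0 : 0 < Λ := Real.exp_pos _
  have hE0 : 0 ≤ E := sub_nonneg.mpr (E_nonneg a hs hx)
  have hκ0 : 0 ≤ κ := kappa_nonneg hx
  have hY2nn : 0 ≤ Y2 := le_trans (Finset.sum_nonneg fun i _ => abs_nonneg _) (hY2 r1)
  have hY1nn : 0 ≤ Y1 := le_trans (Finset.sum_nonneg fun i _ => Nat.cast_nonneg _) (hY1 r1)
  set Γ := 24 * B * Real.exp (2 * B) * Y2 with hΓ
  have hΓ0 : 0 ≤ Γ := by positivity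
  have hβ0 : 0 ≤ β := beta_nonneg
  have hβ1 : β ≤ 1 := beta_le_one
  -- the interpolated gradient
  let π : Fin d → ℝ := fun i => lg a x i + (-(β * (lg a x i - lg a (zF a s x) i)))
  have hdiff : ∀ i, |-(-(β * (lg a x i - lg a (zF a s x) i)))| ≤ 2 * B := by
    intro i
    have h1 : |lg a x i - lg a (zF a s x) i| = |ell a s x i| := by
      unfold ell lg
      rw [abs_sub_comm]
      congr 1
      ring
    have h2 := abs_ell_le a hs hx hs1 i
    rw [neg_neg, abs_mul, abs_of_nonneg hβ0, h1]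
    calc β * |ell a s x i| ≤ 1 * |ell a s x i| := mul_le_mul_of_nonneg_right hβ1 (abs_nonneg _)
      _ = |ell a s x i| := one_mul _
      _ ≤ 2 * B := le_trans h2 hg
  let δ : Fin d → ℝ := fun i => β * (lg a x i - lg a (zF a s x) i)
  have hδ : ∀ i, |δ i| ≤ 2 * B := by
    intro i
    have := hdiff i
    simpa [δ] using this
  have hπ : ∀ v : Fin d → ℝ, ip π v = ip (lg a x) v - β * (ip (lg a x) v - ip (lg a (zF a s x)) v) := by
    intro v
    unfold ip
    rw [← Finset.sum_sub_distrib, Finset.mul_sum, ← Finset.sum_sub_distrib]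
    apply Finset.sum_congr rfl
    intro i _
    simp only [π]
    ring
  have hA : ∀ v : Fin d → ℝ, Aline a B s x v = ip π v - β' * (∑ i, s i * (v i / x i)) * E := by
    intro v
    unfold Aline
    rw [hπ v]
    ring
  -- modified rates
  let k' : ι → ℝ := fun r => k r * Real.exp (ipN δ (src r))
  have hrt : ∀ r, rt a src k x r = k' r * Real.exp (ipN π (src r)) := by
    intro r
    unfold rt
    simp only [k']
    rw [mul_assoc, ← Real.exp_add]
    congr 2
    rw [add_comm, ← ipN_add]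
    congr 1
    funext i
    simp only [π, δ]
    ring
  have hδsrc : ∀ r, |ipN δ (src r)| ≤ 2 * B * Y1 := by
    intro r
    unfold ipN
    calc |∑ i, δ i * (src r i : ℝ)| ≤ ∑ i, |δ i * (src r i : ℝ)| := Finset.abs_sum_le_sum_abs _ _
      _ ≤ ∑ i, 2 * B * (src r i : ℝ) := by
          apply Finset.sum_le_sum
          intro i _
          rw [abs_mul, Nat.abs_cast]
          exact mul_le_mul_of_nonneg_right (hδ i) (Nat.cast_nonneg _)
      _ = 2 * B * ∑ i, (src r i : ℝ) := by rw [Finset.mul_sum]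
      _ ≤ 2 * B * Y1 := mul_le_mul_of_nonneg_left (hY1 r) (by positivity)
  have hk' : ∀ r, ε / Λ ≤ k' r ∧ k' r ≤ Λ / ε := by
    intro r
    obtain ⟨h1, h2⟩ := hk r
    have h3 := abs_le.mp (hδsrc r)
    have hk0 : 0 < k r := lt_of_lt_of_le hε0 h1
    have h4 : Real.exp (ipN δ (src r)) ≤ Λ := Real.exp_le_exp.mpr h3.2
    have h5 : Λ⁻¹ ≤ Real.exp (ipN δ (src r)) := by
      rw [hΛ, ← Real.exp_neg]
      exact Real.exp_le_exp.mpr (by linarith [h3.1])
    constructor
    · rw [div_eq_mul_inv]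
      exact mul_le_mul h1 h5 (by positivity) hk0.le
    · have : Λ / ε = 1 / ε * Λ := by ring
      rw [this]
      exact mul_le_mul h2 h4 (Real.exp_pos _).le (by positivity)
  have hklku : ε / Λ ≤ Λ / ε := by
    have h1 : (1 : ℝ) ≤ Λ := Real.one_le_exp (by positivity)
    have h2 : ε / Λ ≤ ε := div_le_self hε0.le h1
    have h3 : 1 / ε ≤ Λ / ε := div_le_div_of_nonneg_right h1 hε0.le
    have h4 := eps_le_inv hε0 hε1
    linarith
  -- the spread
  have hδv : ∀ r, |ip δ (vec src tgt r)| ≤ 2 * B * Y2 := by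
    intro r
    unfold ip
    calc |∑ i, δ i * vec src tgt r i| ≤ ∑ i, |δ i * vec src tgt r i| := Finset.abs_sum_le_sum_abs _ _
      _ ≤ ∑ i, 2 * B * |vec src tgt r i| := by
          apply Finset.sum_le_sum
          intro i _
          rw [abs_mul]
          exact mul_le_mul_of_nonneg_right (hδ i) (abs_nonneg _)
      _ = 2 * B * ∑ i, |vec src tgt r i| := by rw [Finset.mul_sum]
      _ ≤ 2 * B * Y2 := mul_le_mul_of_nonneg_left (hY2 r) (by positivity)
  have hπδ : ∀ v : Fin d → ℝ, ip π v = ip (lg a x) v - ip δ v := by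
    intro v
    unfold ip
    rw [← Finset.sum_sub_distrib]
    apply Finset.sum_congr rfl
    intro i _
    simp only [π, δ]
    ring
  have hspread : lev (Fintype.card ι) (ε / Λ) (Λ / ε) (Γ + 1) (Fintype.card ι) + 1
      ≤ |ip π (vec src tgt r1)| := by
    rw [hπδ]
    have h1 := hδv r1
    have h2 : |ip (lg a x) (vec src tgt r1)| ≤
        |ip (lg a x) (vec src tgt r1) - ip δ (vec src tgt r1)| + |ip δ (vec src tgt r1)| := by
      have := abs_add_le (ip (lg a x) (vec src tgt r1) - ip δ (vec src tgt r1)) (ip δ (vec src tgt r1))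
      simpa using this
    linarith
  have hcl := net_class hne WR (ε / Λ) (Λ / ε) (Γ + 1) (by positivity) hklku (by linarith) r0 π k'
    (fun r _ => hk' r) ⟨r1, hr1, hspread⟩
  -- the correction is bounded by Γ
  have hcorr : ∀ r, |β' * (∑ i, s i * (vec src tgt r i / x i)) * E| ≤ Γ := by
    intro r
    have hvi : ∀ i, |vec src tgt r i| ≤ Y2 := fun i => by
      have h1 : |vec src tgt r i| ≤ ∑ j, |vec src tgt r j| :=
        Finset.single_le_sum (f := fun j => |vec src tgt r j|) (fun j _ => abs_nonneg _)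
          (Finset.mem_univ i)
      exact le_trans h1 (hY2 r)
    have hγ : |∑ i, s i * (vec src tgt r i / x i)| ≤ Y2 * κ := by
      calc |∑ i, s i * (vec src tgt r i / x i)| ≤ ∑ i, |s i * (vec src tgt r i / x i)| :=
            Finset.abs_sum_le_sum_abs _ _
        _ ≤ ∑ i, Y2 * (|s i| / x i) := by
            apply Finset.sum_le_sum
            intro i _
            rw [abs_mul, abs_div, abs_of_pos (hx i)]
            have h1 := hvi i
            have h2 := hx i
            calc |s i| * (|vec src tgt r i| / x i) = |vec src tgt r i| * (|s i| / x i) := by ring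
              _ ≤ Y2 * (|s i| / x i) := mul_le_mul_of_nonneg_right h1 (by positivity)
        _ = Y2 * ∑ i, |s i| / x i := by rw [Finset.mul_sum]
        _ ≤ Y2 * κ := mul_le_mul_of_nonneg_left (sum_abs_le_kappa hx hs1) hY2nn
    have hκE : κ * E ≤ g ^ 2 * Real.exp |g| := kappa_E_le a hs hx hs1
    have hβ'b : |β'| ≤ 3 * |g| / B ^ 2 := abs_beta'_le hB0
    rw [abs_mul, abs_mul, abs_of_nonneg hE0]
    have hg2 : g ^ 2 ≤ (2 * B) ^ 2 := by
      rw [← sq_abs g]
      exact pow_le_pow_left₀ (abs_nonneg _) hg 2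
    have hexp : Real.exp |g| ≤ Real.exp (2 * B) := Real.exp_le_exp.mpr hg
    have hκE2 : κ * E ≤ (2 * B) ^ 2 * Real.exp (2 * B) :=
      le_trans hκE (mul_le_mul hg2 hexp (Real.exp_pos _).le (by positivity))
    have hβ'2 : |β'| ≤ 6 / B := by
      refine le_trans hβ'b ?_
      rw [div_le_div_iff₀ (by positivity) hB0]
      have : 3 * |g| * B ≤ 3 * (2 * B) * B := by
        apply mul_le_mul_of_nonneg_right _ hB0.le
        linarith
      nlinarith
    calc |β'| * |∑ i, s i * (vec src tgt r i / x i)| * E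
        ≤ (6 / B) * (Y2 * κ) * E := by
          apply mul_le_mul_of_nonneg_right _ hE0
          exact mul_le_mul hβ'2 hγ (abs_nonneg _) (by positivity)
      _ = (6 / B) * Y2 * (κ * E) := by ring
      _ ≤ (6 / B) * Y2 * ((2 * B) ^ 2 * Real.exp (2 * B)) :=
          mul_le_mul_of_nonneg_left hκE2 (by positivity)
      _ = Γ := by
          rw [hΓ]
          field_simp
          ring
  -- combine
  have hmain : ∑ r ∈ C, rt a src k x r * ip π (vec src tgt r)
      ≤ -(Γ + 1) * ∑ r ∈ C, rt a src k x r := by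
    have e1 : ∀ r, rt a src k x r * ip π (vec src tgt r)
        = k' r * Real.exp (ipN π (src r)) * ip π (vec src tgt r) := fun r => by rw [hrt r]
    have e2 : ∀ r, rt a src k x r = k' r * Real.exp (ipN π (src r)) := hrt
    rw [Finset.sum_congr rfl (fun r _ => e1 r), Finset.sum_congr (rfl : C = C) (fun r _ => e2 r)]
    exact hcl
  have hrt0 : ∀ r, 0 ≤ rt a src k x r := fun r => by
    unfold rt
    have := lt_of_lt_of_le hε0 (hk r).1
    positivity
  have hsplit : ∑ r ∈ C, rt a src k x r * Aline a B s x (vec src tgt r)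
      = ∑ r ∈ C, rt a src k x r * ip π (vec src tgt r)
        - ∑ r ∈ C, rt a src k x r * (β' * (∑ i, s i * (vec src tgt r i / x i)) * E) := by
    rw [← Finset.sum_sub_distrib]
    apply Finset.sum_congr rfl
    intro r _
    rw [hA]
    ring
  have hcorr2 : -(Γ * ∑ r ∈ C, rt a src k x r)
      ≤ ∑ r ∈ C, rt a src k x r * (β' * (∑ i, s i * (vec src tgt r i / x i)) * E) := by
    rw [Finset.mul_sum, ← Finset.sum_neg_distrib]
    apply Finset.sum_le_sum
    intro r _
    have h1 := neg_abs_le (β' * (∑ i, s i * (vec src tgt r i / x i)) * E)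
    have h2 := hcorr r
    have h3 := hrt0 r
    nlinarith
  rw [hsplit]
  linarith

end classes

/-- The Lyapunov function. -/
def W (a : Fin d → ℝ) {J : Type} [Fintype J] (s : J → Fin d → ℝ) (B : ℝ) (x : Fin d → ℝ) : ℝ :=
  V a x - ∑ j, beta B (ip (s j) (lg a x)) * (V a x - Vt a (s j) x)

/-- The effective gradient of the Lyapunov function. -/
def grad (a : Fin d → ℝ) {J : Type} [Fintype J] (s : J → Fin d → ℝ) (B : ℝ) (x : Fin d → ℝ) (i : Fin d) : ℝ :=
  lg a x i - ∑ j, (beta' B (ip (s j) (lg a x)) * (s j i / x i) * (V a x - Vt a (s j) x)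
    + beta B (ip (s j) (lg a x)) * (lg a x i - lg a (zF a (s j) x) i))

/-- Derivative of the `g` function along a curve. -/
lemma hasDerivWithinAt_g (a : Fin d → ℝ) {s : Fin d → ℝ} {x : ℝ → Fin d → ℝ} {u : Fin d → ℝ}
    {D : Set ℝ} {t : ℝ} (hx : ∀ i, 0 < x t i) (hd : HasDerivWithinAt x u D t) :
    HasDerivWithinAt (fun t' => ip s (lg a (x t'))) (∑ i, s i * (u i / x t i)) D t := by
  unfold ip lg
  have hd' := hasDerivWithinAt_pi.mp hd
  apply HasDerivWithinAt.fun_sum
  intro i _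
  exact (((hd' i).log (hx i).ne').sub_const (a i)).const_mul (s i)

lemma sum_expand {J : Type} [Fintype J] (a b E : J → ℝ) (s : J → Fin d → ℝ) (p : Fin d → ℝ)
    (z : J → Fin d → ℝ) (x v : Fin d → ℝ) :
    ∑ i, (p i - ∑ j, (a j * (s j i / x i) * E j + b j * (p i - z j i))) * v i
      = ∑ i, p i * v i - ∑ j, (a j * (∑ i, s j i * (v i / x i)) * E j
          + b j * (∑ i, p i * v i - ∑ i, z j i * v i)) := by
  have h : ∀ j, a j * (∑ i, s j i * (v i / x i)) * E j + b j * (∑ i, p i * v i - ∑ i, z j i * v i)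
      = ∑ i, (a j * (s j i / x i) * E j + b j * (p i - z j i)) * v i := by
    intro j
    rw [← Finset.sum_sub_distrib, Finset.mul_sum, Finset.sum_mul, Finset.mul_sum,
      ← Finset.sum_add_distrib]
    apply Finset.sum_congr rfl
    intro i _
    ring
  rw [Finset.sum_congr rfl (fun j _ => h j), Finset.sum_comm, ← Finset.sum_sub_distrib]
  apply Finset.sum_congr rfl
  intro i _
  rw [sub_mul, Finset.sum_mul]

lemma ip_grad (a : Fin d → ℝ) {J : Type} [Fintype J] (s : J → Fin d → ℝ) (B : ℝ) (x v : Fin d → ℝ) :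
    ip (grad a s B x) v = ip (lg a x) v - ∑ j, (beta' B (ip (s j) (lg a x)) * (∑ i, s j i * (v i / x i))
        * (V a x - Vt a (s j) x)
      + beta B (ip (s j) (lg a x)) * (ip (lg a x) v - ip (lg a (zF a (s j) x)) v)) :=
  sum_expand (fun j => beta' B (ip (s j) (lg a x))) (fun j => beta B (ip (s j) (lg a x)))
    (fun j => V a x - Vt a (s j) x) s (lg a x) (fun j => lg a (zF a (s j) x)) x v

/-- Derivative of the Lyapunov function along a curve. -/
theorem hasDerivWithinAt_W (a : Fin d → ℝ) {J : Type} [Fintype J] {s : J → Fin d → ℝ} (hs : ∀ j, s j ≠ 0) (B : ℝ)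
    {x : ℝ → Fin d → ℝ} {u : Fin d → ℝ} {D : Set ℝ} {t : ℝ} (hxD : ∀ t' ∈ D, ∀ i, 0 < x t' i)
    (ht : t ∈ D) (hd : HasDerivWithinAt x u D t) :
    HasDerivWithinAt (fun t' => W a s B (x t')) (ip (grad a s B (x t)) u) D t := by
  have hx := hxD t ht
  have hV := hasDerivWithinAt_V a hx hd
  have hj : ∀ j, HasDerivWithinAt
      (fun t' => beta B (ip (s j) (lg a (x t'))) * (V a (x t') - Vt a (s j) (x t')))
      (beta' B (ip (s j) (lg a (x t))) * (∑ i, s j i * (u i / x t i)) * (V a (x t) - Vt a (s j) (x t))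
        + beta B (ip (s j) (lg a (x t))) * (ip (lg a (x t)) u - ip (lg a (zF a (s j) (x t))) u)) D t := by
    intro j
    have h1 := (hasDerivAt_beta B (ip (s j) (lg a (x t)))).comp_hasDerivWithinAt t
      (hasDerivWithinAt_g a (s := s j) hx hd)
    have h2 := hV.sub (hasDerivWithinAt_Vt a (hs j) hxD ht hd)
    exact h1.fun_mul h2
  have hsum := HasDerivWithinAt.fun_sum (u := Finset.univ) (fun j _ => hj j)
  have hW := hV.sub hsum
  rw [ip_grad a]
  exact hW

/-- The effective gradient when only one line is active. -/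
lemma grad_eq_single (a : Fin d → ℝ) {J : Type} [Fintype J] {s : J → Fin d → ℝ} {B : ℝ} (hB : 0 < B)
    {x : Fin d → ℝ} {j₀ : J}
    (hin : ∀ j, j ≠ j₀ → 2 * B ^ 2 ≤ ip (s j) (lg a x) ^ 2) (v : Fin d → ℝ) :
    ip (grad a s B x) v = Aline a B (s j₀) x v := by
  rw [ip_grad a]
  unfold Aline
  congr 1
  apply Finset.sum_eq_single j₀
  · intro j _ hj
    rw [beta'_eq_zero_of_large hB (hin j hj), beta_eq_zero hB (hin j hj)]
    ring
  · intro h
    exact absurd (Finset.mem_univ j₀) h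

/-- The effective gradient when no line is active. -/
lemma grad_eq_none (a : Fin d → ℝ) {J : Type} [Fintype J] {s : J → Fin d → ℝ} {B : ℝ} (hB : 0 < B)
    {x : Fin d → ℝ} (hin : ∀ j, 2 * B ^ 2 ≤ ip (s j) (lg a x) ^ 2) (v : Fin d → ℝ) :
    ip (grad a s B x) v = ip (lg a x) v := by
  rw [ip_grad a]
  rw [Finset.sum_eq_zero]
  · ring
  · intro j _
    rw [beta'_eq_zero_of_large hB (hin j), beta_eq_zero hB (hin j)]
    ring

end

end Vale.Agent.P072.Tilt
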