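import Vale.Agent.P072T.Cutoff

/-!
Permanence of weakly reversible mass-action systems with `dim S ≤ 2`.
-/

namespace Vale.Agent.P072.Tilt

open Vale.Agent.P072
open Finset Set

noncomputable section

variable {d : ℕ} {ι : Type}

/-- A species with no reaction vector component is constant. -/
lemma const_species {src tgt : ι → Fin d → ℕ} {i : Fin d}
    (h : ∀ r, vec src tgt r i = 0) {u : Fin d → ℝ} (hu : u ∈ Sp src tgt) : u i = 0 := by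
  have := par_span (i := i) (j := i) (γ := 0) (fun r => by rw [h r]; ring) hu
  simpa using this

/-- The bounds for a finite time interval, depending on the initial bounds only. -/
theorem stage_one [Fintype ι] (src tgt : ι → Fin d → ℕ) (hne : ∀ r, src r ≠ tgt r)
    (WR : WeaklyRev src tgt) (hrank : Module.finrank ℝ (Sp src tgt) ≤ 2) {c : Fin d → ℝ}
    (hc : ∀ i, 0 < c i) (ε : ℝ) (hε : 0 < ε) {δ₀ : ℝ} (hδ₀ : 0 < δ₀) (Λ₀ : ℝ) :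
    ∃ δ₁ M₁ : ℝ, 0 < δ₁ ∧ ∀ (k : ι → ℝ → ℝ) (T : ℝ) (x : ℝ → Fin d → ℝ),
      (∀ r, ∀ t ∈ Ico (0 : ℝ) T, ε ≤ k r t ∧ k r t ≤ 1 / ε) →
      x 0 - c ∈ Sp src tgt → (∀ i, δ₀ ≤ x 0 i ∧ x 0 i ≤ Λ₀) → Sol src tgt k x (Ico 0 T) →
      ∀ t ∈ Ico (0 : ℝ) T, ∀ i, δ₁ ≤ x t i ∧ x t i ≤ M₁ := by
  classical
  obtain ⟨W₀, G₀, L₀, Mf, hd, hup, hdec, hbox⟩ := upper_package src tgt hne WR hrank hc ε hε
  set R := max Λ₀ 1 with hR
  have hR1 : 1 ≤ R := le_max_right _ _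
  set L' := max L₀ ((d : ℝ) * (R * Real.log R)) with hL'
  set M' := max (Mf L') 1 with hM'
  have hM'1 : 1 ≤ M' := le_max_right _ _
  -- corners
  have hpairs : ∀ p : Fin d × Fin d, ∃ η : ℝ, 0 < η ∧ (Indep src tgt p.1 p.2 →
      ∀ (k : ι → ℝ → ℝ) (x : ℝ → Fin d → ℝ) (s T : ℝ),
      (∀ r, ∀ t ∈ Ico s T, ε ≤ k r t ∧ k r t ≤ 1 / ε) → Sol src tgt k x (Ico s T) →
      x s - c ∈ Sp src tgt → (∀ t ∈ Ico s T, ∀ l, x t l ≤ M') → s < T →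
      δ₀ ≤ x s p.1 + x s p.2 → ∀ t ∈ Ico s T, η ≤ x t p.1 + x t p.2) := by
    intro p
    by_cases hp : Indep src tgt p.1 p.2
    · obtain ⟨η, hη, h⟩ := corner_stage1 src tgt hne WR hrank hc ε hε hp hM'1 hδ₀
      exact ⟨η, hη, fun _ => h⟩
    · exact ⟨1, one_pos, fun h => absurd h hp⟩
  choose ηf hηf0 hηf using hpairs
  obtain ⟨η₁, hη₁, hη₁le⟩ := exists_pos_le ηf hηf0
  -- species
  have hspecies : ∀ i : Fin d, ∃ δ : ℝ, 0 < δ ∧ ((∃ r₀, vec src tgt r₀ i ≠ 0) →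
      ∀ (k : ι → ℝ → ℝ) (x : ℝ → Fin d → ℝ) (s T : ℝ),
      (∀ r, ∀ t ∈ Ico s T, ε ≤ k r t ∧ k r t ≤ 1 / ε) → Sol src tgt k x (Ico s T) →
      x s - c ∈ Sp src tgt → (∀ t ∈ Ico s T, ∀ l, x t l ≤ M') →
      (∀ t ∈ Ico s T, ∀ j, Indep src tgt i j → η₁ ≤ x t i + x t j) →
      ∀ t ∈ Ico s T, min δ (x s i) ≤ x t i) := by
    intro i
    by_cases hi : ∃ r₀, vec src tgt r₀ i ≠ 0
    · obtain ⟨r₀, hr₀⟩ := hi
      obtain ⟨δ, hδ, h⟩ := cut_stage1 src tgt hne WR hc ε hε hr₀ (by linarith : 0 < M') hη₁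
      exact ⟨δ, hδ, fun _ => h⟩
    · exact ⟨1, one_pos, fun h => absurd h hi⟩
  choose δf hδf0 hδf using hspecies
  obtain ⟨δ₂, hδ₂, hδ₂le⟩ := exists_pos_le δf hδf0
  refine ⟨min δ₀ δ₂, M', lt_min hδ₀ hδ₂, ?_⟩
  intro k T x hk hS0 hx0 hsol t ht i
  have h00 : (0 : ℝ) ∈ Ico (0 : ℝ) T := ⟨le_rfl, lt_of_le_of_lt ht.1 ht.2⟩
  have hSt : ∀ t ∈ Ico (0 : ℝ) T, x t - c ∈ Sp src tgt := fun t ht => Sol.mem_class hsol hS0 ht
  have hxpos : ∀ t ∈ Ico (0 : ℝ) T, ∀ i, 0 < x t i := fun t ht => (hsol t ht).1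
  -- upper bound
  have hf : ∀ t ∈ Ico (0 : ℝ) T, HasDerivWithinAt (fun t' => W₀ (x t'))
      (ip (G₀ (x t)) (flux src tgt (fun r => k r t) (x t))) (Ico 0 T) t := fun t ht =>
    hd x _ _ t (fun t' ht' => (hsol t' ht').1) ht (hsol t ht).2
  have hstart : W₀ (x 0) ≤ L' := by
    have h1 := hbox (x 0) (hsol 0 h00).1 R hR1 (fun i => le_trans (hx0 i).2 (le_max_left _ _))
    exact le_trans h1 (le_max_right _ _)
  have hWb := comparison (L := L') hf hstart (fun t ht hgt => by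
    obtain ⟨r1, hr1⟩ := hdec (x t) (hsol t ht).1 (hSt t ht)
      (lt_of_le_of_lt (le_max_left _ _) hgt)
    have h1 := hr1 (fun r => k r t) (fun r => hk r t ht)
    have h2 : 0 < k r1 t := lt_of_lt_of_le hε (hk r1 t ht).1
    have h3 := mon_pos src (hsol t ht).1 r1
    have h4 : 0 < k r1 t * mon src (x t) r1 := mul_pos h2 h3
    linarith)
  have hupper : ∀ t ∈ Ico (0 : ℝ) T, ∀ l, x t l ≤ M' := fun t ht l =>
    le_trans (hup (x t) (hsol t ht).1 (hSt t ht) L' (hWb t ht) (le_max_left _ _) l) (le_max_left _ _)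
  refine ⟨?_, hupper t ht i⟩
  -- corners are avoided
  have hσ : ∀ t ∈ Ico (0 : ℝ) T, ∀ j, Indep src tgt i j → η₁ ≤ x t i + x t j := by
    intro t ht j hij
    have h1 := hηf (i, j) hij k x 0 T hk hsol hS0 hupper h00.2
      (by
        have h2 := (hx0 i).1
        have h3 := hxpos 0 h00 j
        simp only
        linarith) t ht
    exact le_trans (hη₁le (i, j)) h1
  by_cases hi : ∃ r₀, vec src tgt r₀ i ≠ 0
  · have h1 := hδf i hi k x 0 T hk hsol hS0 hupper hσ t ht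
    refine le_trans ?_ h1
    exact le_min (le_trans (min_le_right _ _) (hδ₂le i)) (le_trans (min_le_left _ _) (hx0 i).1)
  · push_neg at hi
    have h1 := mem_S_of_deriv (S := Sp src tgt) (fun t ht => (hsol t ht).2)
      (fun t _ => flux_mem src tgt _ _) ht
    have h2 := const_species hi h1
    simp only [Pi.sub_apply] at h2
    have h3 := (hx0 i).1
    have h4 : min δ₀ δ₂ ≤ δ₀ := min_le_left _ _
    linarith

/-- Species estimate for the eventual bound. -/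
lemma species_stage2 [Fintype ι] (src tgt : ι → Fin d → ℕ) (hne : ∀ r, src r ≠ tgt r)
    (WR : WeaklyRev src tgt) {c : Fin d → ℝ} (hc : ∀ i, 0 < c i) (ε : ℝ) (hε : 0 < ε) (i : Fin d)
    {M η : ℝ} (hM : 0 < M) (hη : 0 < η) :
    ∃ δ : ℝ, 0 < δ ∧ ∀ (ρ : ℝ), 0 < ρ → ∀ (k : ι → ℝ → ℝ) (x : ℝ → Fin d → ℝ) (s : ℝ),
      (∀ r, ∀ t ∈ Ici s, ε ≤ k r t ∧ k r t ≤ 1 / ε) → Sol src tgt k x (Ici s) →
      x s - c ∈ Sp src tgt → (∀ t ∈ Ici s, ∀ l, x t l ≤ M) →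
      (∀ t ∈ Ici s, ∀ j, Indep src tgt i j → η ≤ x t i + x t j) →
      (∀ t ∈ Ici s, ∀ r, ρ ≤ mon src (x t) r) →
      ∃ T, s ≤ T ∧ ∀ t, T ≤ t → δ ≤ x t i := by
  by_cases hi : ∃ r₀, vec src tgt r₀ i ≠ 0
  · obtain ⟨r₀, hr₀⟩ := hi
    obtain ⟨δ, hδ, h⟩ := cut_stage2 src tgt hne WR hc ε hε hr₀ hM hη
    exact ⟨δ, hδ, fun ρ hρ k x s hk hsol h0 hb hH hr =>
      h ρ hρ k x s hk hsol h0 hb hH (fun t ht => hr t ht r₀)⟩
  · push_neg at hi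
    refine ⟨c i, hc i, fun ρ _ k x s _ hsol h0 _ _ _ => ⟨s, le_rfl, fun t ht => ?_⟩⟩
    have h1 := const_species hi (Sol.mem_class_Ici hsol h0 ht)
    simp only [Pi.sub_apply] at h1
    linarith

/-- The eventual bound, independent of the initial condition. -/
theorem stage_two [Fintype ι] (src tgt : ι → Fin d → ℕ) (hne : ∀ r, src r ≠ tgt r)
    (WR : WeaklyRev src tgt) (hrank : Module.finrank ℝ (Sp src tgt) ≤ 2) {c : Fin d → ℝ}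
    (hc : ∀ i, 0 < c i) (ε : ℝ) (hε : 0 < ε) :
    ∃ δ M : ℝ, 0 < δ ∧ ∀ (k : ι → ℝ → ℝ) (x : ℝ → Fin d → ℝ),
      (∀ r, ∀ t ∈ Ici (0 : ℝ), ε ≤ k r t ∧ k r t ≤ 1 / ε) →
      x 0 - c ∈ Sp src tgt → Sol src tgt k x (Ici 0) →
      ∃ T₀, 0 ≤ T₀ ∧ ∀ t, T₀ ≤ t → ∀ i, δ ≤ x t i ∧ x t i ≤ M := by
  classical
  obtain ⟨W₀, G₀, L₀, Mf, hd, hup, hdec, _⟩ := upper_package src tgt hne WR hrank hc ε hε
  set Ms := max (Mf L₀) 1 with hMs
  have hMs1 : 1 ≤ Ms := le_max_right _ _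
  have hMs0 : 0 < Ms := by linarith
  have hpairs : ∀ p : Fin d × Fin d, ∃ η : ℝ, 0 < η ∧ (Indep src tgt p.1 p.2 →
      ∀ (ρ : ℝ), 0 < ρ → ∀ (k : ι → ℝ → ℝ) (x : ℝ → Fin d → ℝ) (s : ℝ),
      (∀ r, ∀ t ∈ Ici s, ε ≤ k r t ∧ k r t ≤ 1 / ε) → Sol src tgt k x (Ici s) →
      x s - c ∈ Sp src tgt → (∀ t ∈ Ici s, ∀ l, x t l ≤ Ms) →
      (∀ t ∈ Ici s, ∀ r, ρ ≤ k r t * mon src (x t) r) →
      ∃ T, s ≤ T ∧ ∀ t, T ≤ t → η ≤ x t p.1 + x t p.2) := by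
    intro p
    by_cases hp : Indep src tgt p.1 p.2
    · obtain ⟨η, hη, h⟩ := corner_stage2 src tgt hne WR hrank hc ε hε hp hMs1
      exact ⟨η, hη, fun _ => h⟩
    · exact ⟨1, one_pos, fun h => absurd h hp⟩
  choose ηf hηf0 hηf using hpairs
  obtain ⟨ηs, hηs, hηsle⟩ := exists_pos_le ηf hηf0
  choose δf hδf0 hδf using fun i => species_stage2 src tgt hne WR hc ε hε i hMs0 hηs
  obtain ⟨δs, hδs, hδsle⟩ := exists_pos_le δf hδf0
  refine ⟨δs, Ms, hδs, ?_⟩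
  intro k x hk hS0 hsol
  have hxpos : ∀ t, 0 ≤ t → ∀ i, 0 < x t i := fun t ht => (hsol t ht).1
  have hSt : ∀ t, 0 ≤ t → x t - c ∈ Sp src tgt := fun t ht => Sol.mem_class_Ici hsol hS0 ht
  -- the bounds depending on the initial value
  obtain ⟨δ₀, hδ₀, hδ₀le⟩ := exists_pos_le (x 0) (hxpos 0 le_rfl)
  obtain ⟨Λ₀, _, hΛ₀⟩ := exists_ge_all (x 0)
  obtain ⟨δ₁, M₁, hδ₁, h1⟩ := stage_one src tgt hne WR hrank hc ε hε hδ₀ Λ₀
  have hlower : ∀ t, 0 ≤ t → ∀ i, δ₁ ≤ x t i := by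
    intro t ht i
    have hsub : Ico (0 : ℝ) (t + 1) ⊆ Ici 0 := fun y hy => hy.1
    exact (h1 k (t + 1) x (fun r τ hτ => hk r τ (hsub hτ)) hS0 (fun i => ⟨hδ₀le i, hΛ₀ i⟩)
      (hsol.mono hsub) t ⟨ht, by linarith⟩ i).1
  obtain ⟨ρ₁, hρ₁, hmon⟩ := mon_lower src hδ₁ (ι := ι)
  have hρ : 0 < ε * ρ₁ := mul_pos hε hρ₁
  have hrate : ∀ t, 0 ≤ t → ∀ r, ε * ρ₁ ≤ k r t * mon src (x t) r := by
    intro t ht r
    exact mul_le_mul (hk r t ht).1 (hmon (x t) (hlower t ht) r) hρ₁.le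
      (le_trans hε.le (hk r t ht).1)
  -- eventually the upper bound holds
  have hf : ∀ t ∈ Ici (0 : ℝ), HasDerivWithinAt (fun t' => W₀ (x t'))
      (ip (G₀ (x t)) (flux src tgt (fun r => k r t) (x t))) (Ici 0) t := fun t ht =>
    hd x _ _ t (fun t' ht' => (hsol t' ht').1) ht (hsol t ht).2
  obtain ⟨T₁, hT₁, hev⟩ := stage_eventually (L := L₀) hρ hf (fun t ht hgt => by
    obtain ⟨r1, hr1⟩ := hdec (x t) (hsol t ht).1 (hSt t ht) hgt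
    have h2 := hr1 (fun r => k r t) (fun r => hk r t ht)
    have h3 := hrate t ht r1
    linarith)
  have hupper : ∀ t, T₁ ≤ t → ∀ l, x t l ≤ Ms := fun t ht l =>
    le_trans (hup (x t) (hxpos t (le_trans hT₁ ht)) (hSt t (le_trans hT₁ ht)) L₀ (hev t ht) le_rfl l)
      (le_max_left _ _)
  have hsubT : ∀ T : ℝ, 0 ≤ T → Ici T ⊆ Ici (0 : ℝ) := fun T hT y hy => le_trans hT hy
  -- the corners
  have hcorners : ∀ p : Fin d × Fin d, ∃ T, T₁ ≤ T ∧ (Indep src tgt p.1 p.2 → ∀ t, T ≤ t →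
      ηs ≤ x t p.1 + x t p.2) := by
    intro p
    by_cases hp : Indep src tgt p.1 p.2
    · obtain ⟨T, hT, h⟩ := hηf p hp (ε * ρ₁) hρ k x T₁
        (fun r t ht => hk r t (hsubT T₁ hT₁ ht)) (hsol.mono (hsubT T₁ hT₁)) (hSt T₁ hT₁)
        (fun t ht l => hupper t ht l) (fun t ht r => hrate t (le_trans hT₁ ht) r)
      exact ⟨T, hT, fun _ t ht => le_trans (hηsle p) (h t ht)⟩
    · exact ⟨T₁, le_rfl, fun h => absurd h hp⟩
  choose T₂ hT₂1 hT₂ using hcorners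
  obtain ⟨T₂', _, hT₂'⟩ := exists_ge_all T₂
  set T₂s := max T₁ T₂' with hT₂s
  have hT₁s : T₁ ≤ T₂s := le_max_left _ _
  have hT₂s0 : 0 ≤ T₂s := le_trans hT₁ hT₁s
  -- the species
  have hsp : ∀ i, ∃ T, T₂s ≤ T ∧ ∀ t, T ≤ t → δf i ≤ x t i := by
    intro i
    exact hδf i ρ₁ hρ₁ k x T₂s (fun r t ht => hk r t (hsubT T₂s hT₂s0 ht))
      (hsol.mono (hsubT T₂s hT₂s0)) (hSt T₂s hT₂s0)
      (fun t ht l => hupper t (le_trans hT₁s ht) l)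
      (fun t ht j hij => hT₂ (i, j) hij t
        (le_trans (le_trans (hT₂' (i, j)) (le_max_right _ _)) ht))
      (fun t ht r => hmon (x t) (hlower t (le_trans hT₂s0 ht)) r)
  choose T₃ hT₃1 hT₃ using hsp
  obtain ⟨T₃', _, hT₃'⟩ := exists_ge_all T₃
  refine ⟨max T₂s T₃', le_trans hT₂s0 (le_max_left _ _), ?_⟩
  intro t ht i
  have ht1 : T₂s ≤ t := le_trans (le_max_left _ _) ht
  have ht2 : T₃ i ≤ t := le_trans (hT₃' i) (le_trans (le_max_right _ _) ht)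
  exact ⟨le_trans (hδsle i) (hT₃ i t ht2), hupper t (le_trans hT₁s ht1) i⟩

/-- **Permanence** for weakly reversible mass-action systems with `dim S ≤ 2`:
there is a compact set in the positive stoichiometric class which eventually contains every
solution; and solutions starting in a compact set cannot reach the boundary or blow up in finite
time, with bounds independent of the existence time and of the rates. -/
theorem permanence_main [Fintype ι] (src tgt : ι → Fin d → ℕ) (hne : ∀ r, src r ≠ tgt r)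
    (WR : WeaklyRev src tgt)
    (hrank : Module.finrank ℝ (Submodule.span ℝ (Set.range (vec src tgt))) ≤ 2)
    (ε : ℝ) (hε : 0 < ε) (c : Fin d → ℝ) (hc : ∀ i, 0 < c i) :
    (∃ K : Set (Fin d → ℝ), IsCompact K ∧
      (∀ y ∈ K, (∀ i, 0 < y i) ∧ y - c ∈ Submodule.span ℝ (Set.range (vec src tgt))) ∧
      ∀ (k : ι → ℝ → ℝ) (x : ℝ → Fin d → ℝ),
        (∀ r, ∀ t, 0 ≤ t → ε ≤ k r t ∧ k r t ≤ 1 / ε) →
        x 0 - c ∈ Submodule.span ℝ (Set.range (vec src tgt)) →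
        (∀ t, 0 ≤ t → (∀ i, 0 < x t i) ∧
          HasDerivWithinAt x (∑ r, (k r t * ∏ i, x t i ^ src r i) • vec src tgt r) (Set.Ici 0) t) →
        ∃ T₀ : ℝ, 0 ≤ T₀ ∧ ∀ t, T₀ ≤ t → x t ∈ K) ∧
    (∀ δ₀ Λ₀ : ℝ, 0 < δ₀ → ∃ δ₁ M₁ : ℝ, 0 < δ₁ ∧
      ∀ (k : ι → ℝ → ℝ) (T : ℝ) (x : ℝ → Fin d → ℝ),
        (∀ r, ∀ t ∈ Set.Ico (0 : ℝ) T, ε ≤ k r t ∧ k r t ≤ 1 / ε) →
        x 0 - c ∈ Submodule.span ℝ (Set.range (vec src tgt)) →
        (∀ i, δ₀ ≤ x 0 i ∧ x 0 i ≤ Λ₀) →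
        (∀ t ∈ Set.Ico (0 : ℝ) T, (∀ i, 0 < x t i) ∧
          HasDerivWithinAt x (∑ r, (k r t * ∏ i, x t i ^ src r i) • vec src tgt r)
            (Set.Ico 0 T) t) →
        ∀ t ∈ Set.Ico (0 : ℝ) T, ∀ i, δ₁ ≤ x t i ∧ x t i ≤ M₁) := by
  constructor
  · obtain ⟨δ, M, hδ, h⟩ := stage_two src tgt hne WR hrank hc ε hε
    set S := Submodule.span ℝ (Set.range (vec src tgt)) with hS
    refine ⟨{y | y - c ∈ S} ∩ Set.pi Set.univ (fun _ => Set.Icc δ M), ?_, ?_, ?_⟩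
    · apply IsCompact.inter_left (isCompact_univ_pi fun _ => isCompact_Icc)
      have hcl : IsClosed (S : Set (Fin d → ℝ)) := Submodule.closed_of_finiteDimensional S
      exact hcl.preimage (continuous_id.sub continuous_const)
    · rintro y ⟨h1, h2⟩
      exact ⟨fun i => lt_of_lt_of_le hδ (h2 i (Set.mem_univ i)).1, h1⟩
    · intro k x hk hS0 htraj
      have hsol : Sol src tgt k x (Ici 0) := fun t ht => htraj t ht
      obtain ⟨T₀, hT₀, hev⟩ := h k x (fun r t ht => hk r t ht) hS0 hsol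
      refine ⟨T₀, hT₀, fun t ht => ⟨?_, fun i _ => hev t ht i⟩⟩
      exact Sol.mem_class_Ici hsol hS0 (le_trans hT₀ ht)
  · intro δ₀ Λ₀ hδ₀
    obtain ⟨δ₁, M₁, hδ₁, h⟩ := stage_one src tgt hne WR hrank hc ε hε hδ₀ Λ₀
    exact ⟨δ₁, M₁, hδ₁, fun k T x hk hS0 hx0 htraj => h k T x hk hS0 hx0 htraj⟩

end

end Vale.Agent.P072.Tilt
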