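import Vale.Agent.P072T.Lyap
import Vale.Agent.P072.Far

/-!
The Lyapunov package: a function `W` with `W ≤ V a`, decreasing strictly wherever one reaction
sees a large value of `⟨log x - a, v⟩`, when `dim S ≤ 2`.
-/

namespace Vale.Agent.P072.Tilt

open Vale.Agent.P072
open Finset Set

noncomputable section

variable {d : ℕ} {ι : Type}

section par

variable (src tgt : ι → Fin d → ℕ)

/-- Parallelism of reaction vectors. -/
def Par (r r' : ι) : Prop := ∃ ρ : ℝ, ρ ≠ 0 ∧ ∀ i, vec src tgt r i = ρ * vec src tgt r' i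

/-- The setoid of parallelism classes. -/
def parSetoid : Setoid ι where
  r := Par src tgt
  iseqv := by
    refine ⟨fun r => ⟨1, one_ne_zero, fun i => by ring⟩, ?_, ?_⟩
    · rintro r r' ⟨ρ, h, e⟩
      exact ⟨ρ⁻¹, inv_ne_zero h, fun i => by
        rw [e i, ← mul_assoc, inv_mul_cancel₀ h, one_mul]⟩
    · rintro r r' r'' ⟨ρ, h, e⟩ ⟨ρ', h', e'⟩
      exact ⟨ρ * ρ', mul_ne_zero h h', fun i => by rw [e i, e' i, mul_assoc]⟩

/-- The parallelism classes. -/
abbrev PClass := Quotient (parSetoid src tgt)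

/-- The direction of a parallelism class. -/
def sj (j : PClass src tgt) : Fin d → ℝ := vec src tgt j.out

lemma vec_int (r : ι) (i : Fin d) : vec src tgt r i = 0 ∨ 1 ≤ |vec src tgt r i| := by
  unfold vec
  by_cases h : tgt r i = src r i
  · left
    rw [h]
    ring
  · right
    have h1 : ((tgt r i : ℤ) - (src r i : ℤ)) ≠ 0 := by
      intro h2
      apply h
      omega
    have h2 : (1 : ℤ) ≤ |(tgt r i : ℤ) - (src r i : ℤ)| := Int.one_le_abs h1
    have h3 : ((1 : ℤ) : ℝ) ≤ ((|(tgt r i : ℤ) - (src r i : ℤ)| : ℤ) : ℝ) := by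
      exact_mod_cast h2
    simpa using h3

variable {src tgt}

lemma vec_ne_zero (hne : ∀ r, src r ≠ tgt r) (r : ι) : vec src tgt r ≠ 0 := by
  intro h
  apply hne r
  funext i
  have h1 := congrFun h i
  simp only [vec, Pi.zero_apply] at h1
  have h2 : (tgt r i : ℝ) = src r i := by linarith
  exact_mod_cast h2.symm

lemma par_ind (hne : ∀ r, src r ≠ tgt r) {r r' : ι} (hnp : ¬ Par src tgt r r') :
    ∀ a b : ℝ, (∀ i, a * vec src tgt r i + b * vec src tgt r' i = 0) → a = 0 ∧ b = 0 := by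
  intro a b h
  by_cases ha : a = 0
  · refine ⟨ha, ?_⟩
    by_contra hb
    apply vec_ne_zero hne r'
    funext i
    have := h i
    rw [ha] at this
    simp only [zero_mul, zero_add, mul_eq_zero] at this
    exact this.resolve_left hb
  · exfalso
    have hv : ∀ i, vec src tgt r i = (-b / a) * vec src tgt r' i := fun i => by
      have := h i
      field_simp
      linarith
    by_cases hb : b = 0
    · apply vec_ne_zero hne r
      funext i
      rw [hv i, hb]
      simp
    · exact hnp ⟨-b / a, div_ne_zero (neg_ne_zero.mpr hb) ha, hv⟩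

lemma ip_sj_eq (a : Fin d → ℝ) (j : PClass src tgt) (x : Fin d → ℝ) :
    ip (lg a x) (vec src tgt j.out) = ip (sj src tgt j) (lg a x) := by
  rw [ip_comm]
  rfl

/-- Only one parallelism class can be active when reaction pairs see large values. -/
lemma active_unique (a : Fin d → ℝ) {D B : ℝ} {x : Fin d → ℝ} (hD1 : 2 * B ≤ D) (hB0 : 0 < B)
    (hfar : ∀ r r', ¬ Par src tgt r r' →
      D < |ip (lg a x) (vec src tgt r)| ∨ D < |ip (lg a x) (vec src tgt r')|)
    {j₀ : PClass src tgt} (hj₀ : ip (sj src tgt j₀) (lg a x) ^ 2 < 2 * B ^ 2) :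
    (|ip (sj src tgt j₀) (lg a x)| ≤ 2 * B) ∧
    (∀ r : ι, (Quotient.mk (parSetoid src tgt) r) ≠ j₀ → D < |ip (lg a x) (vec src tgt r)|) ∧
    (∀ j, j ≠ j₀ → 2 * B ^ 2 ≤ ip (sj src tgt j) (lg a x) ^ 2) := by
  have hsmall : ∀ g : ℝ, g ^ 2 < 2 * B ^ 2 → |g| ≤ 2 * B := by
    intro g hg
    by_contra hn
    push_neg at hn
    have h1 := sq_abs g
    nlinarith [abs_nonneg g]
  have hg := hsmall _ hj₀
  have hfar2 : ∀ r : ι, (Quotient.mk (parSetoid src tgt) r) ≠ j₀ →
      D < |ip (lg a x) (vec src tgt r)| := by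
    intro r hr
    have hnp : ¬ Par src tgt r j₀.out := fun h => hr (by
      have h1 : Quotient.mk (parSetoid src tgt) r = Quotient.mk (parSetoid src tgt) j₀.out :=
        Quotient.sound h
      rw [h1]
      exact Quotient.out_eq j₀)
    rcases hfar r j₀.out hnp with h | h
    · exact h
    · exfalso
      rw [ip_sj_eq a] at h
      linarith
  refine ⟨hg, hfar2, ?_⟩
  intro j hj
  by_contra hcon
  push_neg at hcon
  have h1 := hfar2 j.out (by
    rw [show Quotient.mk (parSetoid src tgt) j.out = j from Quotient.out_eq j]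
    exact hj)
  rw [ip_sj_eq a] at h1
  have h2 := hsmall _ hcon
  linarith


/-- Sum over all reactions is at most the sum over a class, when each class has nonpositive sum. -/
lemma sum_le_class [Fintype ι] {src tgt : ι → Fin d → ℕ} (WR : WeaklyRev src tgt)
    (f : ι → ℝ) (h : ∀ r0, ∑ r ∈ classOf src tgt r0, f r ≤ 0) (r1 : ι) :
    ∑ r, f r ≤ ∑ r ∈ classOf src tgt r1, f r := by
  classical
  set g : ι → ℝ := fun r => if r ∈ classOf src tgt r1 then 0 else f r with hg
  have hsum : ∑ r, g r ≤ 0 := by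
    apply sum_nonpos_of_classes WR
    intro r0
    by_cases h0 : r0 ∈ classOf src tgt r1
    · apply le_of_eq
      apply Finset.sum_eq_zero
      intro r hr
      have h1 : Reach src tgt (src r1) (src r0) := mem_classOf.mp h0
      have h2 : Reach src tgt (src r0) (src r) := mem_classOf.mp hr
      have h3 : r ∈ classOf src tgt r1 := mem_classOf.mpr (h1.trans h2)
      simp [hg, h3]
    · have e : ∑ r ∈ classOf src tgt r0, g r = ∑ r ∈ classOf src tgt r0, f r := by
        apply Finset.sum_congr rfl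
        intro r hr
        have h3 : r ∉ classOf src tgt r1 := by
          intro h4
          apply h0
          have h1 : Reach src tgt (src r1) (src r) := mem_classOf.mp h4
          have h2 : Reach src tgt (src r0) (src r) := mem_classOf.mp hr
          exact mem_classOf.mpr (h1.trans (reach_symm WR h2))
        simp [hg, h3]
      rw [e]
      exact h r0
  have hsplit : ∑ r, f r = ∑ r, g r + ∑ r ∈ classOf src tgt r1, f r := by
    have h1 : ∑ r ∈ classOf src tgt r1, f r
        = ∑ r, if r ∈ classOf src tgt r1 then f r else 0 := by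
      rw [Finset.sum_ite_mem]
      simp
    rw [h1, ← Finset.sum_add_distrib]
    apply Finset.sum_congr rfl
    intro r _
    by_cases hr : r ∈ classOf src tgt r1 <;> simp [hg, hr]
  linarith

/-- The pointwise strict Lyapunov inequality. -/
theorem lyap_strict [Fintype ι] {src tgt : ι → Fin d → ℕ} [Fintype (PClass src tgt)]
    (a : Fin d → ℝ) (hne : ∀ r, src r ≠ tgt r)
    (WR : WeaklyRev src tgt) {ε : ℝ} (hε0 : 0 < ε) (hε1 : ε ≤ 1) (ρ : ι → ℝ)
    (hρ : ∀ r i, vec src tgt r i = ρ r * sj src tgt (Quotient.mk (parSetoid src tgt) r) i)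
    {ρmin : ℝ} (hρmin : ∀ r, ρmin ≤ |ρ r|) {B : ℝ} (hB0 : 0 < B)
    (hB : lev (Fintype.card ι) ε (1 / ε) 0 (Fintype.card ι) + 1 ≤ ρmin * B)
    {Y1 Y2 : ℝ} (hY1 : ∀ r, ∑ i, (src r i : ℝ) ≤ Y1) (hY2 : ∀ r, ∑ i, |vec src tgt r i| ≤ Y2)
    {D : ℝ} (hD1 : 2 * B ≤ D)
    (hD2 : 2 * B * Y2 ≤ D)
    (hD : lev (Fintype.card ι) (ε / Real.exp (2 * B * Y1)) (Real.exp (2 * B * Y1) / ε)
        (24 * B * Real.exp (2 * B) * Y2 + 1) (Fintype.card ι) + 1 + 2 * B * Y2 ≤ D)
    (hD3 : lev (Fintype.card ι) ε (1 / ε) 1 (Fintype.card ι) + 1 ≤ D)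
    {x : Fin d → ℝ} (hx : ∀ i, 0 < x i) {k : ι → ℝ} (hk : ∀ r, ε ≤ k r ∧ k r ≤ 1 / ε)
    (hfar : ∀ r r', ¬ Par src tgt r r' →
      D < |ip (lg a x) (vec src tgt r)| ∨ D < |ip (lg a x) (vec src tgt r')|)
    {r1 : ι} (hr1 : D < |ip (lg a x) (vec src tgt r1)|) :
    ip (grad a (sj src tgt) B x) (∑ r, rt a src k x r • vec src tgt r) ≤ -rt a src k x r1 := by
  classical
  rw [ip_sum_smul]
  have hsne : ∀ j : PClass src tgt, sj src tgt j ≠ 0 := fun j => vec_ne_zero hne _
  have hs1 : ∀ (j : PClass src tgt) i, sj src tgt j i = 0 ∨ 1 ≤ |sj src tgt j i| :=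
    fun j i => vec_int src tgt _ i
  have hrt0 : ∀ r, 0 ≤ rt a src k x r := fun r => by
    unfold rt
    have := lt_of_lt_of_le hε0 (hk r).1
    positivity
  have hmem1 : r1 ∈ classOf src tgt r1 := mem_classOf.mpr Relation.ReflTransGen.refl
  have hlast : -∑ r ∈ classOf src tgt r1, rt a src k x r ≤ -rt a src k x r1 := by
    have := Finset.single_le_sum (f := fun r => rt a src k x r) (s := classOf src tgt r1)
      (fun r _ => hrt0 r) hmem1
    linarith
  refine le_trans ?_ hlast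
  by_cases hact : ∃ j : PClass src tgt, ip (sj src tgt j) (lg a x) ^ 2 < 2 * B ^ 2
  · obtain ⟨j₀, hj₀⟩ := hact
    obtain ⟨hg, hfar2, hin⟩ := active_unique a hD1 hB0 hfar hj₀
    simp_rw [grad_eq_single a hB0 hin]
    have hclass : ∀ r0, ∑ r ∈ classOf src tgt r0,
        rt a src k x r * Aline a B (sj src tgt j₀) x (vec src tgt r) ≤ 0 := by
      intro r0
      by_cases hallpar : ∀ r ∈ classOf src tgt r0, Quotient.mk (parSetoid src tgt) r = j₀
      · apply parallel_class hne WR hε0 hε1 r0 (hsne j₀) hx hk hB0 ρ ρmin hρmin hB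
        intro r hr i
        rw [hρ r i, hallpar r hr]
      · push_neg at hallpar
        obtain ⟨r', hr', hne1⟩ := hallpar
        have h1 := nonparallel_class hne WR hε0 hε1 r0 (hsne j₀) (hs1 j₀) hx hk hB0 hY1 hY2 hD hg hr'
          (hfar2 r' hne1).le
        have h2 : 0 ≤ ∑ r ∈ classOf src tgt r0, rt a src k x r :=
          Finset.sum_nonneg fun r _ => hrt0 r
        linarith
    refine le_trans (sum_le_class WR _ hclass r1) ?_
    -- the reaction `r1` is not parallel to the active line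
    have hne1 : Quotient.mk (parSetoid src tgt) r1 ≠ j₀ := by
      intro he
      have hv : ∀ i, vec src tgt r1 i = ρ r1 * sj src tgt j₀ i := fun i => by
        rw [hρ r1 i, he]
      have hval := ip_smul_right (lg a x) (sj src tgt j₀) (ρ r1) hv
      -- bound for ρ r1
      have hρb : |ρ r1| ≤ Y2 := by
        obtain ⟨i₀, hi₀⟩ : ∃ i, sj src tgt j₀ i ≠ 0 := by
          by_contra hcon
          push_neg at hcon
          exact hsne j₀ (funext hcon)
        have h1 : 1 ≤ |sj src tgt j₀ i₀| := (hs1 j₀ i₀).resolve_left hi₀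
        have h2 : |vec src tgt r1 i₀| ≤ ∑ i, |vec src tgt r1 i| :=
          Finset.single_le_sum (f := fun i => |vec src tgt r1 i|) (fun i _ => abs_nonneg _)
            (Finset.mem_univ i₀)
        have h3 := hY2 r1
        rw [hv i₀, abs_mul] at h2
        nlinarith [abs_nonneg (ρ r1)]
      rw [hval, abs_mul, ip_comm (lg a x)] at hr1
      have hY20 : 0 ≤ Y2 := le_trans (abs_nonneg _) hρb
      have h4 : |ρ r1| * |ip (sj src tgt j₀) (lg a x)| ≤ Y2 * (2 * B) :=
        mul_le_mul hρb hg (abs_nonneg _) hY20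
      linarith
    exact nonparallel_class hne WR hε0 hε1 r1 (hsne j₀) (hs1 j₀) hx hk hB0 hY1 hY2 hD hg hmem1
      (hfar2 r1 hne1).le
  · push_neg at hact
    simp_rw [grad_eq_none a hB0 hact]
    have hnc : ∀ r0, ∑ r ∈ classOf src tgt r0, rt a src k x r * ip (lg a x) (vec src tgt r) ≤ 0 := by
      intro r0
      have hr0 : r0 ∈ classOf src tgt r0 := mem_classOf.mpr Relation.ReflTransGen.refl
      have hcl := net_class hne WR ε (1 / ε) 0 hε0 (eps_le_inv hε0 hε1) le_rfl r0 (lg a x) k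
        (fun r _ => hk r) ⟨r0, hr0, by
          rw [ip_smul_right _ _ _ (hρ r0), abs_mul, ip_comm (lg a x) _]
          have h1 := hρmin r0
          have hρ0 : 0 ≤ |ρ r0| := abs_nonneg _
          have h3 : B ≤ |ip (sj src tgt (Quotient.mk (parSetoid src tgt) r0)) (lg a x)| := by
            apply le_abs_of_sq hB0
            have h4 := hact (Quotient.mk (parSetoid src tgt) r0)
            have h5 : 0 < B ^ 2 := by positivity
            linarith
          have h2 : ρmin * B ≤ |ρ r0| * |ip (sj src tgt (Quotient.mk (parSetoid src tgt) r0)) (lg a x)| :=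
            mul_le_mul h1 h3 hB0.le hρ0
          linarith⟩
      simpa [rt] using hcl
    refine le_trans (sum_le_class WR _ hnc r1) ?_
    have hcl := net_class hne WR ε (1 / ε) 1 hε0 (eps_le_inv hε0 hε1) zero_le_one r1 (lg a x) k
      (fun r _ => hk r) ⟨r1, hmem1, by linarith⟩
    simpa [rt] using hcl

end par

lemma W_le_V (a : Fin d → ℝ) {J : Type} [Fintype J] {s : J → Fin d → ℝ} (hs : ∀ j, s j ≠ 0) (B : ℝ)
    {x : Fin d → ℝ} (hx : ∀ i, 0 < x i) : W a s B x ≤ V a x := by
  unfold W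
  have : 0 ≤ ∑ j, beta B (ip (s j) (lg a x)) * (V a x - Vt a (s j) x) :=
    Finset.sum_nonneg fun j _ => mul_nonneg beta_nonneg (sub_nonneg.mpr (E_nonneg a (hs j) hx))
  linarith

lemma W_single (a : Fin d → ℝ) {J : Type} [Fintype J] {s : J → Fin d → ℝ} {B : ℝ} (hB : 0 < B)
    {x : Fin d → ℝ} {j₀ : J} (hin : ∀ j, j ≠ j₀ → 2 * B ^ 2 ≤ ip (s j) (lg a x) ^ 2) :
    W a s B x = V a x - beta B (ip (s j₀) (lg a x)) * (V a x - Vt a (s j₀) x) := by
  unfold W
  congr 1
  apply Finset.sum_eq_single j₀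
  · intro j _ hj
    rw [beta_eq_zero hB (hin j hj)]
    ring
  · intro h
    exact absurd (Finset.mem_univ j₀) h

lemma W_none (a : Fin d → ℝ) {J : Type} [Fintype J] {s : J → Fin d → ℝ} {B : ℝ} (hB : 0 < B)
    {x : Fin d → ℝ} (hin : ∀ j, 2 * B ^ 2 ≤ ip (s j) (lg a x) ^ 2) : W a s B x = V a x := by
  unfold W
  rw [Finset.sum_eq_zero]
  · ring
  · intro j _
    rw [beta_eq_zero hB (hin j)]
    ring

/-- With rank at most two, a large pairing with one reaction forces a large pairing with one of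
any two non-parallel reactions. -/
lemma pair_reduction [Fintype ι] {src tgt : ι → Fin d → ℕ} (hne : ∀ r, src r ≠ tgt r)
    (hrank : Module.finrank ℝ (Submodule.span ℝ (Set.range (vec src tgt))) ≤ 2) :
    ∃ C₀ : ℝ, 1 ≤ C₀ ∧ ∀ r r' r1 : ι, ¬ Par src tgt r r' → ∀ (p : Fin d → ℝ) (D : ℝ), 0 ≤ D →
      C₀ * D < |ip p (vec src tgt r1)| →
      D < |ip p (vec src tgt r)| ∨ D < |ip p (vec src tgt r')| := by
  classical
  have hex : ∀ r r' r1 : ι, ∃ q : ℝ × ℝ, ¬ Par src tgt r r' →
      ∀ i, vec src tgt r1 i = q.1 * vec src tgt r i + q.2 * vec src tgt r' i := by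
    intro r r' r1
    by_cases hp : Par src tgt r r'
    · exact ⟨(0, 0), fun h => absurd hp h⟩
    · obtain ⟨α, β, h⟩ := mem_pair_of_rank_le hrank (par_ind hne hp)
        (Submodule.subset_span ⟨r1, rfl⟩)
      exact ⟨(α, β), fun _ => h⟩
  choose q hq using hex
  refine ⟨∑ r, ∑ r', ∑ r1, (|(q r r' r1).1| + |(q r r' r1).2|) + 1, ?_, ?_⟩
  · have : 0 ≤ ∑ r, ∑ r', ∑ r1, (|(q r r' r1).1| + |(q r r' r1).2|) :=
      Finset.sum_nonneg fun _ _ => Finset.sum_nonneg fun _ _ => Finset.sum_nonneg fun _ _ => by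
        positivity
    linarith
  · intro r r' r1 hp p D hD hbig
    by_contra hcon
    push_neg at hcon
    have e : ip p (vec src tgt r1) = (q r r' r1).1 * ip p (vec src tgt r)
        + (q r r' r1).2 * ip p (vec src tgt r') := by
      unfold ip
      rw [Finset.mul_sum, Finset.mul_sum, ← Finset.sum_add_distrib]
      apply Finset.sum_congr rfl
      intro i _
      rw [hq r r' r1 hp i]
      ring
    have hle : |(q r r' r1).1| + |(q r r' r1).2|
        ≤ ∑ r, ∑ r', ∑ r1, (|(q r r' r1).1| + |(q r r' r1).2|) := by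
      have h1 : |(q r r' r1).1| + |(q r r' r1).2| ≤ ∑ r1, (|(q r r' r1).1| + |(q r r' r1).2|) :=
        Finset.single_le_sum (f := fun r1 => |(q r r' r1).1| + |(q r r' r1).2|)
          (fun _ _ => by positivity) (Finset.mem_univ r1)
      have h2 : ∑ r1, (|(q r r' r1).1| + |(q r r' r1).2|)
          ≤ ∑ r', ∑ r1, (|(q r r' r1).1| + |(q r r' r1).2|) :=
        Finset.single_le_sum (f := fun r' => ∑ r1, (|(q r r' r1).1| + |(q r r' r1).2|))
          (fun _ _ => Finset.sum_nonneg fun _ _ => by positivity) (Finset.mem_univ r')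
      have h3 : ∑ r', ∑ r1, (|(q r r' r1).1| + |(q r r' r1).2|)
          ≤ ∑ r, ∑ r', ∑ r1, (|(q r r' r1).1| + |(q r r' r1).2|) :=
        Finset.single_le_sum (f := fun r => ∑ r', ∑ r1, (|(q r r' r1).1| + |(q r r' r1).2|))
          (fun _ _ => Finset.sum_nonneg fun _ _ => Finset.sum_nonneg fun _ _ => by positivity)
          (Finset.mem_univ r)
      linarith
    have h4 : |ip p (vec src tgt r1)| ≤ |(q r r' r1).1| * D + |(q r r' r1).2| * D := by
      rw [e]
      calc _ ≤ |(q r r' r1).1 * ip p (vec src tgt r)| + |(q r r' r1).2 * ip p (vec src tgt r')| :=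
            abs_add_le _ _
        _ = |(q r r' r1).1| * |ip p (vec src tgt r)| + |(q r r' r1).2| * |ip p (vec src tgt r')| := by
            rw [abs_mul, abs_mul]
        _ ≤ _ := add_le_add (mul_le_mul_of_nonneg_left hcon.1 (abs_nonneg _))
            (mul_le_mul_of_nonneg_left hcon.2 (abs_nonneg _))
    nlinarith

/-- The Lyapunov package. -/
theorem lyap_package [Fintype ι] (src tgt : ι → Fin d → ℕ) (hne : ∀ r, src r ≠ tgt r)
    (WR : WeaklyRev src tgt)
    (hrank : Module.finrank ℝ (Submodule.span ℝ (Set.range (vec src tgt))) ≤ 2)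
    (a : Fin d → ℝ) (ε : ℝ) (hε : 0 < ε) :
    ∃ (Wf : (Fin d → ℝ) → ℝ) (G : (Fin d → ℝ) → Fin d → ℝ) (B D : ℝ), 0 ≤ B ∧ 0 ≤ D ∧
      (∀ x : Fin d → ℝ, (∀ i, 0 < x i) → Wf x ≤ V a x) ∧
      (∀ (x : ℝ → Fin d → ℝ) (u : Fin d → ℝ) (Dm : Set ℝ) (t : ℝ),
        (∀ t' ∈ Dm, ∀ i, 0 < x t' i) → t ∈ Dm → HasDerivWithinAt x u Dm t →
        HasDerivWithinAt (fun t' => Wf (x t')) (ip (G (x t)) u) Dm t) ∧
      (∀ x : Fin d → ℝ, (∀ i, 0 < x i) → ∀ r1, D < |ip (lg a x) (vec src tgt r1)| →
        (∀ k : ι → ℝ, (∀ r, ε ≤ k r ∧ k r ≤ 1 / ε) →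
          ip (G x) (∑ r, (k r * ∏ i, x i ^ src r i) • vec src tgt r)
            ≤ -(k r1 * ∏ i, x i ^ src r1 i)) ∧
        ∃ z : Fin d → ℝ, (∀ i, 0 < z i) ∧
          z - x ∈ Submodule.span ℝ (Set.range (vec src tgt)) ∧
          (∀ i, |Real.log (z i) - Real.log (x i)| ≤ B) ∧ V a z ≤ Wf x) := by
  classical
  -- tilted rates
  set Ya := ∑ r, |ipN a (src r)| with hYa
  have hYa0 : 0 ≤ Ya := Finset.sum_nonneg fun _ _ => abs_nonneg _
  have hYab : ∀ r, |ipN a (src r)| ≤ Ya := fun r =>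
    Finset.single_le_sum (f := fun r => |ipN a (src r)|) (fun _ _ => abs_nonneg _)
      (Finset.mem_univ r)
  set ε' := min ε 1 * Real.exp (-Ya) with hε'
  have hε'0 : 0 < ε' := mul_pos (lt_min hε one_pos) (Real.exp_pos _)
  have hε'1 : ε' ≤ 1 := by
    have h1 : min ε 1 ≤ 1 := min_le_right _ _
    have h2 : Real.exp (-Ya) ≤ 1 := Real.exp_le_one_iff.mpr (by linarith)
    have h3 : 0 < min ε 1 := lt_min hε one_pos
    rw [hε']
    nlinarith [Real.exp_pos (-Ya)]
  -- the parallelism factors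
  have hρex : ∀ r, ∃ ρ : ℝ, ρ ≠ 0 ∧
      ∀ i, vec src tgt r i = ρ * sj src tgt (Quotient.mk (parSetoid src tgt) r) i := by
    intro r
    have h1 : Par src tgt r (Quotient.mk (parSetoid src tgt) r).out :=
      (parSetoid src tgt).symm (Quotient.mk_out (s := parSetoid src tgt) r)
    exact h1
  choose ρ hρ0 hρ using hρex
  set ρmin := (∑ r, 1 / |ρ r| + 1)⁻¹ with hρminDef
  have hsum0 : 0 < ∑ r, 1 / |ρ r| + 1 := by
    have : 0 ≤ ∑ r, 1 / |ρ r| := Finset.sum_nonneg fun r _ => by positivity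
    linarith
  have hρmin0 : 0 < ρmin := inv_pos.mpr hsum0
  have hρmin : ∀ r, ρmin ≤ |ρ r| := by
    intro r
    have hpos : 0 < |ρ r| := abs_pos.mpr (hρ0 r)
    have h1 : 1 / |ρ r| ≤ ∑ r, 1 / |ρ r| :=
      Finset.single_le_sum (f := fun r => 1 / |ρ r|) (fun r _ => by positivity) (Finset.mem_univ r)
    rw [hρminDef, inv_le_comm₀ hsum0 hpos]
    rw [← one_div]
    linarith
  -- constants
  set N := Fintype.card ι with hN
  set B := max 1 ((lev N ε' (1 / ε') 0 N + 1) / ρmin) with hBdef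
  have hB0 : 0 < B := lt_of_lt_of_le one_pos (le_max_left _ _)
  have hB : lev N ε' (1 / ε') 0 N + 1 ≤ ρmin * B := by
    have h1 : (lev N ε' (1 / ε') 0 N + 1) / ρmin ≤ B := le_max_right _ _
    rw [div_le_iff₀ hρmin0] at h1
    linarith
  set Y1 := ∑ r, ∑ i, (src r i : ℝ) with hY1def
  set Y2 := ∑ r, ∑ i, |vec src tgt r i| with hY2def
  have hY1 : ∀ r, ∑ i, (src r i : ℝ) ≤ Y1 := fun r =>
    Finset.single_le_sum (f := fun r => ∑ i, (src r i : ℝ))
      (fun r _ => Finset.sum_nonneg fun i _ => Nat.cast_nonneg _) (Finset.mem_univ r)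
  have hY2 : ∀ r, ∑ i, |vec src tgt r i| ≤ Y2 := fun r =>
    Finset.single_le_sum (f := fun r => ∑ i, |vec src tgt r i|)
      (fun r _ => Finset.sum_nonneg fun i _ => abs_nonneg _) (Finset.mem_univ r)
  set D₁ := max (max (2 * B) (2 * B * Y2))
      (max (lev N (ε' / Real.exp (2 * B * Y1)) (Real.exp (2 * B * Y1) / ε')
        (24 * B * Real.exp (2 * B) * Y2 + 1) N + 1 + 2 * B * Y2)
        (lev N ε' (1 / ε') 1 N + 1)) with hD₁def
  have hD1 : 2 * B ≤ D₁ := le_trans (le_max_left _ _) (le_max_left _ _)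
  have hD2 : 2 * B * Y2 ≤ D₁ := le_trans (le_max_right _ _) (le_max_left _ _)
  have hD3 : lev N (ε' / Real.exp (2 * B * Y1)) (Real.exp (2 * B * Y1) / ε')
        (24 * B * Real.exp (2 * B) * Y2 + 1) N + 1 + 2 * B * Y2 ≤ D₁ :=
    le_trans (le_max_left _ _) (le_max_right _ _)
  have hD4 : lev N ε' (1 / ε') 1 N + 1 ≤ D₁ := le_trans (le_max_right _ _) (le_max_right _ _)
  have hD₁0 : 0 ≤ D₁ := le_trans (by positivity) hD1
  obtain ⟨C₀, hC₀1, hC₀⟩ := pair_reduction hne hrank
  have hsne : ∀ j : PClass src tgt, sj src tgt j ≠ 0 := fun j => vec_ne_zero hne _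
  have hs1 : ∀ (j : PClass src tgt) i, sj src tgt j i = 0 ∨ 1 ≤ |sj src tgt j i| :=
    fun j i => vec_int src tgt _ i
  refine ⟨W a (sj src tgt) B, grad a (sj src tgt) B, 2 * B, C₀ * D₁, by positivity, by positivity,
    fun x hx => W_le_V a hsne B hx, ?_, ?_⟩
  · intro x u Dm t hxD ht hd
    exact hasDerivWithinAt_W a hsne B hxD ht hd
  · intro x hx r1 hbig
    have hD₁le : D₁ ≤ C₀ * D₁ := by nlinarith
    have hr1 : D₁ < |ip (lg a x) (vec src tgt r1)| := lt_of_le_of_lt hD₁le hbig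
    have hfar : ∀ r r', ¬ Par src tgt r r' →
        D₁ < |ip (lg a x) (vec src tgt r)| ∨ D₁ < |ip (lg a x) (vec src tgt r')| :=
      fun r r' hp => hC₀ r r' r1 hp _ _ hD₁0 hbig
    refine ⟨?_, ?_⟩
    · intro k hk
      -- the tilted rates
      let k' : ι → ℝ := fun r => k r * Real.exp (ipN a (src r))
      have hk' : ∀ r, ε' ≤ k' r ∧ k' r ≤ 1 / ε' := by
        intro r
        obtain ⟨h1, h2⟩ := hk r
        have hab := abs_le.mp (hYab r)
        have hk0 : 0 < k r := lt_of_lt_of_le hε h1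
        have h3 : Real.exp (-Ya) ≤ Real.exp (ipN a (src r)) := Real.exp_le_exp.mpr hab.1
        have h4 : Real.exp (ipN a (src r)) ≤ Real.exp Ya := Real.exp_le_exp.mpr hab.2
        have hm0 : 0 < min ε 1 := lt_min hε one_pos
        constructor
        · exact mul_le_mul (le_trans (min_le_left _ _) h1) h3 (Real.exp_pos _).le hk0.le
        · have e : 1 / ε' = 1 / min ε 1 * Real.exp Ya := by
            rw [hε', Real.exp_neg]
            field_simp
          rw [e]
          have h5 : k r ≤ 1 / min ε 1 :=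
            le_trans h2 (one_div_le_one_div_of_le hm0 (min_le_left _ _))
          exact mul_le_mul h5 h4 (Real.exp_pos _).le (by positivity)
      have hrt : ∀ r, rt a src k' x r = k r * ∏ i, x i ^ src r i := by
        intro r
        unfold rt
        simp only [k']
        rw [← exp_ipN a hx (src r)]
        ring
      have hmain := lyap_strict a hne WR hε'0 hε'1 ρ hρ hρmin hB0 hB hY1 hY2 hD1 hD2 hD3 hD4 hx hk'
        hfar hr1
      simpa only [hrt] using hmain
    · by_cases hact : ∃ j : PClass src tgt, ip (sj src tgt j) (lg a x) ^ 2 < 2 * B ^ 2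
      · obtain ⟨j₀, hj₀⟩ := hact
        obtain ⟨hg, _, hin⟩ := active_unique a hD1 hB0 hfar hj₀
        obtain ⟨hz, _⟩ := zF_spec a (hsne j₀) hx
        refine ⟨zF a (sj src tgt j₀) x, hz, ?_, ?_, ?_⟩
        · have e : zF a (sj src tgt j₀) x - x = tauF a (sj src tgt j₀) x • vec src tgt j₀.out := by
            funext i
            simp [zF, sj]
          rw [e]
          exact Submodule.smul_mem _ _ (Submodule.subset_span ⟨_, rfl⟩)
        · intro i
          exact le_trans (abs_ell_le a (hsne j₀) hx (hs1 j₀) i) hg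
        · rw [W_single a hB0 hin]
          have hE := E_nonneg a (hsne j₀) hx
          have hβ1 : beta B (ip (sj src tgt j₀) (lg a x)) ≤ 1 := beta_le_one
          have hβ0 : 0 ≤ beta B (ip (sj src tgt j₀) (lg a x)) := beta_nonneg
          have : V a (zF a (sj src tgt j₀) x) = Vt a (sj src tgt j₀) x := rfl
          rw [this]
          nlinarith
      · push_neg at hact
        refine ⟨x, hx, by simp, fun i => by simp; positivity, ?_⟩
        rw [W_none a hB0 hact]

end

end Vale.Agent.P072.Tilt
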