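import Vale.Agent.P072.Network

/-!
The two-level estimate on a class: if the reactions with nonzero weight have a large increment in
the direction of their weight, and the others a bounded one, the weighted flux is negative.
-/

namespace Vale.Agent.P072.Tilt

open Vale.Agent.P072
open Finset

noncomputable section

/-- The two-level estimate. -/
theorem two_level {κ : Type*} [DecidableEq κ] (C : Finset κ) (A Bf k w : κ → ℝ) (N : ℕ)
    (kl ku Y B₁ B₂ : ℝ) (hkl : 0 < kl) (hku : kl ≤ ku) (hY : 1 ≤ Y) (hB₁ : 0 ≤ B₁)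
    (hN : C.card ≤ N) (hk : ∀ r ∈ C, kl ≤ k r ∧ k r ≤ ku)
    (hT : ∀ r ∈ C, ∃ ρ ∈ C, A ρ = Bf r)
    (hexit : ∀ θ : ℝ, ∀ r ∈ C, ∀ r' ∈ C, θ ≤ A r → A r' < θ → ∃ r'' ∈ C, θ ≤ A r'' ∧ Bf r'' < θ)
    (h0 : ∀ r ∈ C, w r = 0 → |Bf r - A r| ≤ B₁)
    (h1 : ∀ r ∈ C, w r ≠ 0 → 1 ≤ |w r| ∧ |w r| ≤ Y ∧ B₂ ≤ |Bf r - A r| ∧ 0 < w r * (Bf r - A r))
    (hgap : (N : ℝ) * (B₁ + 1) + Real.log (2 * N * ku * Y / kl) ≤ B₂)
    {r₁ : κ} (hr₁ : r₁ ∈ C) (hw₁ : w r₁ ≠ 0) :
    ∑ r ∈ C, k r * Real.exp (A r) * w r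
      ≤ -(kl / 2 * Real.exp (-((N : ℝ) * (B₁ + 1))) * Real.exp (A r₁)) := by
  classical
  have hne : C.Nonempty := ⟨r₁, hr₁⟩
  have hN1 : 1 ≤ N := le_trans (Finset.card_pos.mpr hne) hN
  have hN1' : (1 : ℝ) ≤ N := by exact_mod_cast hN1
  have hku0 : 0 < ku := lt_of_lt_of_le hkl hku
  have hY0 : 0 < Y := by linarith
  obtain ⟨rM, hrM, hM⟩ := C.exists_max_image A hne
  set M := A rM with hMdef
  have hBM : ∀ r ∈ C, Bf r ≤ M := fun r hr => by
    obtain ⟨ρ, hρ, e⟩ := hT r hr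
    rw [← e]; exact hM ρ hρ
  set H := B₁ + 1 with hH
  have hH0 : 0 < H := by rw [hH]; linarith
  -- the logarithm is positive
  have harg : 2 ≤ 2 * N * ku * Y / kl := by
    rw [le_div_iff₀ hkl]
    have h1 : kl ≤ ku * Y := by nlinarith
    have h2 : ku * Y ≤ N * (ku * Y) := by
      have : 0 < ku * Y := by positivity
      nlinarith
    nlinarith
  have hlog0 : 0 < Real.log (2 * N * ku * Y / kl) :=
    Real.log_pos (by linarith)
  have hB₂ : (N : ℝ) * H < B₂ := by
    rw [hH] at *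
    linarith
  let U : ℕ → Finset κ := fun m => C.filter (fun r => M - (m : ℝ) * H ≤ A r)
  have hpig : ∃ m < N, U m = U (m + 1) := by
    by_contra hcon
    push_neg at hcon
    have hc : ∀ m, m ≤ N → m + 1 ≤ (U m).card := by
      intro m
      induction m with
      | zero =>
        intro _
        have : rM ∈ U 0 := by
          simp only [U, Finset.mem_filter]
          exact ⟨hrM, by simp [hMdef]⟩
        exact Finset.card_pos.mpr ⟨rM, this⟩
      | succ m ih =>
        intro hm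
        have hsub : U m ⊆ U (m + 1) := by
          intro r hr
          simp only [U, Finset.mem_filter] at hr ⊢
          refine ⟨hr.1, ?_⟩
          push_cast
          nlinarith [hr.2]
        have hss : U m ⊂ U (m + 1) :=
          Finset.ssubset_iff_subset_ne.mpr ⟨hsub, hcon m (by omega)⟩
        have := Finset.card_lt_card hss
        have := ih (by omega)
        omega
    have h2 := hc N le_rfl
    have h3 : (U N).card ≤ C.card := Finset.card_filter_le _ _
    omega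
  obtain ⟨m, hmN, hm⟩ := hpig
  have hmN' : (m : ℝ) ≤ N := by exact_mod_cast hmN.le
  have hmH : (m : ℝ) * H ≤ (N : ℝ) * H := mul_le_mul_of_nonneg_right hmN' hH0.le
  have hmH0 : 0 ≤ (m : ℝ) * H := by positivity
  have hUne : ∃ r' ∈ C, A r' < M - (m : ℝ) * H := by
    by_contra hcon
    push_neg at hcon
    have h5 : |Bf r₁ - A r₁| ≤ (m : ℝ) * H := by
      have h1' := hcon r₁ hr₁
      obtain ⟨ρ, hρ, e⟩ := hT r₁ hr₁
      have h2 := hcon ρ hρ
      rw [e] at h2
      have h3 := hBM r₁ hr₁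
      have h4 := hM r₁ hr₁
      rw [abs_le]
      constructor <;> linarith
    have h6 := (h1 r₁ hr₁ hw₁).2.2.1
    linarith
  obtain ⟨r', hr', hr'lt⟩ := hUne
  obtain ⟨R0, hR0, hR0a, hR0b⟩ :=
    hexit (M - (m : ℝ) * H) rM hrM r' hr' (by linarith) hr'lt
  have hgapR : Bf R0 - A R0 < -H := by
    obtain ⟨ρ, hρ, e⟩ := hT R0 hR0
    have hρU : ρ ∉ U m := by
      simp only [U, Finset.mem_filter, not_and, not_le]
      intro _
      rw [e]
      exact hR0b
    rw [hm] at hρU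
    simp only [U, Finset.mem_filter, not_and, not_le] at hρU
    have h2 := hρU hρ
    rw [e] at h2
    push_cast at h2
    nlinarith
  have hwR : w R0 ≠ 0 := by
    intro h
    have h2 := h0 R0 hR0 h
    have h3 := (abs_le.mp h2).1
    rw [hH] at hgapR
    linarith
  obtain ⟨hw1, _, _, hwpos⟩ := h1 R0 hR0 hwR
  have hwneg : w R0 ≤ -1 := by
    have hlt : w R0 < 0 := by
      by_contra hn
      push_neg at hn
      have : w R0 * (Bf R0 - A R0) ≤ 0 :=
        mul_nonpos_of_nonneg_of_nonpos hn (by linarith)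
      linarith
    rw [abs_of_neg hlt] at hw1
    linarith
  -- the top term
  have hkR := hk R0 hR0
  have hkR0 : 0 < k R0 := lt_of_lt_of_le hkl hkR.1
  have htop : k R0 * Real.exp (A R0) * w R0 ≤ -(kl * Real.exp (M - (N : ℝ) * H)) := by
    have h1' : Real.exp (M - (N : ℝ) * H) ≤ Real.exp (A R0) :=
      Real.exp_le_exp.mpr (by linarith)
    have h2 : kl * Real.exp (M - (N : ℝ) * H) ≤ k R0 * Real.exp (A R0) :=
      mul_le_mul hkR.1 h1' (Real.exp_pos _).le hkR0.le
    have h3 : 0 < k R0 * Real.exp (A R0) := by positivity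
    nlinarith
  -- the other terms
  set Q := ku * Y * Real.exp (M - B₂) with hQ
  have hQ0 : 0 ≤ Q := by positivity
  have hother : ∀ r ∈ C, k r * Real.exp (A r) * w r ≤ Q := by
    intro r hr
    have hkr := hk r hr
    have hkr0 : 0 < k r := lt_of_lt_of_le hkl hkr.1
    by_cases hw : w r ≤ 0
    · have : k r * Real.exp (A r) * w r ≤ 0 :=
        mul_nonpos_of_nonneg_of_nonpos (by positivity) hw
      linarith
    push_neg at hw
    obtain ⟨_, hwY, hbig, hpos⟩ := h1 r hr hw.ne'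
    have hdiff : 0 < Bf r - A r := by
      by_contra hn
      push_neg at hn
      have : w r * (Bf r - A r) ≤ 0 := mul_nonpos_of_nonneg_of_nonpos hw.le hn
      linarith
    rw [abs_of_pos hdiff] at hbig
    have hA : A r ≤ M - B₂ := by linarith [hBM r hr]
    rw [abs_of_pos hw] at hwY
    have h1' : Real.exp (A r) ≤ Real.exp (M - B₂) := Real.exp_le_exp.mpr hA
    have h2 : k r * Real.exp (A r) ≤ ku * Real.exp (M - B₂) :=
      mul_le_mul hkr.2 h1' (Real.exp_pos _).le hku0.le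
    calc k r * Real.exp (A r) * w r ≤ ku * Real.exp (M - B₂) * Y :=
          mul_le_mul h2 hwY hw.le (by positivity)
      _ = Q := by rw [hQ]; ring
  -- comparing the sizes
  have hsize : (N : ℝ) * Q ≤ kl / 2 * Real.exp (M - (N : ℝ) * H) := by
    have hpos : 0 < 2 * N * ku * Y / kl := by linarith
    have h3 : Real.exp (Real.log (2 * N * ku * Y / kl)) = 2 * N * ku * Y / kl := Real.exp_log hpos
    have h4 : Real.exp (M - B₂) * Real.exp (Real.log (2 * N * ku * Y / kl))
        ≤ Real.exp (M - (N : ℝ) * H) := by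
      rw [← Real.exp_add]
      apply Real.exp_le_exp.mpr
      rw [hH]
      linarith
    rw [h3] at h4
    rw [hQ]
    have h5 : Real.exp (M - B₂) * (2 * N * ku * Y / kl) * (kl / 2)
        = (N : ℝ) * (ku * Y * Real.exp (M - B₂)) := by
      field_simp
    rw [← h5]
    have hkl2 : 0 ≤ kl / 2 := by positivity
    calc _ ≤ Real.exp (M - (N : ℝ) * H) * (kl / 2) := mul_le_mul_of_nonneg_right h4 hkl2
      _ = _ := by ring
  have hsum : ∑ r ∈ C, k r * Real.exp (A r) * w r
      ≤ -(kl * Real.exp (M - (N : ℝ) * H)) + (N : ℝ) * Q := by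
    rw [← Finset.add_sum_erase C _ hR0]
    have h1' : ∑ r ∈ C.erase R0, k r * Real.exp (A r) * w r ≤ ((C.card - 1 : ℕ) : ℝ) * Q := by
      have := Finset.sum_le_card_nsmul (C.erase R0) (fun r => k r * Real.exp (A r) * w r) Q
        (fun r hr => hother r (Finset.mem_of_mem_erase hr))
      rw [Finset.card_erase_of_mem hR0, nsmul_eq_mul] at this
      exact this
    have h2 : ((C.card - 1 : ℕ) : ℝ) ≤ N := by
      have : C.card - 1 ≤ N := by omega
      exact_mod_cast this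
    have h3 : ((C.card - 1 : ℕ) : ℝ) * Q ≤ (N : ℝ) * Q := mul_le_mul_of_nonneg_right h2 hQ0
    linarith
  have hfinal : kl / 2 * Real.exp (-((N : ℝ) * (B₁ + 1))) * Real.exp (A r₁)
      ≤ kl / 2 * Real.exp (M - (N : ℝ) * H) := by
    rw [mul_assoc, ← Real.exp_add]
    apply mul_le_mul_of_nonneg_left _ (by positivity)
    apply Real.exp_le_exp.mpr
    have := hM r₁ hr₁
    rw [hH]
    linarith
  have hE : 0 < Real.exp (M - (N : ℝ) * H) := Real.exp_pos _
  nlinarith

variable {d : ℕ} {ι : Type}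

/-- The two-level estimate in network form. -/
theorem net_two_level [Fintype ι] {src tgt : ι → Fin d → ℕ} (hne : ∀ r, src r ≠ tgt r)
    (WR : WeaklyRev src tgt) (kl ku Y B₁ B₂ : ℝ) (hkl : 0 < kl) (hku : kl ≤ ku) (hY : 1 ≤ Y)
    (hB₁ : 0 ≤ B₁)
    (hgap : (Fintype.card ι : ℝ) * (B₁ + 1) + Real.log (2 * (Fintype.card ι) * ku * Y / kl) ≤ B₂)
    (r0 : ι) (p : Fin d → ℝ) (k w : ι → ℝ) (hk : ∀ r ∈ classOf src tgt r0, kl ≤ k r ∧ k r ≤ ku)
    (h0 : ∀ r ∈ classOf src tgt r0, w r = 0 → |ip p (vec src tgt r)| ≤ B₁)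
    (h1 : ∀ r ∈ classOf src tgt r0, w r ≠ 0 → 1 ≤ |w r| ∧ |w r| ≤ Y ∧
      B₂ ≤ |ip p (vec src tgt r)| ∧ 0 < w r * ip p (vec src tgt r))
    {r₁ : ι} (hr₁ : r₁ ∈ classOf src tgt r0) (hw₁ : w r₁ ≠ 0) :
    ∑ r ∈ classOf src tgt r0, k r * Real.exp (ipN p (src r)) * w r
      ≤ -(kl / 2 * Real.exp (-((Fintype.card ι : ℝ) * (B₁ + 1))) * Real.exp (ipN p (src r₁))) := by
  classical
  apply two_level (classOf src tgt r0) (fun r => ipN p (src r)) (fun r => ipN p (tgt r)) k w
    (Fintype.card ι) kl ku Y B₁ B₂ hkl hku hY hB₁ (Finset.card_le_univ _) hk ?_ ?_ ?_ ?_ hgap hr₁ hw₁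
  · intro r hr
    obtain ⟨ρ, hρ⟩ := target_is_source hne WR r
    refine ⟨ρ, ?_, by simp only [hρ]⟩
    rw [mem_classOf] at hr ⊢
    rw [hρ]
    exact hr.tail ⟨r, rfl, rfl⟩
  · intro θ r hr r' hr' h1 h2
    rw [mem_classOf] at hr hr'
    have hrr' : Reach src tgt (src r) (src r') := (reach_symm WR hr).trans hr'
    obtain ⟨r'', h3, h4, h5⟩ := exit_of_reach (fun y => ipN p y) θ hrr' h1 h2
    refine ⟨r'', ?_, h4, h5⟩
    rw [mem_classOf]
    exact hr.trans h3
  · intro r hr hw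
    simpa only [ipN_vec] using h0 r hr hw
  · intro r hr hw
    simpa only [ipN_vec] using h1 r hr hw

end

end Vale.Agent.P072.Tilt
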