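import Vale.Agent.P072T.Compact
import Vale.Agent.P072T.TwoLevel

/-!
Comparison lemmas along trajectories, the far-region package and the upper bound.
-/

namespace Vale.Agent.P072.Tilt

open Vale.Agent.P072
open Finset Set

noncomputable section

variable {d : ℕ} {ι : Type}

/-- A function with nonpositive derivative above the level `L` stays below `L`. -/
lemma comparison {f f' : ℝ → ℝ} {s T L : ℝ}
    (h : ∀ t ∈ Ico s T, HasDerivWithinAt f (f' t) (Ico s T) t) (h0 : f s ≤ L)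
    (hd : ∀ t ∈ Ico s T, L < f t → f' t ≤ 0) : ∀ t ∈ Ico s T, f t ≤ L := by
  intro t1 ht1
  by_contra hcon
  push_neg at hcon
  have hIcc : Icc s t1 ⊆ Ico s T := fun t ht => ⟨ht.1, lt_of_le_of_lt ht.2 ht1.2⟩
  have hc : ContinuousOn f (Icc s t1) := fun t ht =>
    ((h t (hIcc ht)).continuousWithinAt).mono hIcc
  have hclosed : IsClosed (Icc s t1 ∩ f ⁻¹' Iic L) :=
    hc.preimage_isClosed_of_isClosed isClosed_Icc isClosed_Iic
  have hAcpt : IsCompact (Icc s t1 ∩ f ⁻¹' Iic L) :=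
    isCompact_Icc.of_isClosed_subset hclosed inter_subset_left
  have hAne : (Icc s t1 ∩ f ⁻¹' Iic L).Nonempty := ⟨s, ⟨⟨le_rfl, ht1.1⟩, h0⟩⟩
  set t0 := sSup (Icc s t1 ∩ f ⁻¹' Iic L) with ht0def
  have ht0 := hAcpt.sSup_mem hAne
  rw [← ht0def] at ht0
  have ht0le : t0 ≤ t1 := ht0.1.2
  have hft0 : f t0 ≤ L := ht0.2
  have ht0lt : t0 < t1 := lt_of_le_of_ne ht0le (fun e => by
    rw [e] at hft0
    linarith)
  have hgt : ∀ t ∈ Ioc t0 t1, L < f t := by
    intro t ht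
    by_contra hn
    push_neg at hn
    have hmem : t ∈ Icc s t1 ∩ f ⁻¹' Iic L := ⟨⟨le_trans ht0.1.1 ht.1.le, ht.2⟩, hn⟩
    have := le_csSup hAcpt.bddAbove hmem
    rw [← ht0def] at this
    linarith [ht.1]
  have hsub : Icc t0 t1 ⊆ Icc s t1 := fun t ht => ⟨le_trans ht0.1.1 ht.1, ht.2⟩
  have hder : ∀ t ∈ Ioo t0 t1, HasDerivAt f (f' t) t := by
    intro t ht
    have hmem : t ∈ Ico s T := hIcc ⟨le_trans ht0.1.1 ht.1.le, ht.2.le⟩
    exact (h t hmem).hasDerivAt (Ico_mem_nhds (lt_of_le_of_lt ht0.1.1 ht.1) hmem.2)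
  have hanti : AntitoneOn f (Icc t0 t1) := by
    apply antitoneOn_of_deriv_nonpos (convex_Icc _ _) (hc.mono hsub)
    · intro t ht
      rw [interior_Icc] at ht
      exact (hder t ht).differentiableAt.differentiableWithinAt
    · intro t ht
      rw [interior_Icc] at ht
      rw [(hder t ht).deriv]
      have hmem : t ∈ Ico s T := hIcc ⟨le_trans ht0.1.1 ht.1.le, ht.2.le⟩
      exact hd t hmem (hgt t ⟨ht.1, ht.2.le⟩)
  have := hanti (left_mem_Icc.mpr ht0le) (right_mem_Icc.mpr ht0le) ht0le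
  linarith

/-- The function stays below the maximum of the level and its initial value. -/
lemma stage_bound {f f' : ℝ → ℝ} {s T L : ℝ}
    (h : ∀ t ∈ Ico s T, HasDerivWithinAt f (f' t) (Ico s T) t)
    (hd : ∀ t ∈ Ico s T, L < f t → f' t ≤ 0) : ∀ t ∈ Ico s T, f t ≤ max L (f s) :=
  comparison h (le_max_right _ _) fun t ht hL => hd t ht (lt_of_le_of_lt (le_max_left _ _) hL)

/-- A function with derivative at most `-c` above the level `L` eventually stays below `L`. -/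
lemma stage_eventually {f f' : ℝ → ℝ} {s L c : ℝ} (hc : 0 < c)
    (h : ∀ t ∈ Ici s, HasDerivWithinAt f (f' t) (Ici s) t)
    (hd : ∀ t ∈ Ici s, L < f t → f' t ≤ -c) : ∃ T₀, s ≤ T₀ ∧ ∀ t, T₀ ≤ t → f t ≤ L := by
  have hex : ∃ t₁, s ≤ t₁ ∧ f t₁ ≤ L := by
    by_contra hcon
    push_neg at hcon
    set t := s + (f s - L) / c + 1 with ht
    have hfs := hcon s le_rfl
    have hquot : 0 ≤ (f s - L) / c := div_nonneg (by linarith) hc.le
    have hts : s < t := by rw [ht]; linarith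
    have hg : ∀ τ ∈ Ico s (t + 1), HasDerivWithinAt (fun y => f y + c * y) (f' τ + c * 1)
        (Ico s (t + 1)) τ := by
      intro τ hτ
      have h1 := (h τ hτ.1).mono (fun y (hy : y ∈ Ico s (t + 1)) => show y ∈ Ici s from hy.1)
      exact h1.add (((hasDerivAt_id' τ).const_mul c).hasDerivWithinAt)
    have hcmp : f t + c * t ≤ f s + c * s := comparison (L := f s + c * s) hg le_rfl
      (fun τ hτ _ => by
        have := hd τ hτ.1 (hcon τ hτ.1)
        linarith) t ⟨hts.le, by linarith⟩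
    have hft := hcon t hts.le
    have e : c * t = c * s + (f s - L) + c := by
      rw [ht]
      field_simp
    nlinarith
  obtain ⟨t₁, ht₁, hf⟩ := hex
  refine ⟨t₁, ht₁, fun t ht => ?_⟩
  have hcmp := comparison (s := t₁) (T := t + 1) (L := L) (f := f) (f' := f')
    (fun τ hτ => (h τ (le_trans ht₁ hτ.1)).mono
      (fun y (hy : y ∈ Ico t₁ (t + 1)) => show y ∈ Ici s from le_trans ht₁ hy.1)) hf
    (fun τ hτ hL => by
      have := hd τ (le_trans ht₁ hτ.1) hL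
      linarith)
  exact hcmp t ⟨ht, by linarith⟩

/-- The monomial of a reaction source. -/
def mon (src : ι → Fin d → ℕ) (x : Fin d → ℝ) (r : ι) : ℝ := ∏ i, x i ^ src r i

/-- The mass-action vector field with frozen rates. -/
def flux [Fintype ι] (src tgt : ι → Fin d → ℕ) (k : ι → ℝ) (x : Fin d → ℝ) : Fin d → ℝ :=
  ∑ r, (k r * mon src x r) • vec src tgt r

/-- The stoichiometric subspace. -/
abbrev Sp (src tgt : ι → Fin d → ℕ) : Submodule ℝ (Fin d → ℝ) :=
  Submodule.span ℝ (Set.range (vec src tgt))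

/-- A positive solution on a set of times. -/
def Sol [Fintype ι] (src tgt : ι → Fin d → ℕ) (k : ι → ℝ → ℝ) (x : ℝ → Fin d → ℝ) (Dm : Set ℝ) :
    Prop :=
  ∀ t ∈ Dm, (∀ i, 0 < x t i) ∧ HasDerivWithinAt x (flux src tgt (fun r => k r t) (x t)) Dm t

lemma Sol.mono [Fintype ι] {src tgt : ι → Fin d → ℕ} {k : ι → ℝ → ℝ} {x : ℝ → Fin d → ℝ}
    {Dm Dm' : Set ℝ} (h : Sol src tgt k x Dm) (hsub : Dm' ⊆ Dm) : Sol src tgt k x Dm' :=
  fun t ht => ⟨(h t (hsub ht)).1, (h t (hsub ht)).2.mono hsub⟩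

lemma flux_mem [Fintype ι] (src tgt : ι → Fin d → ℕ) (k : ι → ℝ) (x : Fin d → ℝ) :
    flux src tgt k x ∈ Sp src tgt :=
  Submodule.sum_mem _ fun r _ => Submodule.smul_mem _ _ (Submodule.subset_span ⟨r, rfl⟩)

/-- The coordinates stay in the stoichiometric class. -/
lemma mem_S_of_deriv {S : Submodule ℝ (Fin d → ℝ)} {x : ℝ → Fin d → ℝ} {u : ℝ → Fin d → ℝ}
    {s T : ℝ} (hd : ∀ t ∈ Ico s T, HasDerivWithinAt x (u t) (Ico s T) t)
    (hu : ∀ t ∈ Ico s T, u t ∈ S) {t : ℝ} (ht : t ∈ Ico s T) : x t - x s ∈ S := by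
  by_contra hn
  obtain ⟨f, hf1, hf2⟩ := Submodule.exists_dual_map_eq_bot_of_notMem hn inferInstance
  let L : (Fin d → ℝ) →L[ℝ] ℝ := LinearMap.toContinuousLinearMap f
  have hLf : ∀ w, L w = f w := fun w => rfl
  have hzero : ∀ w ∈ S, f w = 0 := by
    intro w hw
    have : f w ∈ S.map f := Submodule.mem_map_of_mem hw
    rw [hf2] at this
    simpa using this
  have hφ : ∀ t ∈ Ico s T, HasDerivWithinAt (fun t' => f (x t')) 0 (Ico s T) t := by
    intro t ht
    have h1 := L.hasFDerivAt.comp_hasDerivWithinAt t (hd t ht)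
    have h2 : L (u t) = 0 := by
      rw [hLf]
      exact hzero _ (hu t ht)
    rw [h2] at h1
    exact h1
  have h1 := comparison (f := fun t' => f (x t')) (f' := fun _ => 0) (s := s) (T := T)
    (L := f (x s)) hφ le_rfl (fun _ _ _ => le_rfl) t ht
  have h2 := comparison (f := fun t' => -f (x t')) (f' := fun _ => -0) (s := s) (T := T)
    (L := -f (x s)) (fun t ht => (hφ t ht).neg) le_rfl (fun _ _ _ => by simp) t ht
  apply hf1
  rw [map_sub]
  have h1' : f (x t) ≤ f (x s) := h1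
  have h2' : -f (x t) ≤ -f (x s) := h2
  linarith

/-- A solution stays in its stoichiometric class. -/
lemma Sol.mem_class [Fintype ι] {src tgt : ι → Fin d → ℕ} {k : ι → ℝ → ℝ} {x : ℝ → Fin d → ℝ}
    {s T : ℝ} {c : Fin d → ℝ} (h : Sol src tgt k x (Ico s T)) (h0 : x s - c ∈ Sp src tgt) {t : ℝ}
    (ht : t ∈ Ico s T) : x t - c ∈ Sp src tgt := by
  have h1 := mem_S_of_deriv (S := Sp src tgt) (fun t ht => (h t ht).2)
    (fun t _ => flux_mem src tgt _ _) ht
  have h2 := Submodule.add_mem _ h1 h0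
  have e : x t - x s + (x s - c) = x t - c := by abel
  rwa [e] at h2

/-- The far-region package. -/
theorem far_package [Fintype ι] (src tgt : ι → Fin d → ℕ) (hne : ∀ r, src r ≠ tgt r)
    (WR : WeaklyRev src tgt) (hrank : Module.finrank ℝ (Sp src tgt) ≤ 2) {c : Fin d → ℝ}
    (hc : ∀ i, 0 < c i) (a : Fin d → ℝ) (ε : ℝ) (hε : 0 < ε) :
    ∃ (Wf : (Fin d → ℝ) → ℝ) (G : (Fin d → ℝ) → Fin d → ℝ) (B δ R : ℝ), 0 ≤ B ∧ 0 < δ ∧
      (∀ x : Fin d → ℝ, (∀ i, 0 < x i) → Wf x ≤ V a x) ∧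
      (∀ (x : ℝ → Fin d → ℝ) (u : Fin d → ℝ) (Dm : Set ℝ) (t : ℝ),
        (∀ t' ∈ Dm, ∀ i, 0 < x t' i) → t ∈ Dm → HasDerivWithinAt x u Dm t →
        HasDerivWithinAt (fun t' => Wf (x t')) (ip (G (x t)) u) Dm t) ∧
      (∀ x : Fin d → ℝ, (∀ i, 0 < x i) → x - c ∈ Sp src tgt → (∃ i, x i < δ ∨ R < x i) →
        ∃ r1 : ι, (∀ k : ι → ℝ, (∀ r, ε ≤ k r ∧ k r ≤ 1 / ε) →
          ip (G x) (flux src tgt k x) ≤ -(k r1 * mon src x r1)) ∧
        ∃ z : Fin d → ℝ, (∀ i, 0 < z i) ∧ z - x ∈ Sp src tgt ∧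
          (∀ i, |Real.log (z i) - Real.log (x i)| ≤ B) ∧ V a z ≤ Wf x) := by
  obtain ⟨Wf, G, B, D, hB, hD, h1, h2, h3⟩ := lyap_package src tgt hne WR hrank a ε hε
  obtain ⟨δ, R, hδ, hbox⟩ := compact_of_pairings (vec src tgt) hc a D hD
  refine ⟨Wf, G, B, δ, R, hB, hδ, h1, h2, ?_⟩
  intro x hx hS hfar
  have hex : ∃ r1, D < |ip (lg a x) (vec src tgt r1)| := by
    by_contra hcon
    push_neg at hcon
    obtain ⟨i, hi⟩ := hfar
    have := hbox x hx hS hcon i
    rcases hi with hi | hi <;> linarith [this.1, this.2]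
  obtain ⟨r1, hr1⟩ := hex
  obtain ⟨h4, h5⟩ := h3 x hx r1 hr1
  exact ⟨r1, h4, h5⟩

lemma ent_zero (t : ℝ) : ent 0 t = t * Real.log t - t := by simp [ent]

lemma ent_ge {t : ℝ} (ht : 0 < t) : -1 ≤ ent 0 t := by
  have h := ent_gibbs 0 ht one_pos
  simp [ent] at h
  simpa [ent] using h

/-- A bound on the entropy bounds the coordinates. -/
lemma coord_le_of_V_le {w : Fin d → ℝ} (hw : ∀ i, 0 < w i) {L : ℝ} (hL : V 0 w ≤ L) (i : Fin d) :
    w i ≤ max (Real.exp 2) (L + d) := by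
  by_cases h : w i ≤ Real.exp 2
  · exact le_max_of_le_left h
  push_neg at h
  apply le_max_of_le_right
  have h1 : 2 ≤ Real.log (w i) := by
    rw [Real.le_log_iff_exp_le (hw i)]
    exact h.le
  have h2 : w i ≤ ent 0 (w i) := by
    rw [ent_zero]
    nlinarith [hw i]
  have h3 : ent 0 (w i) - d ≤ V 0 w := by
    unfold V
    rw [← Finset.add_sum_erase _ _ (Finset.mem_univ i)]
    have h4 : -(d : ℝ) ≤ ∑ j ∈ Finset.univ.erase i, ent ((0 : Fin d → ℝ) j) (w j) := by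
      have h5 : ∑ j ∈ Finset.univ.erase i, (-1 : ℝ)
          ≤ ∑ j ∈ Finset.univ.erase i, ent ((0 : Fin d → ℝ) j) (w j) :=
        Finset.sum_le_sum fun j _ => ent_ge (hw j)
      have h6 : ∑ j ∈ Finset.univ.erase i, (-1 : ℝ) = -((Finset.univ.erase i).card : ℝ) := by
        simp
      have h7 : ((Finset.univ.erase i).card : ℝ) ≤ d := by
        have : (Finset.univ.erase i).card ≤ (Finset.univ : Finset (Fin d)).card :=
          Finset.card_le_card (Finset.erase_subset _ _)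
        rw [Finset.card_univ, Fintype.card_fin] at this
        exact_mod_cast this
      linarith
    have h8 : ent ((0 : Fin d → ℝ) i) (w i) = ent 0 (w i) := rfl
    rw [h8]
    linarith
  linarith

/-- Entropy on a box. -/
lemma V_le_of_box {w : Fin d → ℝ} (hw : ∀ i, 0 < w i) {R : ℝ} (hR : 1 ≤ R) (hb : ∀ i, w i ≤ R) :
    V 0 w ≤ d * (R * Real.log R) := by
  unfold V
  have h1 : ∀ i, ent ((0 : Fin d → ℝ) i) (w i) ≤ R * Real.log R := by
    intro i
    have h0 : ent ((0 : Fin d → ℝ) i) (w i) = ent 0 (w i) := rfl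
    rw [h0, ent_zero]
    have hlogR : 0 ≤ Real.log R := Real.log_nonneg hR
    have h2 := hw i
    rcases le_total (w i) 1 with h | h
    · have h3 : Real.log (w i) ≤ 0 := Real.log_nonpos h2.le h
      have h4 : w i * Real.log (w i) ≤ 0 := mul_nonpos_of_nonneg_of_nonpos h2.le h3
      have h5 : 0 ≤ R * Real.log R := by positivity
      linarith
    · have h3 : Real.log (w i) ≤ Real.log R := Real.log_le_log h2 (hb i)
      have h4 : 0 ≤ Real.log (w i) := Real.log_nonneg h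
      have h5 : w i * Real.log (w i) ≤ R * Real.log R := mul_le_mul (hb i) h3 h4 (by linarith)
      linarith
  calc ∑ i, ent ((0 : Fin d → ℝ) i) (w i) ≤ ∑ _i : Fin d, R * Real.log R :=
        Finset.sum_le_sum fun i _ => h1 i
    _ = d * (R * Real.log R) := by simp

/-- The upper package: the untilted function confines trajectories to boxes. -/
theorem upper_package [Fintype ι] (src tgt : ι → Fin d → ℕ) (hne : ∀ r, src r ≠ tgt r)
    (WR : WeaklyRev src tgt) (hrank : Module.finrank ℝ (Sp src tgt) ≤ 2) {c : Fin d → ℝ}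
    (hc : ∀ i, 0 < c i) (ε : ℝ) (hε : 0 < ε) :
    ∃ (Wf : (Fin d → ℝ) → ℝ) (G : (Fin d → ℝ) → Fin d → ℝ) (L₀ : ℝ) (Mf : ℝ → ℝ),
      (∀ (x : ℝ → Fin d → ℝ) (u : Fin d → ℝ) (Dm : Set ℝ) (t : ℝ),
        (∀ t' ∈ Dm, ∀ i, 0 < x t' i) → t ∈ Dm → HasDerivWithinAt x u Dm t →
        HasDerivWithinAt (fun t' => Wf (x t')) (ip (G (x t)) u) Dm t) ∧
      (∀ x : Fin d → ℝ, (∀ i, 0 < x i) → x - c ∈ Sp src tgt → ∀ L, Wf x ≤ L → L₀ ≤ L →
        ∀ i, x i ≤ Mf L) ∧
      (∀ x : Fin d → ℝ, (∀ i, 0 < x i) → x - c ∈ Sp src tgt → L₀ < Wf x →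
        ∃ r1 : ι, ∀ k : ι → ℝ, (∀ r, ε ≤ k r ∧ k r ≤ 1 / ε) →
          ip (G x) (flux src tgt k x) ≤ -(k r1 * mon src x r1)) ∧
      (∀ x : Fin d → ℝ, (∀ i, 0 < x i) → ∀ R, 1 ≤ R → (∀ i, x i ≤ R) →
        Wf x ≤ d * (R * Real.log R)) := by
  obtain ⟨Wf, G, B, δ, R, hB, hδ, h1, h2, h3⟩ := far_package src tgt hne WR hrank hc 0 ε hε
  set R₀ := max R 1 with hR₀
  have hR₀1 : 1 ≤ R₀ := le_max_right _ _
  refine ⟨Wf, G, d * (R₀ * Real.log R₀), fun L => max R₀ (max (Real.exp 2) (L + d) * Real.exp B),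
    h2, ?_, ?_, ?_⟩
  · intro x hx hS L hL _ i
    by_cases hin : ∀ i, x i ≤ R
    · exact le_max_of_le_left (le_trans (hin i) (le_max_left _ _))
    push_neg at hin
    obtain ⟨i₁, hi₁⟩ := hin
    obtain ⟨_, _, z, hz, _, hzx, hVz⟩ := h3 x hx hS ⟨i₁, Or.inr hi₁⟩
    apply le_max_of_le_right
    have h4 := coord_le_of_V_le hz (le_trans hVz hL) i
    have h5 := (abs_le.mp (hzx i)).1
    have h6 : Real.log (x i) ≤ Real.log (z i) + B := by linarith
    calc x i = Real.exp (Real.log (x i)) := (Real.exp_log (hx i)).symm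
      _ ≤ Real.exp (Real.log (z i) + B) := Real.exp_le_exp.mpr h6
      _ = z i * Real.exp B := by rw [Real.exp_add, Real.exp_log (hz i)]
      _ ≤ _ := mul_le_mul_of_nonneg_right h4 (Real.exp_pos _).le
  · intro x hx hS hL
    have hout : ∃ i, x i < δ ∨ R < x i := by
      by_contra hcon
      push_neg at hcon
      have h4 : Wf x ≤ V 0 x := h1 x hx
      have h5 := V_le_of_box hx hR₀1 (fun i => le_trans (hcon i).2 (le_max_left _ _))
      linarith
    obtain ⟨r1, h4, _⟩ := h3 x hx hS hout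
    exact ⟨r1, h4⟩
  · intro x hx R' hR' hb
    exact le_trans (h1 x hx) (V_le_of_box hx hR' hb)

/-- A lower bound for monomials on a region bounded away from zero. -/
lemma mon_lower [Fintype ι] (src : ι → Fin d → ℕ) {δ : ℝ} (hδ : 0 < δ) :
    ∃ ρ : ℝ, 0 < ρ ∧ ∀ x : Fin d → ℝ, (∀ i, δ ≤ x i) → ∀ r, ρ ≤ mon src x r := by
  obtain ⟨ρ, hρ, h⟩ := exists_pos_le (fun r : ι => ∏ i, δ ^ src r i)
    (fun r => Finset.prod_pos fun i _ => pow_pos hδ _)
  refine ⟨ρ, hρ, fun x hx r => le_trans (h r) ?_⟩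
  exact Finset.prod_le_prod (fun i _ => (pow_pos hδ _).le)
    (fun i _ => pow_le_pow_left₀ hδ.le (hx i) _)

lemma mon_pos (src : ι → Fin d → ℕ) {x : Fin d → ℝ} (hx : ∀ i, 0 < x i) (r : ι) :
    0 < mon src x r :=
  Finset.prod_pos fun i _ => pow_pos (hx i) _

end

end Vale.Agent.P072.Tilt
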